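import Vale.Agent.P032.H913.Apex
import Vale.Agent.P032.H695.JPar

/-!
# P032: the block of a `J`-partner is shorter than one on both sides

`pt_inj838` : equal points of the circle have directions which differ by a multiple of six.
`tie838` : the two ends of the block of the `J`-partner `y = pt z φ`, at distance at most one from
`φ`, with complementary palettes, are at distance less than one from `φ`.
-/

open Set Filter Topology Metric

noncomputable section

namespace Vale.Agent.P032.H838

open Vale.Agent.P032.Six Vale.Agent.P032.S5.H767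
open Vale.Agent.P032.H594 (JPair)
open Vale.Agent.P032.H471 (Sec4)

variable {U : Fin 6 → Set ℂ} {T : ℂ → Set (Fin 6)} {z y : ℂ} {a b c d e f : Fin 6}

/-- equal points of the circle -/
theorem pt_inj838 {s t : ℝ} (h : pt z s = pt z t) : ∃ n : ℤ, s = t + 6 * n := by
  have hpi := Real.pi_pos
  unfold pt at h
  obtain ⟨n, hn⟩ := H695.cis_eq (add_left_cancel h)
  refine ⟨n, ?_⟩
  have h1 : s * (Real.pi / 3) = (t + 6 * n) * (Real.pi / 3) := by rw [hn]; ring
  exact mul_right_cancel₀ (by positivity) h1

theorem pt_ne838 {s t : ℝ} (h1 : s ≠ t) (h2 : |s - t| < 6) : pt z s ≠ pt z t := by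
  intro h
  obtain ⟨n, hn⟩ := pt_inj838 h
  rw [abs_lt] at h2
  have h3 : (n : ℝ) < 1 := by linarith [h2.2]
  have h4 : (-1 : ℝ) < n := by linarith [h2.1]
  have h5 : n < 1 := by exact_mod_cast h3
  have h6 : -1 < n := by exact_mod_cast h4
  have h7 : n = 0 := by omega
  rw [h7] at hn
  apply h1
  rw [hn]; push_cast; ring

/-- **the block of the `J`-partner with complementary ends** -/
theorem tie838 (S : JPair U T z y a b c d e f) (hS : Sec4 T) {φ s t : ℝ} (hφ : pt z φ = y)
    (s0 : φ - 1 ≤ s) (s1 : s < φ) (t0 : φ < t) (t1 : t ≤ φ + 1)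
    (hs : (T (pt z s) = {a, b, e} ∨ T (pt z s) = {c, d, e}) ∨
      T (pt z s) = {a, b, f} ∨ T (pt z s) = {c, d, f})
    (ht : (T (pt z t) = {a, b, e} ∨ T (pt z t) = {c, d, e}) ∨
      T (pt z t) = {a, b, f} ∨ T (pt z t) = {c, d, f})
    (Es : EE T z (pt z s)) (Et : EE T z (pt z t)) (hc : T (pt z s) = (T (pt z t))ᶜ) :
    φ - 1 < s ∧ t < φ + 1 := by
  constructor
  · refine lt_of_le_of_ne s0 fun k => ?_
    have e1 : pt z s = pt z (φ + 5) := by
      rw [← k, show φ + 5 = φ - 1 + 6 by ring, pt_six]
    rw [e1] at hs Es hc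
    exact H913.no_end_pt913' S hS hφ hs Es Et (by rw [hc, compl_compl])
      (pt_ne838 (by linarith) (by rw [abs_lt]; constructor <;> linarith))
  · refine lt_of_le_of_ne t1 fun k => ?_
    rw [k] at ht Et hc
    exact H913.no_end_pt913 S hS hφ ht Et Es hc
      (pt_ne838 (by linarith) (by rw [abs_lt]; constructor <;> linarith))

end Vale.Agent.P032.H838
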