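import Vale.Agent.P032.H838.Ht
import Vale.Agent.P032.H594.JOrder

/-!
# P032: the winding number from three blocks

`Ht.blk` : a circle with three blocks of the label `2` (`H594.Blk`): the winding number of a height is
the sum over the blocks of (label `0` after the block) - (label `0` before the block).
-/

open Set Filter Topology

noncomputable section

namespace Vale.Agent.P032.H838

open Vale.Agent.P032.H180
open Vale.Agent.P032.H695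
open Vale.Agent.P032.H594 (Blk)

variable {Q : ℝ → Set (Fin 3)} {M : ℝ → ℤ} {W : ℤ}

theorem Ht.base {φ : ℝ} (h : Ht (fun t => Q (φ + t)) M W) : Ht Q (fun t => M (-φ + t)) W := by
  have h1 := h.shift (-φ)
  have e : (fun t => Q (φ + (-φ + t))) = Q := by
    funext t
    rw [← add_assoc, add_neg_cancel, zero_add]
  rw [e] at h1
  exact h1

/-- the label `0` at an angle, as an integer -/
def ind (Q : ℝ → Set (Fin 3)) (t : ℝ) : ℤ := by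
  classical
  exact if (0 : Fin 3) ∈ Q t then 1 else 0

theorem ind_one {t : ℝ} (h : (0 : Fin 3) ∈ Q t) : ind Q t = 1 := by
  unfold ind
  rw [if_pos h]

theorem ind_zero {t : ℝ} (h : (0 : Fin 3) ∉ Q t) : ind Q t = 0 := by
  unfold ind
  rw [if_neg h]

theorem ind_or (Q : ℝ → Set (Fin 3)) (t : ℝ) :
    (ind Q t = 1 ∧ (0 : Fin 3) ∈ Q t) ∨ (ind Q t = 0 ∧ (0 : Fin 3) ∉ Q t) := by
  by_cases h : (0 : Fin 3) ∈ Q t
  · exact Or.inl ⟨ind_one h, h⟩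
  · exact Or.inr ⟨ind_zero h, h⟩

namespace Ht

theorem res0 (h : Ht Q M W) (t : ℝ) : (0 : Fin 3) ∈ Q t ↔ M t % 6 = 0 ∨ M t % 6 = 1 ∨ M t % 6 = 5 := by
  rw [h.mem]
  simp [Res]

theorem res1 (h : Ht Q M W) (t : ℝ) : (1 : Fin 3) ∈ Q t ↔ M t % 6 = 1 ∨ M t % 6 = 2 ∨ M t % 6 = 3 := by
  rw [h.mem]
  simp [Res]
  omega

theorem res2 (h : Ht Q M W) (t : ℝ) : (2 : Fin 3) ∈ Q t ↔ M t % 6 = 3 ∨ M t % 6 = 4 ∨ M t % 6 = 5 := by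
  rw [h.mem]
  simp [Res]
  omega

/-- the window is constant on a gap -/
theorem gap (h : Ht Q M W) {p q : ℝ} (hg : ∀ t ∈ Ioo p q, (2 : Fin 3) ∉ Q t) {s t : ℝ}
    (hs : s ∈ Ioo p q) (ht : t ∈ Ioo p q) : M s / 6 = M t / 6 := by
  refine const_Ioo (a := p) (b := q) (f := fun t => M t / 6) (fun t ht => ?_) s hs t ht
  filter_upwards [h.loc t, Ioo_mem_nhds ht.1 ht.2] with s h1 h2
  have e1 := hg t ht
  have e2 := hg s h2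
  rw [h.res2] at e1 e2
  rw [abs_le] at h1
  omega

/-- the window is constant on a block -/
theorem block (h : Ht Q M W) {p q : ℝ} (hg : ∀ t ∈ Icc p q, (2 : Fin 3) ∈ Q t) {s t : ℝ}
    (hs : s ∈ Icc p q) (ht : t ∈ Icc p q) : M s / 6 = M t / 6 := by
  refine const_of_loc (a := p) (b := q) (f := fun t => M t / 6) (fun t ht => ?_) s hs t ht
  filter_upwards [mem_nhdsWithin_of_mem_nhds (h.loc t), self_mem_nhdsWithin] with s h1 h2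
  have e1 := hg t ht
  have e2 := hg s h2
  rw [h.res2] at e1 e2
  rw [abs_le] at h1
  omega

/-- a point next to a gap: exactly one of the labels `0`, `1`; the window of the gap -/
theorem edge (h : Ht Q M W) {x : ℝ} {F : Filter ℝ} [F.NeBot] (hF : F ≤ 𝓝 x)
    (hx : (2 : Fin 3) ∈ Q x) (hg : ∀ᶠ t in F, (2 : Fin 3) ∉ Q t) :
    ((0 : Fin 3) ∈ Q x ↔ (1 : Fin 3) ∉ Q x) ∧ ∀ᶠ t in F, M t / 6 = M x / 6 + ind Q x := by
  have key : ∀ᶠ t in F, ((0 : Fin 3) ∈ Q x ↔ (1 : Fin 3) ∉ Q x) ∧ M t / 6 = M x / 6 + ind Q x := by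
    filter_upwards [hg, hF (h.loc x)] with t h1 h2
    have h2 : |M t - M x| ≤ 1 := h2
    rw [h.res2] at h1 hx
    rw [abs_le] at h2
    rcases ind_or Q x with ⟨e1, e2⟩ | ⟨e1, e2⟩
    · rw [h.res0] at e2
      rw [e1, h.res0, h.res1]
      omega
    · rw [h.res0] at e2
      rw [e1, h.res0, h.res1]
      omega
  exact ⟨key.exists.choose_spec.1, key.mono fun t ht => ht.2⟩

variable {c x0 x0' x1 x1' x2 x2' : ℝ}

/-- **the winding number from three blocks** -/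
theorem blk (h : Ht Q M W) (hc : ∀ t, Q (t + 6) = Q t)
    (B : Blk {t | (2 : Fin 3) ∈ Q t} c x0 x0' x1 x1' x2 x2') :
    W = (ind Q x0' - ind Q x0) + (ind Q x1' - ind Q x1) + (ind Q x2' - ind Q x2) ∧
    ((0 : Fin 3) ∈ Q x0 ↔ (1 : Fin 3) ∉ Q x0) ∧ ((0 : Fin 3) ∈ Q x0' ↔ (1 : Fin 3) ∉ Q x0') ∧
    ((0 : Fin 3) ∈ Q x1 ↔ (1 : Fin 3) ∉ Q x1) ∧ ((0 : Fin 3) ∈ Q x1' ↔ (1 : Fin 3) ∉ Q x1') ∧
    ((0 : Fin 3) ∈ Q x2 ↔ (1 : Fin 3) ∉ Q x2) ∧ ((0 : Fin 3) ∈ Q x2' ↔ (1 : Fin 3) ∉ Q x2') := by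
  obtain ⟨a0, b0, c0, d0, a1, b1, c1, a2, b2, c2, mem⟩ := B
  have mem : ∀ t, c - 1 < t → t ≤ c + 5 →
      ((2 : Fin 3) ∈ Q t ↔ (x0 ≤ t ∧ t ≤ x0') ∨ (x1 ≤ t ∧ t ≤ x1') ∨ (x2 ≤ t ∧ t ≤ x2')) := mem
  -- gaps
  have g0 : ∀ t ∈ Ioo (c - 1) x0, (2 : Fin 3) ∉ Q t := by
    intro t ht
    rw [mem t ht.1 (by linarith [ht.2])]
    rintro (⟨k1, k2⟩ | ⟨k1, k2⟩ | ⟨k1, k2⟩) <;> linarith [ht.1, ht.2]
  have g1 : ∀ t ∈ Ioo x0' x1, (2 : Fin 3) ∉ Q t := by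
    intro t ht
    rw [mem t (by linarith [ht.1]) (by linarith [ht.2])]
    rintro (⟨k1, k2⟩ | ⟨k1, k2⟩ | ⟨k1, k2⟩) <;> linarith [ht.1, ht.2]
  have g2 : ∀ t ∈ Ioo x1' x2, (2 : Fin 3) ∉ Q t := by
    intro t ht
    rw [mem t (by linarith [ht.1]) (by linarith [ht.2])]
    rintro (⟨k1, k2⟩ | ⟨k1, k2⟩ | ⟨k1, k2⟩) <;> linarith [ht.1, ht.2]
  have g3 : ∀ t ∈ Ioo x2' (x0 + 6), (2 : Fin 3) ∉ Q t := by
    intro t ht
    rcases le_or_gt t (c + 5) with k | k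
    · rw [mem t (by linarith [ht.1]) k]
      rintro (⟨k1, k2⟩ | ⟨k1, k2⟩ | ⟨k1, k2⟩) <;> linarith [ht.1, ht.2]
    · have e := hc (t - 6)
      rw [sub_add_cancel] at e
      rw [e, mem (t - 6) (by linarith) (by linarith [ht.2])]
      rintro (⟨k1, k2⟩ | ⟨k1, k2⟩ | ⟨k1, k2⟩) <;> linarith [ht.1, ht.2]
  -- blocks
  have m0 : ∀ t ∈ Icc x0 x0', (2 : Fin 3) ∈ Q t := fun t ht =>
    (mem t (by linarith [ht.1]) (by linarith [ht.2])).2 (Or.inl ⟨ht.1, ht.2⟩)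
  have m1 : ∀ t ∈ Icc x1 x1', (2 : Fin 3) ∈ Q t := fun t ht =>
    (mem t (by linarith [ht.1]) (by linarith [ht.2])).2 (Or.inr (Or.inl ⟨ht.1, ht.2⟩))
  have m2 : ∀ t ∈ Icc x2 x2', (2 : Fin 3) ∈ Q t := fun t ht =>
    (mem t (by linarith [ht.1]) (by linarith [ht.2])).2 (Or.inr (Or.inr ⟨ht.1, ht.2⟩))
  -- left and right edges
  have L : ∀ {p x : ℝ}, p < x → (2 : Fin 3) ∈ Q x → (∀ t ∈ Ioo p x, (2 : Fin 3) ∉ Q t) →
      ((0 : Fin 3) ∈ Q x ↔ (1 : Fin 3) ∉ Q x) ∧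
        ∀ t ∈ Ioo p x, M t / 6 = M x / 6 + ind Q x := by
    intro p x hp hx hg
    have hev : ∀ᶠ t in 𝓝[<] x, t ∈ Ioo p x := Ioo_mem_nhdsLT hp
    obtain ⟨k1, k2⟩ := h.edge (F := 𝓝[<] x) nhdsWithin_le_nhds hx (hev.mono fun t ht => hg t ht)
    refine ⟨k1, fun t ht => ?_⟩
    obtain ⟨s, hs1, hs2⟩ := (k2.and hev).exists
    rw [h.gap hg ht hs2, hs1]
  have R : ∀ {x q : ℝ}, x < q → (2 : Fin 3) ∈ Q x → (∀ t ∈ Ioo x q, (2 : Fin 3) ∉ Q t) →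
      ((0 : Fin 3) ∈ Q x ↔ (1 : Fin 3) ∉ Q x) ∧
        ∀ t ∈ Ioo x q, M t / 6 = M x / 6 + ind Q x := by
    intro x q hp hx hg
    have hev : ∀ᶠ t in 𝓝[>] x, t ∈ Ioo x q := Ioo_mem_nhdsGT hp
    obtain ⟨k1, k2⟩ := h.edge (F := 𝓝[>] x) nhdsWithin_le_nhds hx (hev.mono fun t ht => hg t ht)
    refine ⟨k1, fun t ht => ?_⟩
    obtain ⟨s, hs1, hs2⟩ := (k2.and hev).exists
    rw [h.gap hg ht hs2, hs1]
  have e0 := L a0 (m0 x0 ⟨le_rfl, by linarith⟩) g0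
  have e0' := R (by linarith : x0' < x1) (m0 x0' ⟨by linarith, le_rfl⟩) g1
  have e1 := L (by linarith : x0' < x1) (m1 x1 ⟨le_rfl, by linarith⟩) g1
  have e1' := R (by linarith : x1' < x2) (m1 x1' ⟨by linarith, le_rfl⟩) g2
  have e2 := L (by linarith : x1' < x2) (m2 x2 ⟨le_rfl, by linarith⟩) g2
  have e2' := R (by linarith : x2' < x0 + 6) (m2 x2' ⟨by linarith, le_rfl⟩) g3
  refine ⟨?_, e0.1, e0'.1, e1.1, e1'.1, e2.1, e2'.1⟩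
  have f0 := e0.2 ((c - 1 + x0) / 2) ⟨by linarith, by linarith⟩
  have f3 := e2'.2 ((c - 1 + x0) / 2 + 6) ⟨by linarith, by linarith⟩
  have f1 := e0'.2 ((x0' + x1) / 2) ⟨by linarith, by linarith⟩
  have f1' := e1.2 ((x0' + x1) / 2) ⟨by linarith, by linarith⟩
  have f2 := e1'.2 ((x1' + x2) / 2) ⟨by linarith, by linarith⟩
  have f2' := e2.2 ((x1' + x2) / 2) ⟨by linarith, by linarith⟩
  have n0 := h.block m0 (s := x0) (t := x0') ⟨le_rfl, by linarith⟩ ⟨by linarith, le_rfl⟩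
  have n1 := h.block m1 (s := x1) (t := x1') ⟨le_rfl, by linarith⟩ ⟨by linarith, le_rfl⟩
  have n2 := h.block m2 (s := x2) (t := x2') ⟨le_rfl, by linarith⟩ ⟨by linarith, le_rfl⟩
  have f4 := h.per ((c - 1 + x0) / 2)
  omega

/-- **winding number `6 N + 3` and three blocks**: all blocks go from `1` to `0`, or all from `0` to
`1` -/
theorem blk_full (h : Ht Q M W) (hc : ∀ t, Q (t + 6) = Q t)
    (B : Blk {t | (2 : Fin 3) ∈ Q t} c x0 x0' x1 x1' x2 x2') {N : ℤ} (hW : W = 6 * N + 3) :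
    (((0 : Fin 3) ∉ Q x0 ∧ (0 : Fin 3) ∉ Q x1 ∧ (0 : Fin 3) ∉ Q x2) ∧
      ((1 : Fin 3) ∉ Q x0' ∧ (1 : Fin 3) ∉ Q x1' ∧ (1 : Fin 3) ∉ Q x2')) ∨
    (((1 : Fin 3) ∉ Q x0 ∧ (1 : Fin 3) ∉ Q x1 ∧ (1 : Fin 3) ∉ Q x2) ∧
      ((0 : Fin 3) ∉ Q x0' ∧ (0 : Fin 3) ∉ Q x1' ∧ (0 : Fin 3) ∉ Q x2')) := by
  obtain ⟨k, k0, k0', k1, k1', k2, k2'⟩ := h.blk hc B
  rcases ind_or Q x0 with ⟨p0, q0⟩ | ⟨p0, q0⟩ <;> rcases ind_or Q x0' with ⟨p0', q0'⟩ | ⟨p0', q0'⟩ <;>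
    rcases ind_or Q x1 with ⟨p1, q1⟩ | ⟨p1, q1⟩ <;>
    rcases ind_or Q x1' with ⟨p1', q1'⟩ | ⟨p1', q1'⟩ <;>
    rcases ind_or Q x2 with ⟨p2, q2⟩ | ⟨p2, q2⟩ <;>
    rcases ind_or Q x2' with ⟨p2', q2'⟩ | ⟨p2', q2'⟩ <;>
    first
    | (exfalso; omega)
    | exact Or.inl ⟨⟨q0, q1, q2⟩, ⟨k0'.1 q0', k1'.1 q1', k2'.1 q2'⟩⟩
    | exact Or.inr ⟨⟨k0.1 q0, k1.1 q1, k2.1 q2⟩, ⟨q0', q1', q2'⟩⟩

end Ht

end Vale.Agent.P032.H838
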