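import Vale.Agent.P032.H838.Ht
import Vale.Agent.P032.H695.ParB
import Vale.Agent.P032.H98.Star
import Vale.Agent.P032.H492.Full
import Vale.Agent.P032.H594.NCTop

/-!
# P032: two-pair points with `J`-partners which are not comp centres

* `full_of_clean` : no free colour on the closed exact arcs of one pair (and only `J`-partners): the
  point is full (proof of 492);
* `full_of_not_comp` : a two-pair point whose circle has only palettes of order at most three and
  `J`-partners and which is not a comp centre is full;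
* `cov_Q3`, `win_full` : the letters of the circle as a `Cov`; at a full point the winding number of
  every height is `6 N + 3`.
-/

open Set Filter Topology Metric

noncomputable section

namespace Vale.Agent.P032.H838

open Vale.Agent.P032.Six Vale.Agent.P032.S5.H767 Vale.Agent.P032.H695 Vale.Agent.P032.H471
open Vale.Agent.P032.H180 (Res)

variable {U : Fin 6 → Set ℂ} {T : ℂ → Set (Fin 6)} {z : ℂ} {a b c d e f : Fin 6}

/-- the ends of an exact `ab`-arc, if there are no plain ends -/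
theorem arc_end838 (h : Irr U T) {z : ℂ} {a b c d : Fin 6} (hz : DPt T z a b c d)
    (hJ : ∀ v, dist v z = 1 → 4 ≤ (T v).ncard → T v = T z)
    (hX : ∀ v ∈ closure (Ex T z {a, b}), ∀ x ∈ T v, x ∈ T z) {θ o ε : ℝ} (ho : o = 1 ∨ o = -1)
    (hε : 0 < ε) (hg : ∀ t ∈ Ioo 0 ε, T (z + cis (θ - o * t)) = {a, b}) :
    ∃ l, 0 < l ∧ ε ≤ l ∧ l ≤ Real.pi / 3 ∧ (∀ t ∈ Ioo 0 l, T (z + cis (θ - o * t)) = {a, b}) ∧
      T (z + cis (θ - o * l)) = T z := by
  have hP : ({a, b} : Set (Fin 6)).ncard = 2 := Set.ncard_pair hz.ab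
  have hPz : ({a, b} : Set (Fin 6)) ⊆ T z := by
    rw [hz.pal]
    intro i hi
    simp only [mem_insert_iff, mem_singleton_iff] at hi ⊢
    tauto
  obtain ⟨l, hl0, hεl, hl, hlt, hss⟩ := h.exists_arc ho hP hPz hε hg
  refine ⟨l, hl0, hεl, hl, hlt, hJ _ (dist_add_cis z _) ?_⟩
  set v := z + cis (θ - o * l) with hv
  have hvz : dist v z = 1 := dist_add_cis z _
  by_contra hcon
  have h3 : (T v).ncard ≤ 3 := by omega
  obtain ⟨g, hgv, hgP⟩ := exists_of_ssubset hss
  have hTv : T v = {a, b, g} := by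
    symm
    refine Set.eq_of_subset_of_ncard_le ?_ ?_ (Set.toFinite _)
    · rintro i (rfl | rfl | hi)
      · exact hss.subset (by simp)
      · exact hss.subset (by simp)
      · rw [mem_singleton_iff] at hi; subst hi; exact hgv
    · have h4 : ({a, b, g} : Set (Fin 6)).ncard = 3 := by
        have e : ({a, b, g} : Set (Fin 6)) = insert g {a, b} := by
          ext i; simp only [mem_insert_iff, mem_singleton_iff]; tauto
        rw [e, Set.ncard_insert_of_notMem hgP, hP]
      omega
  by_cases hgz : g ∈ T z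
  · -- the fourth colour
    obtain ⟨p, hp⟩ := hz.arc2
    obtain ⟨q, hq, hq1, hq2⟩ := hp.exists_off_line (y := v)
    have hgcd : g = c ∨ g = d := by
      rw [hz.pal] at hgz
      rcases hgz with rfl | rfl | rfl | h5
      · exact absurd (by simp) hgP
      · exact absurd (by simp) hgP
      · exact Or.inl rfl
      · exact Or.inr h5
    rcases hgcd with rfl | rfl
    · refine h.third_notMem (d := d) hvz h3 ?_ hq.1 (h.sub q (by rw [hq.mem]; simp)) hq1 hq2
      rw [hz.pal, hTv]
      intro i hi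
      simp only [mem_insert_iff, mem_singleton_iff] at hi ⊢
      tauto
    · refine h.third_notMem (d := c) hvz h3 ?_ hq.1 (h.sub q (by rw [hq.mem]; simp)) hq1 hq2
      rw [hz.pal, hTv]
      intro i hi
      simp only [mem_insert_iff, mem_singleton_iff] at hi ⊢
      tauto
  · refine hgz (hX v ?_ g hgv)
    have hcont : Continuous fun s : ℝ => z + cis (θ - o * s) :=
      continuous_const.add (continuous_cis.comp (by fun_prop))
    have h1 : l ∈ closure (Ioo 0 l) := by
      rw [closure_Ioo hl0.ne]; exact ⟨hl0.le, le_rfl⟩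
    exact hcont.closure_preimage_subset (Ex T z {a, b}) (closure_mono (fun s hs =>
      h.arc_of_eq hz.ab (hPz (by simp)) (hPz (by simp)) (dist_add_cis z _) (hlt s hs)) h1)

/-- **a pair without plain ends**: the two-pair point is full -/
theorem full_of_clean (h : Irr U T) {z : ℂ} {a b c d : Fin 6} (hz : DPt T z a b c d)
    (hJ : ∀ v, dist v z = 1 → 4 ≤ (T v).ncard → T v = T z)
    (hX : ∀ v ∈ closure (Ex T z {a, b}), ∀ x ∈ T v, x ∈ T z) : Full T z := by
  have hpi := Real.pi_pos
  -- the maximal arc about a point with the palette `ab`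
  have hext : ∀ θ : ℝ, T (z + cis θ) = {a, b} → ∃ α β : ℝ, α < θ ∧ θ < β ∧ β - α ≤ Real.pi / 3 ∧
      (∀ s ∈ Ioo α β, T (z + cis s) = {a, b}) ∧ T (z + cis α) = T z ∧ T (z + cis β) = T z := by
    intro θ hθ
    have harc := h.arc_of_eq hz.ab (by rw [hz.pal]; simp) (by rw [hz.pal]; simp)
      (dist_add_cis z θ) hθ
    obtain ⟨η, hη, hball⟩ := harc.exists_eta
    have hb1 : ∀ t ∈ Ioo 0 η, T (z + cis (θ - 1 * t)) = {a, b} := by
      intro t ht
      refine hball _ ?_
      rw [one_mul, show θ - t - θ = -t by ring, abs_neg, abs_of_pos ht.1]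
      exact ht.2
    have hb2 : ∀ t ∈ Ioo 0 η, T (z + cis (θ - -1 * t)) = {a, b} := by
      intro t ht
      refine hball _ ?_
      rw [neg_one_mul, sub_neg_eq_add, add_sub_cancel_left, abs_of_pos ht.1]
      exact ht.2
    obtain ⟨l1, hl1, -, -, ha1, he1⟩ := arc_end838 h hz hJ hX (Or.inl rfl) hη hb1
    obtain ⟨l2, hl2, -, -, ha2, he2⟩ := arc_end838 h hz hJ hX (Or.inr rfl) hη hb2
    have hall : ∀ s ∈ Ioo (θ - l1) (θ + l2), T (z + cis s) = {a, b} := by
      intro s hs
      rcases lt_trichotomy s θ with h1 | h1 | h1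
      · have := ha1 (θ - s) ⟨by linarith, by linarith [hs.1]⟩
        rwa [one_mul, sub_sub_cancel] at this
      · rw [h1]; exact hθ
      · have := ha2 (s - θ) ⟨by linarith, by linarith [hs.2]⟩
        rwa [neg_one_mul, sub_neg_eq_add, add_sub_cancel] at this
    have e1 : T (z + cis (θ - l1)) = T z := by rwa [one_mul] at he1
    have e2 : T (z + cis (θ + l2)) = T z := by rwa [neg_one_mul, sub_neg_eq_add] at he2
    have hb3 : ∀ t ∈ Ioo 0 (l1 + l2), T (z + cis (θ - l1 - -1 * t)) = {a, b} := by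
      intro t ht
      rw [neg_one_mul, sub_neg_eq_add]
      exact hall _ ⟨by linarith [ht.1], by linarith [ht.2]⟩
    obtain ⟨l, -, hl, hl3, -⟩ := arc_end838 h hz hJ hX (Or.inr rfl) (by linarith) hb3
    exact ⟨θ - l1, θ + l2, by linarith, by linarith, by linarith, hall, e1, e2⟩
  -- the first arc
  obtain ⟨p, hp⟩ := hz.arc1
  obtain ⟨θ₀, hθ₀⟩ := exists_cis (u := p - z) (by rw [← dist_eq_norm]; exact hp.1)
  have hpθ : z + cis θ₀ = p := by rw [← hθ₀]; ring
  obtain ⟨α, β, hα, hβ, hlen, hall, hTα, hTβ⟩ := hext θ₀ (by rw [hpθ]; exact hp.mem)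
  have hαβ : α < β := hα.trans hβ
  have hvne : z + cis α ≠ z + cis β := by
    intro h1
    have h2 : cis (β - α) = 1 := by
      have h3 : cis β = cis α := (add_left_cancel h1).symm
      have h4 : cis β = cis α * cis (β - α) := by rw [← cis_add492, add_sub_cancel]
      have h5 : cis α ≠ 0 := by rw [← norm_ne_zero_iff, norm_cis]; norm_num
      rw [h3] at h4
      exact mul_left_cancel₀ h5 (by rw [mul_one]; exact h4.symm)
    refine cis_ne_one492 (s := β - α) ?_ ?_ h2
    · rw [abs_of_pos (by linarith)]; linarith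
    · rw [abs_of_pos (by linarith)]; linarith
  -- the only points of the palette of `z`
  have hends : ∀ q, dist q z = 1 → T q = T z → q = z + cis α ∨ q = z + cis β := by
    intro q hq hqT
    by_contra hcon
    push Not at hcon
    exact h.no_three_J hz (dist_add_cis z α) (dist_add_cis z β) hq hTα hTβ hqT hvne hcon.1.symm
      hcon.2.symm
  have hcard : ({a, b} : Set (Fin 6)) ≠ T z := by
    intro h1
    have h2 : c ∈ ({a, b} : Set (Fin 6)) := by rw [h1, hz.pal]; simp
    rcases h2 with h3 | h3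
    · exact hz.ac h3.symm
    · exact hz.bc h3.symm
  have hcd : ({a, b} : Set (Fin 6)) ≠ {c, d} := by
    intro h1
    have h2 : a ∈ ({c, d} : Set (Fin 6)) := by rw [← h1]; simp
    rcases h2 with h3 | h3
    · exact hz.ac h3
    · exact hz.ad h3
  refine ⟨a, b, c, d, α, β, hz, hαβ.ne', by rw [abs_of_pos (by linarith)]; exact hlen, hTα, hTβ,
    ?_, ?_, hends⟩
  · rw [uIoo_of_lt hαβ]
    exact hall
  · rw [uIoo_of_lt hαβ]
    intro q hq hqT
    obtain ⟨θ', hθ'⟩ := exists_cis (u := q - z) (by rw [← dist_eq_norm]; exact hq)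
    have hqθ : q = z + cis θ' := by rw [← hθ']; ring
    obtain ⟨α', β', hα', hβ', hlen', hall', hTα', hTβ'⟩ := hext θ' (by rw [← hqθ]; exact hqT)
    -- `z + cis α'` is the left end
    have hleft : z + cis α' = z + cis α := by
      rcases hends _ (dist_add_cis z α') hTα' with h1 | h1
      · exact h1
      · exfalso
        have h2 : cis α' = cis β := add_left_cancel h1
        obtain ⟨τ, hτ, -, hT2⟩ := h.j_sides hz (dist_add_cis z β) hTβ
        have ev : ∀ᶠ t : ℝ in 𝓝[>] 0, 0 < t ∧ t < β - α ∧ t < β' - α' := by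
          filter_upwards [self_mem_nhdsWithin,
            mem_nhdsWithin_of_mem_nhds (Iio_mem_nhds (show (0 : ℝ) < β - α by linarith)),
            mem_nhdsWithin_of_mem_nhds (Iio_mem_nhds (show (0 : ℝ) < β' - α' by linarith))]
            with t h3 h4 h5
          exact ⟨h3, h4, h5⟩
        obtain ⟨t, ht, ht0, ht1, ht2⟩ := (hT2.and ev).exists
        have e1 : ∀ σ : ℝ, hb z (z + cis β) σ t = z + cis β * cis (σ * t) := by
          intro σ; rw [hb]; ring
        rw [e1] at ht
        rcases hτ with rfl | rfl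
        · have h3 := hall (β - t) ⟨by linarith, by linarith⟩
          rw [show β - t = β + -1 * t by ring, cis_add492] at h3
          exact hcd (h3.symm.trans ht)
        · rw [neg_neg, one_mul, ← h2, ← cis_add492] at ht
          have h3 := hall' (α' + t) ⟨by linarith, by linarith⟩
          exact hcd (h3.symm.trans ht)
    have hc : cis α' = cis α := add_left_cancel hleft
    have hsh : ∀ s, cis (α + s) = cis (α' + s) := by
      intro s; rw [cis_add492, cis_add492, hc]
    refine ⟨α + (θ' - α'), ⟨by linarith, ?_⟩, ?_⟩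
    · by_contra hcon
      push Not at hcon
      have h3 := hall' (α' + (β - α)) ⟨by linarith, by linarith⟩
      rw [← hsh, add_sub_cancel, hTβ] at h3
      exact hcard h3.symm
    · rw [hsh, add_sub_cancel]
      exact hqθ

/-! ### Not comp -/

/-- **a two-pair point with only `J`-partners which is not comp is full** -/
theorem full_of_not_comp (h : Irr U T) (hS : Sec4 T) (hz : DPt T z a b c d)
    (nd : [a, b, c, d, e, f].Nodup) (hJ : ∀ v, dist v z = 1 → (T v).ncard ≤ 3 ∨ T v = T z)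
    (hn : ¬ H594.Comp T z) : Full T z := by
  have Cc := ctr_of h hz nd
  have hn' := nd
  simp only [List.nodup_cons, List.mem_cons, List.not_mem_nil, or_false, not_or, List.nodup_nil,
    and_true, not_false_eq_true] at hn'
  obtain ⟨⟨ab, ac, ad, ae, af⟩, ⟨bc, bd, be, bf⟩, ⟨cd, ce, cf⟩, ⟨de, df⟩, ef⟩ := hn'
  have ez : e ∉ T z := by
    rw [hz.pal]
    simp only [mem_insert_iff, mem_singleton_iff, not_or]
    exact ⟨Ne.symm ae, Ne.symm be, Ne.symm ce, Ne.symm de⟩
  have fz : f ∉ T z := by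
    rw [hz.pal]
    simp only [mem_insert_iff, mem_singleton_iff, not_or]
    exact ⟨Ne.symm af, Ne.symm bf, Ne.symm cf, Ne.symm df⟩
  have h4 : (T z).ncard = 4 := by
    rw [hz.pal, Set.ncard_insert_of_notMem, Set.ncard_insert_of_notMem, Set.ncard_pair hz.cd]
    · simp only [mem_insert_iff, mem_singleton_iff, not_or]
      exact ⟨hz.bc, hz.bd⟩
    · simp only [mem_insert_iff, mem_singleton_iff, not_or]
      exact ⟨hz.ab, hz.ac, hz.ad⟩
  have hJ4 : ∀ v, dist v z = 1 → 4 ≤ (T v).ncard → T v = T z := by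
    intro v hv h5
    rcases hJ v hv with h6 | h6
    · omega
    · exact h6
  -- the palette of an end
  have pal : ∀ (p q x : Fin 6), p ≠ q → p ≠ x → q ≠ x → ∀ v, dist v z = 1 → ({p, q} : Set (Fin 6)) ⊆ T v →
      x ∈ T v → x ∉ T z → T v = {p, q, x} ∧ (T v).ncard = 3 := by
    intro p q x hpq hpx hqx v hv hs hx hxz
    have h3 : (T v).ncard ≤ 3 := by
      rcases hJ v hv with h6 | h6
      · exact h6
      · exact absurd (h6 ▸ hx) hxz
    have h5 : ({p, q, x} : Set (Fin 6)).ncard = 3 :=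
      Set.ncard_eq_three.2 ⟨p, q, x, hpq, hpx, hqx, rfl⟩
    have h6 : ({p, q, x} : Set (Fin 6)) ⊆ T v := by
      rintro i (rfl | rfl | hi)
      · exact hs (by simp)
      · exact hs (by simp)
      · rw [mem_singleton_iff] at hi; subst hi; exact hx
    have h7 := Set.eq_of_subset_of_ncard_le h6 (by omega) (Set.toFinite _)
    exact ⟨h7.symm, by rw [← h7]; exact h5⟩
  -- no complementary ends
  have noc : ∀ v ∈ closure (Ex T z {a, b}), ∀ q ∈ closure (Ex T z {c, d}), (T v).ncard = 3 →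
      T q ≠ (T v)ᶜ := by
    intro v hv q hq h3 hc
    have hvd := dist_of_closure hv
    have hqd := dist_of_closure hq
    have hne : v + q ≠ 2 * z := by
      intro k
      have k1 := sub_of_closure h hv
      have k2 := sub_of_closure h hq
      have k3 : 2 * z - v = q := by linear_combination -k
      exact h.anti hz hvd (h.sub _ (k1 (Or.inl rfl))) (h.sub _ (k1 (Or.inr rfl)))
        (by rw [k3]; exact h.sub _ (k2 (Or.inl rfl))) (by rw [k3]; exact h.sub _ (k2 (Or.inr rfl)))
    exact hn (H594.comp_of_nd h hS (X := T v) (v := v) (q := q)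
      ⟨h3, by rw [dist_comm]; exact hvd, by rw [dist_comm]; exact hqd, rfl, hc, hne⟩ h4)
  by_cases hA : ∀ v ∈ closure (Ex T z {a, b}), ∀ x ∈ T v, x ∈ T z
  · exact full_of_clean h hz hJ4 hA
  by_cases hC : ∀ v ∈ closure (Ex T z {c, d}), ∀ x ∈ T v, x ∈ T z
  · exact full_of_clean h hz.swap hJ4 hC
  exfalso
  push Not at hA hC
  obtain ⟨v, hv, x, hx, hxz⟩ := hA
  obtain ⟨q, hq, y, hy, hyz⟩ := hC
  have key : ∀ (p r p' r' s t : Fin 6), [p, r, p', r', s, t].Nodup → s ∉ T z → t ∉ T z →
      (∀ v ∈ closure (Ex T z {p, r}), ∀ q ∈ closure (Ex T z {p', r'}), (T v).ncard = 3 →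
        T q ≠ (T v)ᶜ) → ∀ v ∈ closure (Ex T z {p, r}), s ∈ T v →
      ∀ q ∈ closure (Ex T z {p', r'}), t ∉ T q := by
    intro p r p' r' s t hnd hs ht hno v hv hsv q hq htq
    have hnd0 := hnd
    simp only [List.nodup_cons, List.mem_cons, List.not_mem_nil, or_false, not_or, List.nodup_nil,
      and_true, not_false_eq_true] at hnd
    obtain ⟨⟨g1, g2, g3, g4, g5⟩, ⟨g6, g7, g8, g9⟩, ⟨g10, g11, g12⟩, ⟨g13, g14⟩, g15⟩ := hnd
    obtain ⟨k1, k2⟩ := pal p r s g1 g4 g8 v (dist_of_closure hv) (sub_of_closure h hv) hsv hs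
    obtain ⟨k3, -⟩ := pal p' r' t g10 g12 g14 q (dist_of_closure hq) (sub_of_closure h hq) htq ht
    refine hno v hv q hq k2 ?_
    rw [k1, k3, compl_of_nodup (a := p) (b := r) (r := s) (c := p') (d := r') (s := t)]
    simp only [List.nodup_cons, List.mem_cons, List.not_mem_nil, or_false, not_or, List.nodup_nil,
      and_true, not_false_eq_true]
    exact ⟨⟨g1, g4, g2, g3, g5⟩, ⟨g8, g6, g7, g9⟩, ⟨Ne.symm g11, Ne.symm g13, g15⟩, ⟨g10, g12⟩, g14⟩
  have noc' : ∀ q ∈ closure (Ex T z {c, d}), ∀ v ∈ closure (Ex T z {a, b}), (T q).ncard = 3 →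
      T v ≠ (T q)ᶜ := by
    intro q hq v hv h3 hc
    have h5 : T q = (T v)ᶜ := by rw [hc, compl_compl]
    refine noc v hv q hq ?_ h5
    rw [hc]; exact S5.H450.ncard_compl_three' h3
  have nd1 : [a, b, c, d, f, e].Nodup := by
    simp only [List.nodup_cons, List.mem_cons, List.not_mem_nil, or_false, not_or, List.nodup_nil,
      and_true, not_false_eq_true]
    exact ⟨⟨ab, ac, ad, af, ae⟩, ⟨bc, bd, bf, be⟩, ⟨cd, cf, ce⟩, ⟨df, de⟩, Ne.symm ef⟩
  have nd2 : [c, d, a, b, e, f].Nodup := by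
    simp only [List.nodup_cons, List.mem_cons, List.not_mem_nil, or_false, not_or, List.nodup_nil,
      and_true, not_false_eq_true]
    exact ⟨⟨cd, Ne.symm ac, Ne.symm bc, ce, cf⟩, ⟨Ne.symm ad, Ne.symm bd, de, df⟩, ⟨ab, ae, af⟩,
      ⟨be, bf⟩, ef⟩
  have nd3 : [c, d, a, b, f, e].Nodup := by
    simp only [List.nodup_cons, List.mem_cons, List.not_mem_nil, or_false, not_or, List.nodup_nil,
      and_true, not_false_eq_true]
    exact ⟨⟨cd, Ne.symm ac, Ne.symm bc, cf, ce⟩, ⟨Ne.symm ad, Ne.symm bd, df, de⟩, ⟨ab, af, ae⟩,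
      ⟨bf, be⟩, Ne.symm ef⟩
  rcases Cc.miss hxz with rfl | rfl
  · have k1 := key a b c d x f nd ez fz noc v hv hx
    rcases Cc.miss hyz with rfl | rfl
    · exact h.star_false hz nd hJ (key c d a b y f nd2 ez fz noc' q hq hy) k1
    · exact k1 q hq hy
  · have k1 := key a b c d x e nd1 fz ez noc v hv hx
    rcases Cc.miss hyz with rfl | rfl
    · exact k1 q hq hy
    · exact h.star_false hz nd1 hJ (key c d a b y e nd3 fz ez noc' q hq hy) k1

/-! ### The letters of the circle -/

/-- the letters of the circle form a closed cover without common point -/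
theorem cov_Q3 (C : Ctr U T z a b c d e f)
    (hJ : ∀ v, dist v z = 1 → (T v).ncard ≤ 3 ∨ T v = T z) (φ : ℝ) :
    Cov fun t => Q3 T z a b c d e f (pt z (φ + t)) where
  per t := by rw [← add_assoc, pt_six]
  ne t := by
    obtain ⟨l, hl⟩ := C.cover (dist_pt z (φ + t))
    exact ⟨mg l, Q3_mg hl⟩
  nu t := by
    by_contra hcon
    push Not at hcon
    have h0 := Q3_zero.1 (hcon 0)
    have h1 := Q3_one.1 (hcon 1)
    have h2 := Q3_two.1 (hcon 2)
    have h3 : (T (pt z (φ + t))).ncard ≤ 3 := by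
      rcases hJ _ (dist_pt z (φ + t)) with k | k
      · exact k
      · exfalso
        have k1 : e ∈ T z := k ▸ h0.2
        have hn := C.nd
        simp only [List.nodup_cons, List.mem_cons, List.not_mem_nil, or_false, not_or,
          List.nodup_nil, and_true, not_false_eq_true] at hn
        obtain ⟨⟨ab, ac, ad, ae, af⟩, ⟨bc, bd, be, bf⟩, ⟨cd, ce, cf⟩, ⟨de, df⟩, ef⟩ := hn
        rw [C.pal] at k1
        simp only [mem_insert_iff, mem_singleton_iff] at k1
        rcases k1 with k1 | k1 | k1 | k1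
        exacts [ae k1.symm, be k1.symm, ce k1.symm, de k1.symm]
    rcases h2 with h2 | h2
    · rcases C.noEF h3 h0.2 h1.2 h2 with k | k <;> exact absurd k (by decide)
    · rcases C.noEF h3 h0.2 h1.2 h2 with k | k <;> exact absurd k (by decide)
  usc t := by
    have h1 : ∀ l : Fin 3, l ∉ Q3 T z a b c d e f (pt z (φ + t)) →
        ∀ᶠ s in 𝓝 t, l ∉ Q3 T z a b c d e f (pt z (φ + s)) := by
      intro l hl
      have hc : Continuous fun s : ℝ => pt z (φ + s) := (continuous_pt z).comp (by fun_prop)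
      exact ((Q3_closed C.irr l).preimage hc).isOpen_compl.mem_nhds hl
    have h2 : ∀ᶠ s in 𝓝 t, ∀ l : Fin 3, l ∉ Q3 T z a b c d e f (pt z (φ + t)) →
        l ∉ Q3 T z a b c d e f (pt z (φ + s)) := by
      rw [eventually_all]
      intro l
      by_cases hl : l ∈ Q3 T z a b c d e f (pt z (φ + t))
      · exact Eventually.of_forall fun s k => absurd hl k
      · filter_upwards [h1 l hl] with s hs _
        exact hs
    filter_upwards [h2] with s hs l hl
    by_contra hcon
    exact hs l hcon hl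

/-- the pairs of a two-pair point are unique -/
theorem pairs_eq (h : Irr U T) {a' b' c' d' : Fin 6} (hz : DPt T z a b c d)
    (hz' : DPt T z a' b' c' d') :
    (({a', b'} : Set (Fin 6)) = {a, b} ∧ ({c', d'} : Set (Fin 6)) = {c, d}) ∨
      (({a', b'} : Set (Fin 6)) = {c, d} ∧ ({c', d'} : Set (Fin 6)) = {a, b}) := by
  have key : ∀ {x y : Fin 6}, (∃ p, Arc T z p {x, y}) → ({x, y} : Set (Fin 6)) ⊆ T z →
      ({x, y} : Set (Fin 6)) = {a, b} ∨ ({x, y} : Set (Fin 6)) = {c, d} := by
    intro x y hp hs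
    obtain ⟨p, hp⟩ := hp
    have hm := hp.mem
    have h1 : ∀ᶠ q in 𝓝[sphere z 1] p, T q = T p := by rw [hm]; exact hp.2
    have := h.twoPairs hz p hp.1 h1 (by rw [hm]; exact hs)
    rwa [hm] at this
  have s1 : ({a', b'} : Set (Fin 6)) ⊆ T z := by
    rw [hz'.pal]
    rintro i (rfl | hi)
    · simp
    · rw [mem_singleton_iff] at hi; subst hi; simp
  have s2 : ({c', d'} : Set (Fin 6)) ⊆ T z := by
    rw [hz'.pal]
    rintro i (rfl | hi)
    · simp
    · rw [mem_singleton_iff] at hi; subst hi; simp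
  have hne : ({a', b'} : Set (Fin 6)) ≠ {c', d'} := by
    intro k
    have : a' ∈ ({c', d'} : Set (Fin 6)) := by rw [← k]; simp
    rcases this with k | k
    · exact hz'.ac k
    · exact hz'.ad k
  rcases key hz'.arc1 s1 with k1 | k1 <;> rcases key hz'.arc2 s2 with k2 | k2
  · exact absurd (k1.trans k2.symm) hne
  · exact Or.inl ⟨k1, k2⟩
  · exact Or.inr ⟨k1, k2⟩
  · exact absurd (k1.trans k2.symm) hne

theorem Q3_congr {a' b' c' d' : Fin 6}
    (hp : (({a', b'} : Set (Fin 6)) = {a, b} ∧ ({c', d'} : Set (Fin 6)) = {c, d}) ∨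
      (({a', b'} : Set (Fin 6)) = {c, d} ∧ ({c', d'} : Set (Fin 6)) = {a, b})) (y : ℂ) :
    Q3 T z a' b' c' d' e f y = Q3 T z a b c d e f y := by
  ext l
  unfold Q3
  simp only [mem_ofPred_eq, Lt, Matrix.cons_val_zero, Matrix.cons_val_one, Matrix.cons_val]
  rcases hp with ⟨h1, h2⟩ | ⟨h1, h2⟩
  · rw [h1, h2]
  · rw [h1, h2, or_comm (a := y ∈ closure (Ex T z {c, d}))]

/-- **The winding number at a full point** -/
theorem win_full (h : Irr U T) (hz : DPt T z a b c d) (nd : [a, b, c, d, e, f].Nodup)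
    (hJ : ∀ v, dist v z = 1 → (T v).ncard ≤ 3 ∨ T v = T z) (hF : Full T z) {φ : ℝ} {M : ℝ → ℤ}
    {W : ℤ} (H : Ht (fun t => Q3 T z a b c d e f (pt z (φ + t))) M W) : ∃ N, W = 6 * N + 3 := by
  obtain ⟨a', b', c', d', α, β, hz', hne, hle, hTα, hTβ, harc, honly, hends⟩ := hF
  have hpq := pairs_eq h hz hz'
  have hef := (ctr_of h hz nd)
  have ez : e ∉ T z := by
    rw [hz.pal]
    have hn' := nd
    simp only [List.nodup_cons, List.mem_cons, List.not_mem_nil, or_false, not_or, List.nodup_nil,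
      and_true, not_false_eq_true] at hn'
    obtain ⟨⟨ab, ac, ad, ae, af⟩, ⟨bc, bd, be, bf⟩, ⟨cd, ce, cf⟩, ⟨de, df⟩, ef⟩ := hn'
    simp only [mem_insert_iff, mem_singleton_iff, not_or]
    exact ⟨Ne.symm ae, Ne.symm be, Ne.symm ce, Ne.symm de⟩
  have fz : f ∉ T z := by
    rw [hz.pal]
    have hn' := nd
    simp only [List.nodup_cons, List.mem_cons, List.not_mem_nil, or_false, not_or, List.nodup_nil,
      and_true, not_false_eq_true] at hn'
    obtain ⟨⟨ab, ac, ad, ae, af⟩, ⟨bc, bd, be, bf⟩, ⟨cd, ce, cf⟩, ⟨de, df⟩, ef⟩ := hn'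
    simp only [mem_insert_iff, mem_singleton_iff, not_or]
    exact ⟨Ne.symm af, Ne.symm bf, Ne.symm cf, Ne.symm df⟩
  have hef : e ≠ f := by
    have hn' := nd
    simp only [List.nodup_cons, List.mem_cons, List.not_mem_nil, or_false, not_or, List.nodup_nil,
      and_true, not_false_eq_true] at hn'
    exact hn'.2.2.2.2
  have hnd : [a', b', c', d', e, f].Nodup := by
    have he := ez
    have hf := fz
    rw [hz'.pal] at he hf
    simp only [mem_insert_iff, mem_singleton_iff, not_or] at he hf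
    obtain ⟨ea, eb, ec, ed⟩ := he
    obtain ⟨fa, fb, fc, fd⟩ := hf
    have := hz'.ab
    have := hz'.ac
    have := hz'.ad
    have := hz'.bc
    have := hz'.bd
    have := hz'.cd
    simp only [List.nodup_cons, List.mem_cons, List.not_mem_nil, or_false, not_or, List.nodup_nil,
      and_true, not_false_eq_true]
    refine ⟨⟨?_, ?_, ?_, ?_, ?_⟩, ⟨?_, ?_, ?_, ?_⟩, ⟨?_, ?_, ?_⟩, ⟨?_, ?_⟩, ?_⟩ <;>
      first | assumption | (exact Ne.symm (by assumption))
  have H' : Ht (fun t => Q3 T z a' b' c' d' e f (pt z (φ + t))) M W := by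
    have : (fun t => Q3 T z a' b' c' d' e f (pt z (φ + t))) =
        fun t => Q3 T z a b c d e f (pt z (φ + t)) := by
      funext t; exact Q3_congr hpq _
    rw [this]; exact H
  clear H hpq
  have Cc := ctr_of h hz' hnd
  have hpi := Real.pi_pos
  set m := min α β with hm
  set L := max α β - min α β with hL
  have hL0 : 0 ≤ L := by rw [hL]; linarith [min_le_max (a := α) (b := β)]
  have hL1 : L ≤ Real.pi / 3 := by
    rw [hL, max_sub_min_eq_abs']
    rwa [abs_sub_comm]
  have hpt : ∀ t : ℝ, pt z (m / (Real.pi / 3) + t) = z + cis (m + t * (Real.pi / 3)) := by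
    intro t
    unfold pt
    congr 2
    field_simp
  have hmem : ∀ t ∈ Icc (0 : ℝ) (L / (Real.pi / 3)), m + t * (Real.pi / 3) ∈ uIcc α β := by
    intro t ht
    have h1 : t * (Real.pi / 3) ≤ L := by
      have := ht.2
      rwa [le_div_iff₀ (by positivity)] at this
    have h2 : 0 ≤ t * (Real.pi / 3) := mul_nonneg ht.1 (by positivity)
    show _ ∈ Icc (min α β) (max α β)
    constructor
    · rw [← hm]; linarith
    · rw [← hm] at hL; linarith
  -- palettes of the closed arc
  have hclT : ∀ θ ∈ uIcc α β, T (z + cis θ) = {a', b'} ∨ T (z + cis θ) = T z := by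
    intro θ hθ
    by_cases h1 : θ = α
    · right; rw [h1]; exact hTα
    by_cases h2 : θ = β
    · right; rw [h2]; exact hTβ
    left
    refine harc θ ?_
    rw [mem_uIcc] at hθ
    rcases hθ with h3 | h3
    · exact mem_uIoo_of_lt (lt_of_le_of_ne h3.1 (Ne.symm h1)) (lt_of_le_of_ne h3.2 h2)
    · exact mem_uIoo_of_gt (lt_of_le_of_ne h3.1 (Ne.symm h2)) (lt_of_le_of_ne h3.2 h1)
  have hab : ({a', b'} : Set (Fin 6)) ⊆ T z := by
    rw [hz'.pal]
    rintro x (rfl | hx)
    · exact Or.inl rfl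
    · rw [mem_singleton_iff] at hx
      exact Or.inr (Or.inl hx)
  have hclab : ∀ θ ∈ uIcc α β, ({a', b'} : Set (Fin 6)) ⊆ T (z + cis θ) := by
    intro θ hθ
    rcases hclT θ hθ with h1 | h1
    · rw [h1]
    · rw [h1]; exact hab
  have hcont : Continuous fun θ : ℝ => z + cis θ := continuous_const.add continuous_cis
  -- the closure of the exact arcs
  have hcl : ∀ q ∈ closure (Ex T z {a', b'}), ∃ θ ∈ uIcc α β, q = z + cis θ := by
    have h1 : IsClosed ((fun θ : ℝ => z + cis θ) '' uIcc α β) :=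
      (isCompact_uIcc.image hcont).isClosed
    have h2 : closure (Ex T z {a', b'}) ⊆ (fun θ : ℝ => z + cis θ) '' uIcc α β := by
      refine closure_minimal (fun y hy => ?_) h1
      obtain ⟨θ, hθ, hyθ⟩ := honly y hy.1 (ex_self hy)
      exact ⟨θ, ⟨hθ.1.le, hθ.2.le⟩, hyθ.symm⟩
    intro q hq
    obtain ⟨θ, hθ, hqθ⟩ := h2 hq
    exact ⟨θ, hθ, hqθ.symm⟩
  have hin : ∀ θ ∈ uIcc α β, z + cis θ ∈ closure (Ex T z {a', b'}) := by
    intro θ hθ
    have h1 : θ ∈ closure (uIoo α β) := by
      have h2 : closure (Ioo (min α β) (max α β)) = Icc (min α β) (max α β) := by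
        refine closure_Ioo ?_
        intro h3
        have k1 := le_max_left α β
        have k2 := le_max_right α β
        have k3 := min_le_left α β
        have k4 := min_le_right α β
        rw [← h3] at k1 k2
        exact hne (le_antisymm (k2.trans k3) (k1.trans k4))
      show θ ∈ closure (Ioo (min α β) (max α β))
      rw [h2]; exact hθ
    have h3 := (hcont.closure_preimage_subset (Ex T z {a', b'}))
    refine h3 (closure_mono (fun s hs => ?_) h1)
    have h4 := harc s hs
    exact h.arc_of_eq hz'.ab (hab (Or.inl rfl)) (hab (Or.inr rfl)) (dist_add_cis z s) h4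
  -- the three facts
  have fX : ∀ t ∈ Icc (0 : ℝ) (L / (Real.pi / 3)), e ∉ T (pt z (m / (Real.pi / 3) + t)) ∧
      f ∉ T (pt z (m / (Real.pi / 3) + t)) := by
    intro t ht
    rw [hpt]
    have h1 : T (z + cis (m + t * (Real.pi / 3))) ⊆ T z := by
      rcases hclT _ (hmem t ht) with h1 | h1
      · rw [h1]; exact hab
      · rw [h1]
    exact ⟨fun hc => ez (h1 hc), fun hc => fz (h1 hc)⟩
  have fonly : ∀ t ∈ Ioo (L / (Real.pi / 3)) (6 : ℝ),
      pt z (m / (Real.pi / 3) + t) ∉ closure (Ex T z {a', b'}) := by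
    intro t ht hq
    obtain ⟨θ, hθ, hq'⟩ := hcl _ hq
    rw [hpt] at hq'
    obtain ⟨n, hn⟩ := cis_eq (add_left_cancel hq')
    have hθ' : θ ∈ Icc (min α β) (max α β) := hθ
    have b1 : L < t * (Real.pi / 3) := by
      have := ht.1
      rwa [div_lt_iff₀ (by positivity)] at this
    have b2 : t * (Real.pi / 3) < 2 * Real.pi := by nlinarith [ht.2]
    rw [← hm] at hθ' hL
    have b3 : 0 < (n : ℝ) * (2 * Real.pi) := by linarith [hθ'.2]
    have b4 : (n : ℝ) * (2 * Real.pi) < 2 * Real.pi := by linarith [hθ'.1]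
    have c1 : (0 : ℝ) < n := by
      by_contra hc
      have : (n : ℝ) * (2 * Real.pi) ≤ 0 := mul_nonpos_of_nonpos_of_nonneg (not_lt.1 hc)
        (by positivity)
      linarith
    have c2 : (n : ℝ) < 1 := by
      by_contra hc
      have : 1 * (2 * Real.pi) ≤ (n : ℝ) * (2 * Real.pi) :=
        mul_le_mul_of_nonneg_right (not_lt.1 hc) (by positivity)
      linarith
    have c3 : (0 : ℤ) < n := by exact_mod_cast c1
    have c4 : n < (1 : ℤ) := by exact_mod_cast c2
    omega
  have fback : ∀ t ∈ Icc (0 : ℝ) (L / (Real.pi / 3)),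
      pt z (m / (Real.pi / 3) + 3 + t) ∉ closure (Ex T z {c', d'}) := by
    intro t ht hq
    have e1 : m / (Real.pi / 3) + 3 + t = m / (Real.pi / 3) + t + 3 := by ring
    rw [e1, pt_three, hpt] at hq
    have h1 := hclab _ (hmem t ht)
    have h2 := sub_of_closure h hq
    exact h.anti hz' (dist_add_cis z _) (h.sub _ (h1 (Or.inl rfl))) (h.sub _ (h1 (Or.inr rfl)))
      (h.sub _ (h2 (Or.inl rfl))) (h.sub _ (h2 (Or.inr rfl)))
  have h3 : ∀ q, dist q z = 1 → q ∉ closure (Ex T z {a', b'}) → (T q).ncard ≤ 3 := by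
    intro q hq hqc
    rcases hJ q hq with k | k
    · exact k
    · exfalso
      rcases hends q hq k with h5 | h5
      · exact hqc (h5 ▸ hin α left_mem_uIcc)
      · exact hqc (h5 ▸ hin β right_mem_uIcc)
  have hα0 : 0 ≤ L / (Real.pi / 3) := by positivity
  have hα1 : L / (Real.pi / 3) ≤ 1 := by rw [div_le_one (by positivity)]; exact hL1
  have hinc : ∀ t t' : ℝ, t ∈ Ioo (L / (Real.pi / 3)) (6 : ℝ) →
      t' ∈ Ioo (L / (Real.pi / 3)) (6 : ℝ) →
      dist (pt z (m / (Real.pi / 3) + t)) (pt z (m / (Real.pi / 3) + t')) = 1 →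
      ¬ Q3 T z a' b' c' d' e f (pt z (m / (Real.pi / 3) + t)) ⊆
        Q3 T z a' b' c' d' e f (pt z (m / (Real.pi / 3) + t')) := by
    intro t t' ht ht' hd
    have k1 := fonly t ht
    have k2 := fonly t' ht'
    refine not_sub Cc (dist_pt z _) (dist_pt z _) hd k1 k2 ?_
    rintro ⟨l, n, hln, j1, j2, j3, j4⟩
    exact Cc.noswap hln hd (h3 _ (dist_pt z _) k1) (h3 _ (dist_pt z _) k2) j1 j2 j3 j4
  refine Ht.full H' (cov_Q3 Cc hJ φ) (x := m / (Real.pi / 3) - φ) hα0 hα1 (fun t ht => ?_)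
    (fun t ht => ?_) fun t ht => ?_
  · intro l hl
    have e1 : φ + (m / (Real.pi / 3) - φ + t) = m / (Real.pi / 3) + t := by ring
    rw [e1] at hl
    obtain ⟨k1, k2⟩ := fX t ht
    have hl3 : l = 0 ∨ l = 1 ∨ l = 2 := by fin_cases l <;> simp
    rcases hl3 with rfl | rfl | rfl
    · exact absurd (Q3_zero.1 hl).2 k1
    · exact absurd (Q3_one.1 hl).2 k2
    · rfl
  · intro hl
    have e1 : φ + (m / (Real.pi / 3) - φ + 3 + t) = m / (Real.pi / 3) + 3 + t := by ring
    rw [e1] at hl
    rcases Q3_two.1 hl with k | k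
    · refine fonly (3 + t) ⟨by linarith [ht.1], by linarith [ht.2]⟩ ?_
      rw [← add_assoc]; exact k
    · exact fback t ht k
  · have e1 : φ + (m / (Real.pi / 3) - φ + t) = m / (Real.pi / 3) + t := by ring
    have e2 : φ + (m / (Real.pi / 3) - φ + t + 1) = m / (Real.pi / 3) + (t + 1) := by ring
    simp only [e1, e2]
    have hd : dist (pt z (m / (Real.pi / 3) + t)) (pt z (m / (Real.pi / 3) + (t + 1))) = 1 := by
      rw [← add_assoc]; exact dist_pt_one z _
    have ht1 : t ∈ Ioo (L / (Real.pi / 3)) (6 : ℝ) := ⟨ht.1, by linarith [ht.2]⟩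
    have ht2 : t + 1 ∈ Ioo (L / (Real.pi / 3)) (6 : ℝ) := ⟨by linarith [ht.1], by linarith [ht.2]⟩
    exact ⟨hinc t (t + 1) ht1 ht2 hd, hinc (t + 1) t ht2 ht1 (by rw [dist_comm]; exact hd)⟩

end Vale.Agent.P032.H838
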