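import Vale.Agent.P032.H838.GTr

/-!
# P032: the general end of the windowed centre, the Lean side

`g_end` : the tables of `H728.G` (canonical states `C`, steps `E`, closures `N`) give `False`, from
the rules at all limit states (`hS`), for any relation `Kl` of columns which never holds.
-/

open Set Filter Topology Metric

noncomputable section

namespace Vale.Agent.P032.H838.GTr

open Vale.Agent.P032.Six Vale.Agent.P032.Sweep Vale.Agent.P032.S5.H767 Vale.Agent.P032.S5.H122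
  Vale.Agent.P032.H429 Vale.Agent.P032.H158 Vale.Agent.P032.H728 Vale.Agent.P032.H728.G

theorem okSt_T {σ : Equiv.Perm (Fin 6)} {k : ℕ} {s : St} (h : OkSt s) : OkSt (T σ k s) := by
  unfold T
  refine okSt_prm ?_
  induction k with
  | zero => exact h
  | succ k ih =>
    rw [Function.iterate_succ_apply']
    exact okSt_shift ih

theorem cov_T {σ : Equiv.Perm (Fin 6)} {k : ℕ} {s : St} (h : Cov s.2) : Cov (T σ k s).2 := by
  unfold T
  refine cov_prm ?_
  induction k with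
  | zero => exact h
  | succ k ih =>
    rw [Function.iterate_succ_apply']
    exact cov_shift ih

/-- the crossings without the impossible ones -/
def nrm (w : Wn) (c : Cn) : Cn := fun i =>
  if (w i).2 = 0 ∧ (c i).1 = false then (false, false) else c i

theorem nrm_mv (w : Wn) (c : Cn) : mvW w (nrm w c) = mvW w c := by
  funext i
  show mvw (w i) (nrm w c i) = mvw (w i) (c i)
  unfold nrm
  by_cases h : (w i).2 = 0 ∧ (c i).1 = false
  · rw [if_pos h]
    unfold mvw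
    rw [h.1, h.2]
    cases (c i).2 <;> simp
  · rw [if_neg h]

theorem nrm_le {w : Wn} {c c' : Cn} (h : leC c c') : leC (nrm w c) (nrm w c') := by
  intro i
  have h1 := h i
  unfold nrm
  by_cases h2 : (w i).2 = 0 ∧ (c i).1 = false
  · rw [if_pos h2]
    exact ⟨fun h => absurd h (by simp), fun h => absurd h (by simp)⟩
  · rw [if_neg h2]
    by_cases h3 : (w i).2 = 0 ∧ (c' i).1 = false
    · exfalso
      refine h2 ⟨h3.1, ?_⟩
      by_contra h4
      have h5 := h1.1 (by simpa using h4)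
      rw [h3.2] at h5
      cases h5
    · rw [if_neg h3]
      exact h1

theorem nrm_none (w : Wn) : nrm w (fun _ => (false, false)) = fun _ => (false, false) := by
  funext i
  unfold nrm
  split_ifs <;> rfl

theorem nrm_all (w : Wn) : nrm w (fun _ => (true, true)) = fun _ => (true, true) := by
  funext i
  unfold nrm
  rw [if_neg (by simp)]

theorem nrm_wok (w : Wn) (c : Cn) : wok w (nrm w c) := by
  intro i hi
  unfold nrm at hi ⊢
  by_cases h : (w i).2 = 0 ∧ (c i).1 = false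
  · rw [if_pos h] at hi
    cases hi
  · rw [if_neg h] at hi ⊢
    by_cases h1 : (w i).2 = 0
    · left
      by_contra h2
      exact h ⟨h1, by simpa using h2⟩
    · right; omega

theorem encP_one : EncP 1 181896 := by
  intro i
  revert i
  unfold G.dg
  decide

/-- renaming the union of crossings -/
theorem orC_ren (σ : Equiv.Perm (Fin 6)) (c m : Cn) :
    orC (fun i => c (σ i)) (fun i => m (σ i)) = fun i => orC c m (σ i) := rfl

theorem inN_spec {N : List Node} {g c : ℕ} (h : inN N g c = true) :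
    ∃ x ∈ N, x.c = c ∧ x.g = g := by
  unfold inN at h
  rw [List.any_eq_true] at h
  obtain ⟨x, hx, h1⟩ := h
  rw [Bool.and_eq_true] at h1
  exact ⟨x, hx, Nat.eq_of_beq_eq_true h1.1, Nat.eq_of_beq_eq_true h1.2⟩

theorem T_win_eq (σ : Equiv.Perm (Fin 6)) (k : ℕ) (g g' : Cl) (W : Wn) :
    (T σ k (g, W)).2 = (T σ k (g', W)).2 := by
  funext i
  rw [T_win, T_win]

/-- The canonical form of a node: `P` is the renamed state of the node. -/
theorem node_can {C : ℕ → ℕ × ℕ} {E : ℕ → List Grp} {N : List Node} {id : ℕ} {x : Node}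
    (h1 : nodeOK C E id (C id).2 N x = true) {W0 : Wn} (hlW0 : ∀ i, (W0 i).2 ≤ 3)
    (hcv : cv W0 = (C id).2) {p : Cl} {e : Cn} (hwe : wok W0 e) (hxc : x.c = cc e)
    (hxg : x.g = cw p) (hPlen : ∀ i, (mvW W0 e i).2 ≤ 3) :
    ∃ τ : Equiv.Perm (Fin 6), EncP τ x.π ∧ EncP τ⁻¹ x.π' ∧ x.k < 6 ∧
      cw (T τ x.k (p, mvW W0 e)).1 = (C x.i).1 ∧ cv (T τ x.k (p, mvW W0 e)).2 = (C x.i).2 := by
  unfold nodeOK at h1
  simp only [Bool.and_eq_true] at h1
  obtain ⟨⟨⟨⟨h2, h3⟩, h4⟩, h5⟩, -⟩ := h1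
  have h3 : x.k ≤ 5 := Nat.ble_eq.mp h3
  have h4 := Nat.eq_of_beq_eq_true h4
  have h5 := Nat.eq_of_beq_eq_true h5
  obtain ⟨τ, hτ, hτ'⟩ := perm_of_isP h2
  refine ⟨τ, hτ, hτ', by omega, ?_, ?_⟩
  · rw [cw_T hτ, ← h4, hxg]
  · rw [cv_T hτ' (by omega) _ hPlen, ← h5, hxc, ← hcv, ← cv_mvW hlW0 hwe hPlen]

/-- The steps of a node in the list. -/
theorem node_edge {C : ℕ → ℕ × ℕ} {E : ℕ → List Grp} {N : List Node} {id : ℕ} {x : Node}
    (h1 : nodeOK C E id (C id).2 N x = true) {e1 : Grp} (he1 : e1 ∈ E x.i) {y : ℕ × ℕ}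
    (hy : y ∈ e1.l) : y.2 < id ∨ Nat.land y.1 (trC x.π' x.c) ≠ 0 ∨
      inN N (trW x.π' ((6 - x.k) % 6) e1.q) (Nat.lor x.c (trC x.π y.1)) = true := by
  unfold nodeOK at h1
  simp only [Bool.and_eq_true] at h1
  obtain ⟨-, h6⟩ := h1
  rw [List.all_eq_true] at h6
  have h7 := h6 e1 he1
  rw [List.all_eq_true] at h7
  have h8 := h7 y hy
  rw [Bool.or_eq_true, Bool.or_eq_true] at h8
  rcases h8 with (h8 | h8) | h8
  · left
    by_contra h10
    have h11 : Nat.ble id y.2 = true := Nat.ble_eq.mpr (by omega)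
    rw [h11] at h8
    cases h8
  · right; left
    intro h10
    rw [h10] at h8
    cases h8
  · exact Or.inr (Or.inr h8)

/-- The targets of a group are canonical. -/
theorem grp_can {C : ℕ → ℕ × ℕ} {V : ℕ} {e1 : Grp} (h : grpOK C V e1 = true) {y : ℕ × ℕ}
    (hy : y ∈ e1.l) {Q : Wn} {q' : Cl} {M : Cn} (hQ : ∀ i, (Q i).2 ≤ 3) (hV : cv Q = V)
    (hw : wok Q M) (hl : ∀ i, (mvW Q M i).2 ≤ 3) (hq : e1.q = cw q') (hM : y.1 = cc M) :
    ∃ κ : Equiv.Perm (Fin 6), e1.k < 6 ∧ cw (T κ e1.k (q', mvW Q M)).1 = (C y.2).1 ∧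
      cv (T κ e1.k (q', mvW Q M)).2 = (C y.2).2 := by
  unfold grpOK at h
  simp only [Bool.and_eq_true] at h
  obtain ⟨⟨g2, g3⟩, g4⟩ := h
  rw [List.all_eq_true] at g4
  have g5 := g4 y hy
  rw [Bool.and_eq_true] at g5
  have g6 := Nat.eq_of_beq_eq_true g5.1
  have g7 := Nat.eq_of_beq_eq_true g5.2
  have g3' : e1.k ≤ 5 := Nat.ble_eq.mp g3
  obtain ⟨κ, hκ, hκ'⟩ := perm_of_isP g2
  refine ⟨κ, by omega, ?_, ?_⟩
  · rw [cw_T hκ, ← g6, hq]
  · rw [cv_T hκ' (by omega) _ hl, ← g7, ← hV, hM, ← cv_mvW hQ hw hl]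

/-- **One step of a closure** in the frame of the start: `W0` has the canonical codes. -/
theorem node_step {Kl : Cl → Cl → Prop}
    (hKl : ∀ σ k s s', Kl (T σ k s).1 (T σ k s').1 → Kl s.1 s'.1)
    {C : ℕ → ℕ × ℕ} {E : ℕ → List Grp} {N : List Node} {n id : ℕ}
    (hE : ∀ i < n, EdgeC Kl C E i) (hG : ∀ i < n, (E i).all (grpOK C (C i).2) = true)
    (hN : N.all (nodeOK C E id (C id).2 N) = true) (hB : ∀ x ∈ N, x.i < n) (hidn : id < n)
    {W0 : Wn} (hlW0 : ∀ i, (W0 i).2 ≤ 3) (hcv : cv W0 = (C id).2) {p p' : Cl} {e e' : Cn}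
    (hc : leC e e') (hwc : wok W0 e) (hwc' : wok W0 e') (hok : OkSt (p, mvW W0 e))
    (hok' : OkSt (p', mvW W0 e')) (hcov : Cov (mvW W0 e')) (hk : ¬ Kl p p')
    (hmin : ∀ i < n, (∃ τ : Equiv.Perm (Fin 6), ∃ k < 6, cw (T τ k (p', mvW W0 e')).1 = (C i).1 ∧
      cv (T τ k (p', mvW W0 e')).2 = (C i).2) → id ≤ i)
    (hA : inN N (cw p) (cc e) = true) : inN N (cw p') (cc e') = true := by
  obtain ⟨x, hx, hxc, hxg⟩ := inN_spec hA
  rw [List.all_eq_true] at hN
  have h1 := hN x hx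
  obtain ⟨τ, hτ, hτ', hk6, hQ1, hQ2⟩ := node_can h1 hlW0 hcv hwc hxc hxg hok.1
  have hτ'' : EncP τ⁻¹⁻¹ x.π := encP_mul_inv hτ
  have hxn := hB x hx
  -- the step
  obtain ⟨m, hm⟩ : ∃ m : Cn, m = dfC e' e := ⟨_, rfl⟩
  have hdj : djC e m := by rw [hm]; exact djC_dfC e' e
  have hor : orC e m = e' := by rw [hm]; exact orC_dfC hc
  have hmv : mvW W0 e' = mvW (mvW W0 e) m := by rw [mvW_mvW hwc hdj, hor]
  obtain ⟨M, hM⟩ : ∃ M : Cn, M = fun i => m (τ⁻¹ i) := ⟨_, rfl⟩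
  obtain ⟨Q, hQ⟩ : ∃ Q : St, Q = T τ x.k (p, mvW W0 e) := ⟨_, rfl⟩
  obtain ⟨q', hq'⟩ : ∃ q' : Cl, q' = (T τ x.k (p', mvW W0 e)).1 := ⟨_, rfl⟩
  rw [← hQ] at hQ1 hQ2
  have hQ' : T τ x.k (p', mvW W0 e') = (q', mvW Q.2 M) := by
    rw [hmv, T_mvW, T_win_eq τ x.k p' p, ← hq', ← hQ, hM]
  have hokQ : OkSt Q := by rw [hQ]; exact okSt_T hok
  have hokQ' : OkSt (q', mvW Q.2 M) := by rw [← hQ']; exact okSt_T hok'
  have hcovQ' : Cov (mvW Q.2 M) := by
    have h7 : Cov (T τ x.k (p', mvW W0 e')).2 := cov_T hcov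
    rw [hQ'] at h7
    exact h7
  have hwM : wok Q.2 M := by
    have h7 : wok (mvW W0 e) m := wok_mvW hdj (by rw [hor]; exact hwc')
    rw [hQ, hM]
    exact wok_T h7
  have hkQ : ¬ Kl Q.1 q' := fun h7 => hk (hKl τ x.k (p, mvW W0 e) (p', mvW W0 e) (by
    rw [← hQ, ← hq']; exact h7))
  rcases hE x.i hxn Q M q' hQ1 hQ2 hokQ hwM hokQ' hcovQ' hkQ with ⟨hq, hM0⟩ | ⟨e1, he1, heq, y, hy,
    hyc⟩
  · -- no change
    have hm0 : m = fun _ => (false, false) := by
      funext i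
      have h7 := congrFun (hM.symm.trans hM0) (τ i)
      have h8 : τ⁻¹ (τ i) = i := Equiv.symm_apply_apply τ i
      have h9 : m (τ⁻¹ (τ i)) = (false, false) := h7
      rw [h8] at h9
      exact h9
    have hcc : e' = e := by
      rw [← hor, hm0]
      funext i
      unfold orC
      simp
    have hgg : p' = p := by
      have h7 : T τ x.k (p', mvW W0 e) = T τ x.k (p, mvW W0 e) := by
        refine Prod.ext ?_ (T_win_eq τ x.k p' p _)
        rw [← hq', ← hQ]; exact hq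
      have h8 := congrArg (T τ⁻¹ ((6 - x.k) % 6)) h7
      rw [T_inv τ hk6, T_inv τ hk6] at h8
      exact congrArg Prod.fst h8
    rw [hcc, hgg]
    exact hA
  · -- a step of the list
    rcases node_edge h1 he1 hy with h8 | h8 | h8
    · exfalso
      have hg := hG x.i hxn
      rw [List.all_eq_true] at hg
      obtain ⟨κ, hk7, k1, k2⟩ := grp_can (hg e1 he1) hy hokQ.1 hQ2 hwM hokQ'.1 heq hyc
      have h9 := hmin y.2 (by omega) ⟨κ * τ, (e1.k + x.k) % 6, Nat.mod_lt _ (by norm_num), by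
        rw [T_mod, ← T_T, hQ']; exact k1, by rw [T_mod, ← T_T, hQ']; exact k2⟩
      omega
    · exfalso
      apply h8
      rw [hyc, hxc, ← cc_ren hτ', hM]
      have h9 : Nat.land (cc fun i => m (τ⁻¹ i)) (cc fun i => e (τ⁻¹ i)) =
          Nat.land (cc fun i => e (τ⁻¹ i)) (cc fun i => m (τ⁻¹ i)) := Nat.and_comm _ _
      rw [h9]
      exact (cc_dj _ _).2 fun i => hdj (τ⁻¹ i)
    · have a1 : trW x.π' ((6 - x.k) % 6) e1.q = cw p' := by
        rw [heq, hq', ← cw_T hτ', T_inv τ hk6]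
      have h12 : (fun i => M (τ⁻¹⁻¹ i)) = m := by
        funext i
        rw [hM]
        show m (τ⁻¹ (τ⁻¹⁻¹ i)) = m i
        rw [inv_inv]
        exact congrArg m (Equiv.symm_apply_apply τ i)
      have a2 : Nat.lor x.c (trC x.π y.1) = cc e' := by
        rw [hyc, ← cc_ren hτ'' M, h12, hxc, ← cc_or, hor]
      rw [a1, a2] at h8
      exact h8

section

variable {U : Fin 6 → Set ℂ} {T0 : ℂ → Set (Fin 6)} {z : ℂ} {L R : Fin 6 → ℝ}

/-- **The general end**: the tables give `False`. -/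
theorem g_end (h : Irr U T0) (w : WinData T0 z L R) {Kl : Cl → Cl → Prop}
    (hS : ∀ u, ∀ s ∈ LS T0 z L R u, ∀ s' ∈ RS T0 z L R u, ¬ Kl s.1 s'.1)
    (hKl : ∀ σ k s s', Kl (T σ k s).1 (T σ k s').1 → Kl s.1 s'.1)
    {C : ℕ → ℕ × ℕ} {E : ℕ → List Grp} {N : ℕ → List Node} {n : ℕ} (hC : StatC C n)
    (hE : ∀ i < n, EdgeC Kl C E i) (hG : ∀ i < n, (E i).all (grpOK C (C i).2) = true)
    (hN : ∀ i < n, cloOK C E i (N i) = true) (hB : ∀ i < n, ∀ x ∈ N i, x.i < n) : False := by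
  classical
  have hok : ∀ t ∈ WinData.G T0 z L R, OkSt (WinData.st T0 z L R t) := fun t ht => ok_st h w ht
  have hcov : ∀ t ∈ WinData.G T0 z L R, Cov (WinData.st T0 z L R t).2 := fun t ht =>
    cov_wn w ht.2
  have hex : ∃ i, i < n ∧ ∃ t ∈ WinData.G T0 z L R, ∃ σ : Equiv.Perm (Fin 6), ∃ k < 6,
      cw (T σ k (WinData.st T0 z L R t)).1 = (C i).1 ∧
        cv (T σ k (WinData.st T0 z L R t)).2 = (C i).2 := by
    obtain ⟨a, haG⟩ := (WinData.G_dense h z L R).nonempty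
    obtain ⟨i, hi, σ, k, hk, h1, h2⟩ := hC _ (hok a haG) (hcov a haG)
    exact ⟨i, hi, a, haG, σ, k, hk, h1, h2⟩
  obtain ⟨id, hin, ⟨a, haG, σ, k, hk, e1, e2⟩, hmin⟩ : ∃ id < n, (∃ t ∈ WinData.G T0 z L R,
      ∃ σ : Equiv.Perm (Fin 6), ∃ k < 6, cw (T σ k (WinData.st T0 z L R t)).1 = (C id).1 ∧
        cv (T σ k (WinData.st T0 z L R t)).2 = (C id).2) ∧
      ∀ i < n, ∀ t ∈ WinData.G T0 z L R, (∃ τ : Equiv.Perm (Fin 6), ∃ k < 6,
        cw (T τ k (WinData.st T0 z L R t)).1 = (C i).1 ∧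
          cv (T τ k (WinData.st T0 z L R t)).2 = (C i).2) → id ≤ i :=
    ⟨Nat.find hex, (Nat.find_spec hex).1, (Nat.find_spec hex).2,
      fun i hi t ht hx => Nat.find_min' hex ⟨hi, t, ht, hx⟩⟩
  -- turn the start
  have hturn : ∀ k : ℕ, ∃ b ∈ WinData.G T0 z L R,
      WinData.st T0 z L R b = H429.shift^[k] (WinData.st T0 z L R a) := by
    intro k
    induction k with
    | zero => exact ⟨a, haG, rfl⟩
    | succ k ih =>
      obtain ⟨b, hb, hb'⟩ := ih
      refine ⟨b + 1, WinData.G_turn hb, ?_⟩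
      rw [WinData.st_turn, hb', Function.iterate_succ_apply']
  obtain ⟨b, hbG, hb⟩ := hturn k
  have f1 : T σ 0 (WinData.st T0 z L R b) = T σ k (WinData.st T0 z L R a) := by
    unfold T
    rw [hb]
    rfl
  rw [← f1] at e1 e2
  have hclo := hN id hin
  unfold cloOK at hclo
  simp only [Bool.and_eq_true] at hclo
  obtain ⟨⟨c1, c2⟩, c3⟩ := hclo
  obtain ⟨W, hW⟩ : ∃ W : Wn, W = wn L R b := ⟨_, rfl⟩
  have hWst : (WinData.st T0 z L R b).2 = W := by rw [hW]; rfl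
  have hlen : ∀ i, (W i).2 ≤ 3 := by
    intro i
    rw [← hWst]
    exact (hok b hbG).1 i
  -- the windows of the renamed start
  obtain ⟨W0, hW0⟩ : ∃ W0 : Wn, W0 = fun i => W (σ⁻¹ i) := ⟨_, rfl⟩
  have hT2 : ∀ g : Cl, ∀ V : Wn, (T σ 0 (g, V)).2 = fun i => V (σ⁻¹ i) := by
    intro g V
    funext i
    rw [T_win]
    simp
  have hcvW0 : cv W0 = (C id).2 := by
    have h7 : (T σ 0 (WinData.st T0 z L R b)).2 = W0 := by
      rw [hW0, ← hWst]
      exact hT2 (WinData.st T0 z L R b).1 _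
    rw [← e2, h7]
  have hlW0 : ∀ i, (W0 i).2 ≤ 3 := fun i => by rw [hW0]; exact hlen _
  have hmv : ∀ (g : Cl) (c : Cn), T σ 0 (g, mvW W c) =
      ((T σ 0 (g, W)).1, mvW W0 fun i => c (σ⁻¹ i)) := by
    intro g c
    rw [T_mvW, hT2, hW0]
  refine false_of_run h w hbG (A := fun g c => inN (N id) (cw (T σ 0 (g, W)).1)
    (cc fun i => nrm W c (σ⁻¹ i)) = true) ?_ ?_ ?_
  · rw [nrm_none]
    have g1 : T σ 0 (WinData.col T0 z L R b, W) = T σ 0 (WinData.st T0 z L R b) := by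
      rw [← hWst]; rfl
    show inN (N id) (cw (T σ 0 (WinData.col T0 z L R b, W)).1) (cc fun _ => (false, false)) = true
    rw [g1, e1, cc_none]
    exact c1
  · intro u _ g c g' c' hA hc hs hs'
    have s1 := hS u _ hs _ hs'
    obtain ⟨v, hv, hv'⟩ := RS_gen hs'
    obtain ⟨v0, hv0, hv0'⟩ := LS_gen hs
    rw [← hW] at hv' hv0'
    have o1 : OkSt (g, mvW W c) := by rw [← hv0']; exact hok v0 hv0
    have o2 : OkSt (g', mvW W c') := by rw [← hv']; exact hok v hv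
    have o3 : Cov (mvW W c') := by
      have := hcov v hv
      rw [hv'] at this
      exact this
    rw [← nrm_mv W c] at o1
    rw [← nrm_mv W c'] at o2 o3 hv'
    have p1 := okSt_T (σ := σ) (k := 0) o1
    have p2 := okSt_T (σ := σ) (k := 0) o2
    have p3 : Cov (T σ 0 (g', mvW W (nrm W c'))).2 := cov_T o3
    rw [hmv] at p1 p2 p3
    have hww : ∀ c : Cn, wok W0 fun i => nrm W c (σ⁻¹ i) := by
      intro c i hi
      rw [hW0]
      exact nrm_wok W c (σ⁻¹ i) hi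
    refine node_step hKl hE hG c3 (hB id hin) hin hlW0 hcvW0 (p := (T σ 0 (g, W)).1)
      (p' := (T σ 0 (g', W)).1) (e := fun i => nrm W c (σ⁻¹ i)) (e' := fun i => nrm W c' (σ⁻¹ i))
      (fun i => nrm_le hc (σ⁻¹ i)) (hww c) (hww c') p1 p2 p3
      (fun h7 => s1 (hKl σ 0 (g, W) (g', W) h7)) ?_ hA
    intro i hi ⟨τ, k1, hk1, q1, q2⟩
    refine hmin i hi v hv ⟨τ * σ, k1, hk1, ?_, ?_⟩
    · rw [hv', ← add_zero k1, ← T_T, hmv]
      exact q1
    · rw [hv', ← add_zero k1, ← T_T, hmv]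
      exact q2
  · rw [nrm_all]
    intro hcon
    have g1 : cw (T σ 0 ((H429.shift (WinData.st T0 z L R b)).1, W)).1 =
        trW 181896 1 (C id).1 := by
      rw [T_col_eq σ 0 _ W (H429.shift (WinData.st T0 z L R b)).2]
      have g2 : T σ 0 (H429.shift (WinData.st T0 z L R b)) =
          H429.shift (T σ 0 (WinData.st T0 z L R b)) := by
        unfold T
        exact (shift_prm σ _).symm
      show cw (T σ 0 (H429.shift (WinData.st T0 z L R b))).1 = _
      rw [g2, cw_shift, e1]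
    rw [g1, cc_all] at hcon
    rw [hcon] at c2
    cases c2

end

end Vale.Agent.P032.H838.GTr
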