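import Vale.Agent.P032.H838.GEnd
import Vale.Agent.P032.H623.Cols

/-!
# P032: the general end of the windowed centre, static completeness

`statC_of` : for each of the 57 columns a check of all windows with covered rays gives `StatC`.
-/

noncomputable section

namespace Vale.Agent.P032.H838.GTr

open Vale.Agent.P032.Six Vale.Agent.P032.H429 Vale.Agent.P032.H158 Vale.Agent.P032.H728
  Vale.Agent.P032.H728.G
open Vale.Agent.P032.H532 (force force_eq allBelow allBelow_spec)

/-- the word (base 8) of a column given by twelve decimal digits -/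
def w8 (c : ℕ) : ℕ := cd 8 (l12.map fun p => H623.dg c p)

theorem cw_isCol {g : Cl} {c : ℕ} (h : H623.IsCol g c) : cw g = w8 c := by
  unfold cw w8
  congr 1
  refine List.map_congr_left fun p hp => ?_
  exact h p (mem_l12 hp)

theorem cw_cdw (g : Cl) : cdw (ls g) 12 = cw g := by
  simp only [cw, cd, cdw, l12, List.map]
  ring

/-- bit `6 c + k` : the ray `k` is inside the window with the code `c` -/
def cvmT : ℕ := 0x1c30408e1800c70400e1820070c100386080

/-- the rays inside the window with the code `c` -/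
def cvm (c : Nat) : Nat := Nat.land (Nat.shiftRight cvmT (Nat.mul 6 c)) 63

theorem cvm_bit (a : ZMod 6) (n : Fin 4) (k : Fin 6)
    (h : ((k.val : ZMod 6) - 1 - a).val < n.val) :
    (cvm (4 * a.val + n.val)).testBit k.val = true := by
  revert a n k
  unfold cvm cvmT
  decide +kernel

theorem cvm_lt (c : ℕ) : cvm c < 64 := Nat.and_lt_two_pow (n := 6) _ (by norm_num)

/-- `a` implies `b` -/
abbrev bimp (a b : Bool) : Bool := Bool.rec true b a

theorem bimp_eq {a b : Bool} : bimp a b = true ↔ (a = true → b = true) := by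
  cases a <;> cases b <;> simp [bimp]

/-- all windows (colours `6 - k, ..., 5`) allowed by `A` with covered rays satisfy `f` -/
def wgo (A : Nat) (f : Nat → Bool) (k : Nat) : Nat → Nat → Bool :=
  Nat.rec (motive := fun _ => Nat → Nat → Bool)
    (fun V cv => bimp (Nat.beq cv 63) (f V))
    (fun k ih V cv => allBelow 24 fun c =>
      bimp (Nat.beq (Nat.land (Nat.shiftRight A (Nat.add (Nat.mul 24 (Nat.sub 5 k)) c)) 1) 1)
        (force (Nat.add V (Nat.mul c (Nat.pow 32 (Nat.sub 5 k)))) fun V' =>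
          force (Nat.lor cv (cvm c)) fun cv' => ih V' cv')) k

/-- the rest of the word of the windows -/
def restV (w : ℕ → ℕ) : ℕ → ℕ
  | 0 => 0
  | k + 1 => w (5 - k) * 32 ^ (5 - k) + restV w k

/-- the rest of the covered rays -/
def restC (w : ℕ → ℕ) : ℕ → ℕ
  | 0 => 0
  | k + 1 => cvm (w (5 - k)) ||| restC w k

theorem wgo_spec {A : ℕ} {f : ℕ → Bool} {w : ℕ → ℕ} (hw : ∀ i, w i < 24)
    (hA : ∀ i < 6, (A >>> (24 * i + w i)) &&& 1 = 1) :
    ∀ k ≤ 6, ∀ V cv, wgo A f k V cv = true → cv ||| restC w k = 63 → f (V + restV w k) = true := by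
  intro k
  induction k with
  | zero =>
    intro _ V cv h hc
    have h1 : bimp (Nat.beq cv 63) (f V) = true := h
    have h2 : cv = 63 := by
      have : cv ||| 0 = 63 := hc
      rwa [Nat.or_zero] at this
    show f (V + 0) = true
    rw [add_zero]
    exact bimp_eq.1 h1 (by rw [h2]; rfl)
  | succ k ih =>
    intro hk V cv h hc
    have h1 : allBelow 24 (fun c =>
      bimp (Nat.beq (Nat.land (Nat.shiftRight A (Nat.add (Nat.mul 24 (Nat.sub 5 k)) c)) 1) 1)
        (force (Nat.add V (Nat.mul c (Nat.pow 32 (Nat.sub 5 k)))) fun V' =>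
          force (Nat.lor cv (cvm c)) fun cv' => wgo A f k V' cv')) = true := h
    have h2 := allBelow_spec 24 h1 (w (5 - k)) (hw _)
    have h3 := bimp_eq.1 h2 (by
      show Nat.beq ((A >>> (24 * (5 - k) + w (5 - k))) &&& 1) 1 = true
      rw [hA (5 - k) (by omega)]; rfl)
    rw [force_eq, force_eq] at h3
    have h4 := ih (by omega) (V + w (5 - k) * 32 ^ (5 - k)) (cv ||| cvm (w (5 - k))) h3 (by
      rw [Nat.or_assoc]; exact hc)
    have e : V + restV w (k + 1) = V + w (5 - k) * 32 ^ (5 - k) + restV w k := by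
      show V + (w (5 - k) * 32 ^ (5 - k) + restV w k) = _
      ring
    rw [e]
    exact h4

/-- a certificate `(π, π', k, index)` for the column `w` with the windows `V` -/
def certOK (C : ℕ → ℕ × ℕ) (n w V : ℕ) (r : ℕ × ℕ × ℕ × ℕ) : Bool :=
  isP r.1 r.2.1 && Nat.ble r.2.2.1 5 && Nat.ble (Nat.succ r.2.2.2) n &&
    Nat.beq (trW r.1 r.2.2.1 w) (C r.2.2.2).1 && Nat.beq (trV r.2.1 r.2.2.1 V) (C r.2.2.2).2

/-- the check of a column: `w` its word, `A` the allowed windows, `t` the certificates -/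
def wchk (C : ℕ → ℕ × ℕ) (n c w A : ℕ) (t : ℕ → ℕ × ℕ × ℕ × ℕ) : Bool :=
  Nat.beq w (w8 c) && (l6.all fun i => Nat.beq (Nat.land (msk w i l12) 0xffffff)
    (Nat.land (Nat.shiftRight A (24 * i)) 0xffffff)) && wgo A (fun V => certOK C n w V (t V)) 6 0 0

theorem statC_of {C : ℕ → ℕ × ℕ} {n : ℕ}
    (h : ∀ c ∈ H623.L57, ∃ w A t, wchk C n c w A t = true) : StatC C n := by
  intro s hok hcov
  obtain ⟨σ, r, hr, c, hc, hcol⟩ := H623.cols57 hok hcov
  obtain ⟨w, A, t, hchk⟩ := h c hc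
  obtain ⟨S, hS⟩ : ∃ S : St, S = T σ r s := ⟨_, rfl⟩
  have hokS : OkSt S := by rw [hS]; exact okSt_T hok
  have hcovS : Cov S.2 := by rw [hS]; exact cov_T hcov
  have hcolS : H623.IsCol S.1 c := by rw [hS]; exact hcol
  unfold wchk at hchk
  rw [Bool.and_eq_true, Bool.and_eq_true] at hchk
  obtain ⟨⟨h1, h2⟩, h3⟩ := hchk
  have hw8 : cw S.1 = w := by
    rw [cw_isCol hcolS]
    exact (Nat.eq_of_beq_eq_true h1).symm
  rw [List.all_eq_true] at h2
  -- the codes of the windows
  obtain ⟨v, hv⟩ : ∃ v : ℕ → ℕ, v = fun i => H728.wc (S.2 (Fin.ofNat 6 i)) := ⟨_, rfl⟩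
  have hv24 : ∀ i, v i < 24 := fun i => by rw [hv]; exact H728.wc_lt (hokS.1 _)
  have hA : ∀ i < 6, (A >>> (24 * i + v i)) &&& 1 = 1 := by
    intro i hi
    obtain ⟨i, rfl⟩ : ∃ k : Fin 6, k.val = i := ⟨⟨i, hi⟩, rfl⟩
    have g1 := msk_win hokS i
    rw [cw_cdw, hw8] at g1
    have g2 := Nat.eq_of_beq_eq_true (h2 i.val (mem_l6 i))
    have g3 : v i.val = H728.wc (S.2 i) := by
        rw [hv]
        show H728.wc (S.2 (Fin.ofNat 6 i.val)) = _
        rw [ofNat_val]
    have g4 : (Nat.land (msk w i.val l12) 0xffffff).testBit (v i.val) = true := by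
      show (msk w i.val l12 &&& 0xffffff).testBit (v i.val) = true
      rw [Nat.testBit_and, g3, g1]
      have e2 : (0xffffff : ℕ) = 2 ^ 24 - 1 := by norm_num
      have := hv24 i.val
      rw [g3] at this
      rw [e2, Nat.testBit_two_pow_sub_one]
      simpa using this
    rw [g2] at g4
    have g5 : ((A >>> (24 * i.val)) &&& 0xffffff).testBit (v i.val) = true := g4
    rw [Nat.testBit_and, Nat.testBit_shiftRight] at g5
    have g6 := (Bool.and_eq_true_iff.1 g5).1
    rw [Nat.testBit] at g6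
    have g7 : (A >>> (24 * i.val + v i.val)) &&& 1 = 1 &&& (A >>> (24 * i.val + v i.val)) :=
      Nat.and_comm _ _
    rw [g7]
    have g8 : 1 &&& (A >>> (24 * i.val + v i.val)) = 0 ∨
        1 &&& (A >>> (24 * i.val + v i.val)) = 1 := by
      rw [Nat.one_and_eq_mod_two]; omega
    rcases g8 with g8 | g8
    · rw [g8] at g6
      simp at g6
    · exact g8
  -- the rays are covered
  have hC : 0 ||| restC v 6 = 63 := by
    rw [Nat.zero_or]
    have hb : ∀ i : Fin 6, ∀ b, (cvm (v i.val)).testBit b = true → (restC v 6).testBit b = true := by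
      intro i b hb
      have e : restC v 6 = cvm (v 0) ||| (cvm (v 1) ||| (cvm (v 2) ||| (cvm (v 3) |||
        (cvm (v 4) ||| (cvm (v 5) ||| 0))))) := rfl
      rw [e]
      simp only [Nat.testBit_or]
      fin_cases i <;> simp_all
    have hlt : restC v 6 < 2 ^ 6 := by
      have e : restC v 6 = cvm (v 0) ||| (cvm (v 1) ||| (cvm (v 2) ||| (cvm (v 3) |||
        (cvm (v 4) ||| (cvm (v 5) ||| 0))))) := rfl
      rw [e]
      exact Nat.or_lt_two_pow (cvm_lt _) (Nat.or_lt_two_pow (cvm_lt _) (Nat.or_lt_two_pow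
        (cvm_lt _) (Nat.or_lt_two_pow (cvm_lt _) (Nat.or_lt_two_pow (cvm_lt _)
          (Nat.or_lt_two_pow (cvm_lt _) (by norm_num))))))
    refine Nat.eq_of_testBit_eq fun b => ?_
    have e63 : (63 : ℕ) = 2 ^ 6 - 1 := by norm_num
    rw [e63, Nat.testBit_two_pow_sub_one]
    by_cases hb6 : b < 6
    · obtain ⟨i, hi⟩ := hcovS ((b : ℕ) : ZMod 6)
      have g1 := cvm_bit (S.2 i).1 ⟨(S.2 i).2, by have := hokS.1 i; omega⟩ ⟨b, hb6⟩ hi
      have g3 : v i.val = H728.wc (S.2 i) := by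
        rw [hv]
        show H728.wc (S.2 (Fin.ofNat 6 i.val)) = _
        rw [ofNat_val]
      rw [hb i b (by rw [g3]; exact g1)]
      simpa using hb6
    · rw [Nat.testBit_lt_two_pow (lt_of_lt_of_le hlt (Nat.pow_le_pow_right (by norm_num)
        (by omega)))]
      simpa using hb6
  have hf := wgo_spec hv24 hA 6 le_rfl 0 0 h3 hC
  have hV : 0 + restV v 6 = cv S.2 := by
    have e : restV v 6 = v 0 * 32 ^ 0 + (v 1 * 32 ^ 1 + (v 2 * 32 ^ 2 + (v 3 * 32 ^ 3 +
      (v 4 * 32 ^ 4 + (v 5 * 32 ^ 5 + 0))))) := rfl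
    have e2 : cv S.2 = cd 32 (l6.map v) := by rw [hv]; rfl
    rw [e, e2]
    simp only [cd, l6, List.map]
    ring
  rw [hV] at hf
  unfold certOK at hf
  simp only [Bool.and_eq_true] at hf
  obtain ⟨⟨⟨⟨f1, f2⟩, f3⟩, f4⟩, f5⟩ := hf
  have f2 := Nat.ble_eq.mp f2
  have f3 := Nat.ble_eq.mp f3
  have f4 := Nat.eq_of_beq_eq_true f4
  have f5 := Nat.eq_of_beq_eq_true f5
  obtain ⟨τ, hτ, hτ'⟩ := perm_of_isP f1
  refine ⟨_, f3, τ * σ, ((t (cv S.2)).2.2.1 + r) % 6, Nat.mod_lt _ (by norm_num), ?_, ?_⟩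
  · rw [T_mod, ← T_T, ← hS, cw_T hτ, hw8]
    exact f4
  · rw [T_mod, ← T_T, ← hS, cv_T hτ' (by omega) _ hokS.1]
    exact f5

end Vale.Agent.P032.H838.GTr
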