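import Vale.Agent.P032.H728.GKit

/-!
# P032: the general end of the windowed centre, transport in numbers

Digits of the packed numbers of `H728.G`, injectivity of the codes, the renaming and the turn of a
state in codes, the crossings in codes.
-/

noncomputable section

namespace Vale.Agent.P032.H838.GTr

open Vale.Agent.P032.Six Vale.Agent.P032.H429 Vale.Agent.P032.H158 Vale.Agent.P032.H728
  Vale.Agent.P032.H728.G

/-! ### digits -/

theorem dg_cd {b : ℕ} (hb : 0 < b) {l : List ℕ} (hl : ∀ d ∈ l, d < b) {p : ℕ} (hp : p < l.length) :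
    G.dg b (cd b l) p = l[p] := by
  induction l generalizing p with
  | nil => exact absurd hp (Nat.not_lt_zero _)
  | cons d l ih =>
    have hd : d < b := hl d List.mem_cons_self
    cases p with
    | zero =>
      show (d + b * cd b l) / b ^ 0 % b = d
      rw [pow_zero, Nat.div_one, Nat.add_mul_mod_self_left, Nat.mod_eq_of_lt hd]
    | succ p =>
      have hp' : p < l.length := by simpa using hp
      have h1 := ih (fun x hx => hl x (List.mem_cons_of_mem _ hx)) hp'
      show (d + b * cd b l) / b ^ (p + 1) % b = l[p]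
      have e : (d + b * cd b l) / b ^ (p + 1) = cd b l / b ^ p := by
        rw [pow_succ', ← Nat.div_div_eq_div_mul, Nat.add_mul_div_left _ _ hb,
          Nat.div_eq_of_lt hd, zero_add]
      rw [e]
      exact h1

theorem cd_inj {b : ℕ} (hb : 0 < b) {l l' : List ℕ} (hl : ∀ d ∈ l, d < b) (hl' : ∀ d ∈ l', d < b)
    (hn : l.length = l'.length) (h : cd b l = cd b l') : l = l' := by
  refine List.ext_getElem hn fun p h1 h2 => ?_
  rw [← dg_cd hb hl h1, ← dg_cd hb hl' h2, h]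

/-- the digit `p` of the code of `n` digits -/
theorem dg_map {b : ℕ} (hb : 0 < b) {f : ℕ → ℕ} (hf : ∀ p, f p < b) {n : ℕ} {l : List ℕ}
    (hl : l = List.range n) {p : ℕ} (hp : p < n) : G.dg b (cd b (l.map f)) p = f p := by
  subst hl
  have h1 : p < ((List.range n).map f).length := by simpa using hp
  rw [dg_cd hb (by
    intro d hd
    obtain ⟨q, -, rfl⟩ := List.mem_map.1 hd
    exact hf q) h1]
  simp

theorem l12_range : l12 = List.range 12 := by decide
theorem l6_range : l6 = List.range 6 := by decide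

theorem ls_lt (g : Cl) (p : ℕ) : ls g p < 8 := by
  have := (lseq g p).isLt
  unfold ls
  omega

theorem dg_cw (g : Cl) {p : ℕ} (hp : p < 12) : G.dg 8 (cw g) p = ls g p :=
  dg_map (by norm_num) (ls_lt g) l12_range hp

theorem ofNat_val (i : Fin 6) : Fin.ofNat 6 i.val = i := by
  ext; simp [Fin.ofNat, Nat.mod_eq_of_lt i.isLt]

theorem wc_lt32 {w : ZMod 6 × ℕ} (h : w.2 ≤ 3) : H728.wc w < 32 := by
  have := H728.wc_lt h
  omega

theorem dg_cv {W : Wn} (h : ∀ i, (W i).2 ≤ 3) (i : Fin 6) :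
    G.dg 32 (cv W) i.val = H728.wc (W i) := by
  have h1 : G.dg 32 (cv W) i.val = H728.wc (W (Fin.ofNat 6 i.val)) :=
    dg_map (by norm_num) (f := fun i => H728.wc (W (Fin.ofNat 6 i))) (fun p => wc_lt32 (h _))
      l6_range i.isLt
  rw [h1, ofNat_val]

/-- the digit of a pair of crossings -/
def cdg (c : Bool × Bool) : ℕ := c.1.toNat + 2 * c.2.toNat

theorem cdg_lt (c : Bool × Bool) : cdg c < 4 := by
  unfold cdg
  rcases c with ⟨_ | _, _ | _⟩ <;> decide

theorem dg_cc (c : Cn) (i : Fin 6) : G.dg 4 (cc c) i.val = cdg (c i) := by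
  have h1 : G.dg 4 (cc c) i.val = cdg (c (Fin.ofNat 6 i.val)) :=
    dg_map (by norm_num) (f := fun i => cdg (c (Fin.ofNat 6 i))) (fun p => cdg_lt _)
      l6_range i.isLt
  rw [h1, ofNat_val]

theorem cdg_inj {a b : Bool × Bool} (h : cdg a = cdg b) : a = b := by
  revert h
  rcases a with ⟨_ | _, _ | _⟩ <;> rcases b with ⟨_ | _, _ | _⟩ <;> decide

theorem cc_inj {c c' : Cn} (h : cc c = cc c') : c = c' := by
  funext i
  refine cdg_inj ?_
  rw [← dg_cc, ← dg_cc, h]

theorem wc_inj {w w' : ZMod 6 × ℕ} (h1 : w.2 ≤ 3) (h2 : w'.2 ≤ 3) (h : H728.wc w = H728.wc w') :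
    w = w' := by
  unfold H728.wc at h
  have e1 : w.1.val = w'.1.val := by omega
  have e2 : w.2 = w'.2 := by omega
  exact Prod.ext (ZMod.val_injective 6 e1) e2

theorem cv_inj {W W' : Wn} (h1 : ∀ i, (W i).2 ≤ 3) (h2 : ∀ i, (W' i).2 ≤ 3) (h : cv W = cv W') :
    W = W' := by
  funext i
  refine wc_inj (h1 i) (h2 i) ?_
  rw [← dg_cv h1, ← dg_cv h2, h]

theorem cw_inj {g g' : Cl} (h : cw g = cw g') : g = g' := by
  funext j
  have e1 : ls g (2 * j.val) = ls g' (2 * j.val) := by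
    rw [← dg_cw g (by have := j.isLt; omega), ← dg_cw g' (by have := j.isLt; omega), h]
  have e2 : ls g (2 * j.val + 1) = ls g' (2 * j.val + 1) := by
    rw [← dg_cw g (by have := j.isLt; omega), ← dg_cw g' (by have := j.isLt; omega), h]
  rw [ls_even, ls_even] at e1
  rw [ls_odd, ls_odd] at e2
  exact Prod.ext (Fin.ext e1) (Fin.ext e2)

/-! ### permutations in digits -/

/-- `π` has the digits of `σ` -/
def EncP (σ : Equiv.Perm (Fin 6)) (π : ℕ) : Prop := ∀ i : Fin 6, G.dg 8 π i.val = (σ i).val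

theorem perm_of_isP {π π' : ℕ} (h : isP π π' = true) :
    ∃ σ : Equiv.Perm (Fin 6), EncP σ π ∧ EncP σ⁻¹ π' := by
  unfold isP at h
  rw [List.all_eq_true] at h
  have key : ∀ i : Fin 6, G.dg 8 π i.val ≤ 5 ∧ G.dg 8 π' i.val ≤ 5 ∧
      G.dg 8 π' (G.dg 8 π i.val) = i.val ∧ G.dg 8 π (G.dg 8 π' i.val) = i.val := by
    intro i
    have h1 := h i.val (mem_l6 i)
    rw [Bool.and_eq_true, Bool.and_eq_true, Bool.and_eq_true] at h1
    obtain ⟨⟨⟨a1, a2⟩, a3⟩, a4⟩ := h1
    exact ⟨Nat.ble_eq.mp a1, Nat.ble_eq.mp a2, Nat.eq_of_beq_eq_true a3,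
      Nat.eq_of_beq_eq_true a4⟩
  refine ⟨⟨fun i => ⟨G.dg 8 π i.val, by have := (key i).1; omega⟩,
    fun i => ⟨G.dg 8 π' i.val, by have := (key i).2.1; omega⟩,
    fun i => Fin.ext (key i).2.2.1, fun i => Fin.ext (key i).2.2.2⟩, fun i => rfl, fun i => rfl⟩

theorem encP_mul_inv {σ : Equiv.Perm (Fin 6)} {π : ℕ} (h : EncP σ π) : EncP σ⁻¹⁻¹ π := by
  rw [inv_inv]; exact h

/-! ### turns -/

theorem shift_col (k : ℕ) (s : St) (j : Fin 6) :
    (H429.shift^[k] s).1 j = s.1 (j + Fin.ofNat 6 k) := by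
  induction k generalizing j with
  | zero =>
    have e : ∀ j : Fin 6, j + Fin.ofNat 6 0 = j := by decide
    rw [e]; rfl
  | succ k ih =>
    rw [Function.iterate_succ_apply']
    show (H429.shift^[k] s).1 (j + 1) = _
    rw [ih]
    have e2 : (j + 1 + Fin.ofNat 6 k : Fin 6) = j + Fin.ofNat 6 (k + 1) := by
      apply Fin.ext
      show ((j + 1 : Fin 6).val + k % 6) % 6 = (j.val + (k + 1) % 6) % 6
      have e : (j + 1 : Fin 6).val = (j.val + 1) % 6 := by revert j; decide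
      rw [e]
      omega
    rw [e2]

theorem shift_win (k : ℕ) (s : St) (i : Fin 6) :
    (H429.shift^[k] s).2 i = ((s.2 i).1 - (k : ZMod 6), (s.2 i).2) := by
  induction k with
  | zero => simp
  | succ k ih =>
    rw [Function.iterate_succ_apply']
    show (((H429.shift^[k] s).2 i).1 - 1, ((H429.shift^[k] s).2 i).2) = _
    rw [ih]
    refine Prod.ext ?_ rfl
    show (s.2 i).1 - (k : ZMod 6) - 1 = (s.2 i).1 - ((k + 1 : ℕ) : ZMod 6)
    push_cast
    ring

theorem shift_prm_iter (k : ℕ) (σ : Equiv.Perm (Fin 6)) (s : St) :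
    H429.shift^[k] (prm σ s) = prm σ (H429.shift^[k] s) := by
  induction k with
  | zero => rfl
  | succ k ih => rw [Function.iterate_succ_apply', Function.iterate_succ_apply', ih, shift_prm]

theorem T_T (τ σ : Equiv.Perm (Fin 6)) (m k : ℕ) (s : St) :
    T τ m (T σ k s) = T (τ * σ) (m + k) s := by
  unfold T
  rw [shift_prm_iter, ← prm_mul, ← Function.iterate_add_apply]

theorem shift_mod (k : ℕ) (s : St) : H429.shift^[k % 6] s = H429.shift^[k] s := by
  conv_rhs => rw [← Nat.mod_add_div k 6, Function.iterate_add_apply]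
  congr 1
  induction k / 6 with
  | zero => rfl
  | succ n ih =>
    rw [Nat.mul_succ, Function.iterate_add_apply, shift_six, ← ih]

theorem T_mod (σ : Equiv.Perm (Fin 6)) (k : ℕ) (s : St) : T σ (k % 6) s = T σ k s := by
  unfold T
  rw [shift_mod]

/-- the inverse transport -/
theorem T_inv (σ : Equiv.Perm (Fin 6)) {k : ℕ} (hk : k < 6) (s : St) :
    T σ⁻¹ ((6 - k) % 6) (T σ k s) = s := by
  rw [T_mod, T_T, inv_mul_cancel, show 6 - k + k = 6 by omega]
  unfold T
  rw [shift_six, prm_one]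

/-- the transport after its inverse -/
theorem T_inv' (σ : Equiv.Perm (Fin 6)) {k : ℕ} (hk : k < 6) (s : St) :
    T σ k (T σ⁻¹ ((6 - k) % 6) s) = s := by
  have h := T_inv σ⁻¹ (k := (6 - k) % 6) (by omega) s
  rw [inv_inv] at h
  have e : (6 - (6 - k) % 6) % 6 = k := by
    rcases Nat.eq_zero_or_pos k with h0 | h0
    · subst h0; rfl
    · omega
  rw [e] at h
  exact h

theorem T_one (s : St) : T 1 0 s = s := rfl

/-! ### the transport in codes -/

theorem T_col (σ : Equiv.Perm (Fin 6)) (k : ℕ) (s : St) (j : Fin 6) :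
    (T σ k s).1 j = (σ (s.1 (j + Fin.ofNat 6 k)).1, σ (s.1 (j + Fin.ofNat 6 k)).2) := by
  unfold T
  show (σ ((H429.shift^[k] s).1 j).1, σ ((H429.shift^[k] s).1 j).2) = _
  rw [shift_col]

theorem T_win (σ : Equiv.Perm (Fin 6)) (k : ℕ) (s : St) (i : Fin 6) :
    (T σ k s).2 i = ((s.2 (σ⁻¹ i)).1 - (k : ZMod 6), (s.2 (σ⁻¹ i)).2) := by
  unfold T
  show (H429.shift^[k] s).2 (σ⁻¹ i) = _
  rw [shift_win]

theorem ls_T {σ : Equiv.Perm (Fin 6)} {π : ℕ} (hπ : EncP σ π) {k : ℕ} (s : St)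
    {p : ℕ} (hp : p < 12) : ls (T σ k s).1 p = G.dg 8 π (ls s.1 ((p + 2 * k) % 12)) := by
  have hq : ∀ j : Fin 6, (j + Fin.ofNat 6 k).val = (j.val + k) % 6 := by
    intro j
    show (j.val + k % 6) % 6 = (j.val + k) % 6
    omega
  rcases place hp with ⟨j, rfl | rfl⟩
  · have e : (2 * j.val + 2 * k) % 12 = 2 * (j + Fin.ofNat 6 k).val := by
      rw [hq]; omega
    rw [ls_even, e, ls_even, T_col, hπ]
  · have e : (2 * j.val + 1 + 2 * k) % 12 = 2 * (j + Fin.ofNat 6 k).val + 1 := by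
      rw [hq]; omega
    rw [ls_odd, e, ls_odd, T_col, hπ]

/-- **the column after the transport** -/
theorem cw_T {σ : Equiv.Perm (Fin 6)} {π : ℕ} (hπ : EncP σ π) (k : ℕ) (s : St) :
    cw (T σ k s).1 = trW π k (cw s.1) := by
  unfold cw trW
  congr 1
  refine List.map_congr_left fun p hp => ?_
  have hp' : p < 12 := mem_l12 hp
  rw [ls_T hπ s hp']
  have h1 := dg_cw s.1 (p := (p + 2 * k) % 12) (Nat.mod_lt _ (by norm_num))
  unfold cw at h1
  rw [h1]

theorem mem_l6' {p : ℕ} (hp : p ∈ l6) : ∃ i : Fin 6, i.val = p := by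
  rw [l6_range] at hp
  exact ⟨⟨p, by simpa using hp⟩, rfl⟩

/-- **the windows after the transport** -/
theorem cv_T {σ : Equiv.Perm (Fin 6)} {π' : ℕ} (hπ : EncP σ⁻¹ π') {k : ℕ} (hk : k < 6) (s : St)
    (h : ∀ i, (s.2 i).2 ≤ 3) : cv (T σ k s).2 = trV π' k (cv s.2) := by
  have key : ∀ a : ZMod 6, ∀ n : Fin 4, ∀ k : Fin 6,
      4 * (a - ((k.val : ℕ) : ZMod 6)).val + n.val =
        4 * (((4 * a.val + n.val) / 4 + 6 - k.val) % 6) + (4 * a.val + n.val) % 4 := by
    decide +kernel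
  unfold trV
  show cd 32 (l6.map fun i => H728.wc ((T σ k s).2 (Fin.ofNat 6 i))) = _
  congr 1
  refine List.map_congr_left fun p hp => ?_
  obtain ⟨i, rfl⟩ := mem_l6' hp
  rw [ofNat_val, T_win, hπ, dg_cv h]
  exact key _ ⟨(s.2 (σ⁻¹ i)).2, by have := h (σ⁻¹ i); omega⟩ ⟨k, hk⟩

/-- **the crossings after the renaming** -/
theorem cc_ren {σ : Equiv.Perm (Fin 6)} {π' : ℕ} (hπ : EncP σ⁻¹ π') (c : Cn) :
    cc (fun i => c (σ⁻¹ i)) = trC π' (cc c) := by
  unfold trC
  show cd 4 (l6.map fun i => cdg (c (σ⁻¹ (Fin.ofNat 6 i)))) = _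
  congr 1
  refine List.map_congr_left fun p hp => ?_
  obtain ⟨i, rfl⟩ := mem_l6' hp
  rw [ofNat_val, hπ, dg_cc]

/-! ### crossings -/

/-- **the windows after the crossings** -/
theorem cv_mvW {W : Wn} (h : ∀ i, (W i).2 ≤ 3) {c : Cn} (hc : wok W c)
    (h' : ∀ i, (mvW W c i).2 ≤ 3) : cv (mvW W c) = mvV (cv W) (cc c) := by
  have key : ∀ a : ZMod 6, ∀ n : Fin 4, ∀ c1 c2 : Bool, (c2 = true → c1 = true ∨ 1 ≤ n.val) →
      (mvw (a, n.val) (c1, c2)).2 ≤ 3 →
      4 * (mvw (a, n.val) (c1, c2)).1.val + (mvw (a, n.val) (c1, c2)).2 =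
        mvc (4 * a.val + n.val) (c1.toNat + 2 * c2.toNat) := by
    unfold mvw mvc
    decide +kernel
  unfold mvV
  show cd 32 (l6.map fun i => H728.wc (mvW W c (Fin.ofNat 6 i))) = _
  congr 1
  refine List.map_congr_left fun p hp => ?_
  obtain ⟨i, rfl⟩ := mem_l6' hp
  rw [ofNat_val, dg_cv h, dg_cc]
  exact key (W i).1 ⟨(W i).2, by have := h i; omega⟩ (c i).1 (c i).2 (hc i) (h' i)

/-- the transport of moved windows -/
theorem T_mvW (σ : Equiv.Perm (Fin 6)) (k : ℕ) (g : Cl) (W : Wn) (c : Cn) :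
    T σ k (g, mvW W c) =
      ((T σ k (g, W)).1, mvW (T σ k (g, W)).2 (fun i => c (σ⁻¹ i))) := by
  refine Prod.ext ?_ ?_
  · funext j
    rw [T_col]
    show _ = (T σ k (g, W)).1 j
    rw [T_col]
  · funext i
    rw [T_win]
    show _ = mvw ((T σ k (g, W)).2 i) (c (σ⁻¹ i))
    rw [T_win]
    show ((mvw (W (σ⁻¹ i)) (c (σ⁻¹ i))).1 - (k : ZMod 6), (mvw (W (σ⁻¹ i)) (c (σ⁻¹ i))).2) = _
    unfold mvw
    rcases h1 : (c (σ⁻¹ i)).1 with _ | _
    · rfl
    · refine Prod.ext ?_ rfl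
      show (W (σ⁻¹ i)).1 - 1 - (k : ZMod 6) = (W (σ⁻¹ i)).1 - (k : ZMod 6) - 1
      ring

/-- the column of the transport does not depend on the windows -/
theorem T_col_eq (σ : Equiv.Perm (Fin 6)) (k : ℕ) (g : Cl) (W W' : Wn) :
    (T σ k (g, W)).1 = (T σ k (g, W')).1 := by
  funext j
  rw [T_col, T_col]

/-- true crossings after the transport -/
theorem wok_T {σ : Equiv.Perm (Fin 6)} {k : ℕ} {g : Cl} {W : Wn} {c : Cn} (h : wok W c) :
    wok (T σ k (g, W)).2 (fun i => c (σ⁻¹ i)) := by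
  intro i hi
  rw [T_win]
  exact h (σ⁻¹ i) hi

/-- the union of crossings -/
def orC (c m : Cn) : Cn := fun i => ((c i).1 || (m i).1, (c i).2 || (m i).2)

/-- disjoint crossings -/
def djC (c m : Cn) : Prop := ∀ i, ¬ ((c i).1 = true ∧ (m i).1 = true) ∧
  ¬ ((c i).2 = true ∧ (m i).2 = true)

/-- the difference of crossings -/
def dfC (c' c : Cn) : Cn := fun i => ((c' i).1 && !(c i).1, (c' i).2 && !(c i).2)

theorem djC_dfC (c' c : Cn) : djC c (dfC c' c) := by
  intro i
  unfold dfC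
  constructor
  · rintro ⟨h1, h2⟩
    simp only [h1] at h2
    simp at h2
  · rintro ⟨h1, h2⟩
    simp only [h1] at h2
    simp at h2

theorem orC_dfC {c c' : Cn} (h : leC c c') : orC c (dfC c' c) = c' := by
  funext i
  have h1 := h i
  unfold orC dfC
  refine Prod.ext ?_ ?_
  · show ((c i).1 || ((c' i).1 && !(c i).1)) = (c' i).1
    rcases e : (c i).1 with _ | _
    · simp
    · simp [h1.1 e]
  · show ((c i).2 || ((c' i).2 && !(c i).2)) = (c' i).2
    rcases e : (c i).2 with _ | _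
    · simp
    · simp [h1.2 e]

/-- crossings one after the other -/
theorem mvW_mvW {W : Wn} {c m : Cn} (hc : wok W c) (hd : djC c m) :
    mvW (mvW W c) m = mvW W (orC c m) := by
  funext i
  have h1 := hc i
  have h2 := hd i
  show mvw (mvw (W i) (c i)) (m i) = mvw (W i) (orC c m i)
  unfold mvw orC
  rcases e1 : (c i).1 with _ | _ <;> rcases e2 : (c i).2 with _ | _ <;>
    rcases e3 : (m i).1 with _ | _ <;> rcases e4 : (m i).2 with _ | _ <;>
    simp only [e1, e2, e3, e4] at h1 h2 ⊢ <;> simp at h1 h2 ⊢ <;> omega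

/-- true crossings one after the other -/
theorem wok_mvW {W : Wn} {c m : Cn} (hd : djC c m) (h : wok W (orC c m)) :
    wok (mvW W c) m := by
  intro i hi
  have h1 := h i
  have h2 := hd i
  show (m i).1 = true ∨ 1 ≤ (mvw (W i) (c i)).2
  unfold mvw
  unfold orC at h1
  rcases e1 : (c i).1 with _ | _ <;> rcases e2 : (c i).2 with _ | _ <;>
    rcases e3 : (m i).1 with _ | _ <;>
    simp only [e1, e2, e3, hi] at h1 h2 ⊢ <;> simp at h1 h2 ⊢ <;> omega

/-! ### bits of the crossings -/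

theorem cc_bit0 (c : Cn) (i : Fin 6) : (cc c).testBit (2 * i.val) = (c i).1 := by
  have h := dg_cc c i
  have e : G.dg 4 (cc c) i.val = cc c / 2 ^ (2 * i.val) % 2 ^ 2 := by
    unfold G.dg
    rw [pow_mul]
    norm_num
  rw [e] at h
  have h1 : (cc c / 2 ^ (2 * i.val) % 2 ^ 2).testBit 0 = (cc c).testBit (2 * i.val) := by
    rw [Nat.testBit_mod_two_pow, Nat.testBit_div_two_pow]
    simp
  rw [← h1, h]
  unfold cdg
  rcases c i with ⟨_ | _, _ | _⟩ <;> decide

theorem cc_bit1 (c : Cn) (i : Fin 6) : (cc c).testBit (2 * i.val + 1) = (c i).2 := by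
  have h := dg_cc c i
  have e : G.dg 4 (cc c) i.val = cc c / 2 ^ (2 * i.val) % 2 ^ 2 := by
    unfold G.dg
    rw [pow_mul]
    norm_num
  rw [e] at h
  have h1 : (cc c / 2 ^ (2 * i.val) % 2 ^ 2).testBit 1 = (cc c).testBit (2 * i.val + 1) := by
    rw [Nat.testBit_mod_two_pow, Nat.testBit_div_two_pow]
    simp [add_comm]
  rw [← h1, h]
  unfold cdg
  rcases c i with ⟨_ | _, _ | _⟩ <;> decide

theorem cc_lt (c : Cn) : cc c < 2 ^ 12 := by
  have h : ∀ i : ℕ, cdg (c (Fin.ofNat 6 i)) < 4 := fun i => cdg_lt _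
  have h0 := h 0; have h1 := h 1; have h2 := h 2; have h3 := h 3; have h4 := h 4; have h5 := h 5
  show cdg (c (Fin.ofNat 6 0)) + 4 * (cdg (c (Fin.ofNat 6 1)) + 4 * (cdg (c (Fin.ofNat 6 2)) +
    4 * (cdg (c (Fin.ofNat 6 3)) + 4 * (cdg (c (Fin.ofNat 6 4)) + 4 * (cdg (c (Fin.ofNat 6 5)) +
      4 * 0))))) < 2 ^ 12
  omega

theorem cc_bit_hi (c : Cn) {b : ℕ} (hb : 12 ≤ b) : (cc c).testBit b = false :=
  Nat.testBit_lt_two_pow (lt_of_lt_of_le (cc_lt c) (Nat.pow_le_pow_right (by norm_num) hb))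

theorem bit_cases {b : ℕ} (hb : b < 12) : ∃ i : Fin 6, b = 2 * i.val ∨ b = 2 * i.val + 1 :=
  place hb

/-- **the union in numbers** -/
theorem cc_or (c m : Cn) : cc (orC c m) = Nat.lor (cc c) (cc m) := by
  refine Nat.eq_of_testBit_eq fun b => ?_
  show _ = (cc c ||| cc m).testBit b
  rw [Nat.testBit_or]
  by_cases hb : b < 12
  · rcases bit_cases hb with ⟨i, rfl | rfl⟩
    · rw [cc_bit0, cc_bit0, cc_bit0]; rfl
    · rw [cc_bit1, cc_bit1, cc_bit1]; rfl
  · rw [cc_bit_hi _ (by omega), cc_bit_hi _ (by omega), cc_bit_hi _ (by omega)]; rfl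

/-- **disjoint crossings in numbers** -/
theorem cc_dj (c m : Cn) : Nat.land (cc c) (cc m) = 0 ↔ djC c m := by
  constructor
  · intro h i
    have h' : cc c &&& cc m = 0 := h
    constructor
    · rintro ⟨h1, h2⟩
      have h3 : (cc c &&& cc m).testBit (2 * i.val) = true := by
        rw [Nat.testBit_and, cc_bit0, cc_bit0, h1, h2]; rfl
      rw [h', Nat.zero_testBit] at h3
      cases h3
    · rintro ⟨h1, h2⟩
      have h3 : (cc c &&& cc m).testBit (2 * i.val + 1) = true := by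
        rw [Nat.testBit_and, cc_bit1, cc_bit1, h1, h2]; rfl
      rw [h', Nat.zero_testBit] at h3
      cases h3
  · intro h
    show cc c &&& cc m = 0
    refine Nat.eq_of_testBit_eq fun b => ?_
    rw [Nat.testBit_and, Nat.zero_testBit]
    by_cases hb : b < 12
    · rcases bit_cases hb with ⟨i, rfl | rfl⟩
      · rw [cc_bit0, cc_bit0]
        have := (h i).1
        rcases e1 : (c i).1 with _ | _ <;> rcases e2 : (m i).1 with _ | _ <;> simp_all
      · rw [cc_bit1, cc_bit1]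
        have := (h i).2
        rcases e1 : (c i).2 with _ | _ <;> rcases e2 : (m i).2 with _ | _ <;> simp_all
    · rw [cc_bit_hi _ (by omega)]; rfl

theorem cc_none : cc (fun _ => (false, false)) = 0 := by decide

theorem cc_all : cc (fun _ => (true, true)) = 4095 := by decide

/-- no crossing -/
theorem cc_eq_zero {c : Cn} (h : cc c = 0) : c = fun _ => (false, false) := cc_inj (h.trans
  cc_none.symm)

/-- the turn by 60 degrees in codes (the renaming `181896` has the digits `0, 1, 2, 3, 4, 5`) -/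
theorem cw_shift (s : St) : cw (H429.shift s).1 = trW 181896 1 (cw s.1) := by
  have h : EncP 1 181896 := by
    intro i
    revert i
    unfold G.dg
    decide
  exact cw_T h 1 s

end Vale.Agent.P032.H838.GTr
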