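import Vale.Agent.P032.H838.Full
import Vale.Agent.P032.H838.Blk
import Vale.Agent.P032.H913.Deg
import Vale.Agent.P032.H594.JSg

/-!
# P032: `J`-partners which are not comp centres

`S : JPair U T z y a b c d e f`, `y` not comp.

* `wnd_nc`, `wnd_nc'` : the winding numbers of `y` and of `z` are `3` modulo `6`;
* `old_of_nc` : if `S(z)` has three blocks, all of them change the letter in the same direction.
-/

open Set Filter Topology Metric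

noncomputable section

namespace Vale.Agent.P032.H838

open Vale.Agent.P032.Six Vale.Agent.P032.S5.H767 Vale.Agent.P032.H695 Vale.Agent.P032.H471
open Vale.Agent.P032.H594 (JPair Ad Sd Blk Bf Af)
open Vale.Agent.P032.H913 (Ht913 Wnd Qd)

variable {U : Fin 6 → Set ℂ} {T : ℂ → Set (Fin 6)} {z y : ℂ} {a b c d e f : Fin 6}

/-- from a global height to `Wnd` -/
theorem Ht.wnd {u : ℝ} {M : ℝ → ℤ} {W : ℤ} (H : Ht (Qd T z a b c d e f u) M W) :
    Wnd T z a b c d e f u W :=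
  ⟨M, ⟨fun t _ l => H.mem t l, fun t _ => mem_nhdsWithin_of_mem_nhds (H.loc t)⟩,
    fun t _ => H.per t⟩

/-- the winding numbers of two `J`-partners are equal -/
theorem pair_W (S : JPair U T z y a b c d e f) {u : ℝ} {M M' : ℝ → ℤ} {W W' : ℤ}
    (H : Ht (Qd T z a b c d e f u) M W) (H' : Ht (Qd T y a c b d e f u) M' W') : W = W' :=
  H.eq_of_inc H' fun t => ⟨H913.inc913 S u t, H913.inc913' S u t⟩

theorem exHtz (S : JPair U T z y a b c d e f) (u : ℝ) :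
    ∃ M W, Ht (Qd T z a b c d e f u) M W := exHt (H913.cov913 S u)

/-- a global height at a full point -/
theorem ht_nc (S : JPair U T z y a b c d e f) (hS : Sec4 T) (hn : ¬ H594.Comp T y) {u : ℝ}
    {M : ℝ → ℤ} {W : ℤ} (H : Ht (Qd T y a c b d e f u) M W) : ∃ N, W = 6 * N + 3 :=
  win_full S.irr S.hy S.swap.nd S.wy
    (full_of_not_comp S.irr hS S.hy S.swap.nd S.wy hn) H

/-- the same at the other partner -/
theorem ht_nc' (S : JPair U T z y a b c d e f) (hS : Sec4 T) (hn : ¬ H594.Comp T y) {u : ℝ}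
    {M : ℝ → ℤ} {W : ℤ} (H : Ht (Qd T z a b c d e f u) M W) : ∃ N, W = 6 * N + 3 := by
  obtain ⟨M', W', H'⟩ := exHtz S.swap u
  have := pair_W S H H'
  subst this
  exact ht_nc S hS hn H'

/-- **the winding number of `z` next to a partner which is not comp** -/
theorem wnd_nc' (S : JPair U T z y a b c d e f) (hS : Sec4 T) (hn : ¬ H594.Comp T y) {u : ℝ}
    {W : ℤ} (hW : Wnd T z a b c d e f u W) : W % 6 = 3 := by
  obtain ⟨M', W', H'⟩ := exHtz S.swap u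
  obtain ⟨N, hN⟩ := ht_nc S hS hn H'
  have := H913.wnd_eq913 S hW H'.wnd
  omega

/-- **the winding number of a partner which is not comp** -/
theorem wnd_nc (S : JPair U T z y a b c d e f) (hS : Sec4 T) (hn : ¬ H594.Comp T y) {u : ℝ}
    {W : ℤ} (hW : Wnd T y a c b d e f u W) : W % 6 = 3 := by
  obtain ⟨M', W', H'⟩ := exHtz S u
  obtain ⟨N, hN⟩ := ht_nc' S hS hn H'
  have := H913.wnd_eq913 S H'.wnd hW
  omega

/-- `Ad` is the label `2` -/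
theorem Ad_eq : {t | (2 : Fin 3) ∈ Qd T z a b c d e f 0 t} = Ad T z {a, b} {c, d} := by
  ext t
  show (2 : Fin 3) ∈ Qd T z a b c d e f 0 t ↔ _
  rw [H913.mem_Qd2, zero_add]

variable {m x0 x0' x1 x1' x2 x2' : ℝ}

/-- **three blocks next to a partner which is not comp**: the letters of the far ends -/
theorem old_of_nc (S : JPair U T z y a b c d e f) (hS : Sec4 T) (hn : ¬ H594.Comp T y)
    (B : Blk (Ad T z {a, b} {c, d}) m x0 x0' x1 x1' x2 x2') :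
    ((e ∉ T (pt z x0) ∧ e ∉ T (pt z x1) ∧ e ∉ T (pt z x2)) ∧
      (f ∉ T (pt z x0') ∧ f ∉ T (pt z x1') ∧ f ∉ T (pt z x2'))) ∨
    ((f ∉ T (pt z x0) ∧ f ∉ T (pt z x1) ∧ f ∉ T (pt z x2)) ∧
      (e ∉ T (pt z x0') ∧ e ∉ T (pt z x1') ∧ e ∉ T (pt z x2'))) := by
  obtain ⟨M, W, H⟩ := exHtz S 0
  obtain ⟨N, hN⟩ := ht_nc' S hS hn H
  rw [← Ad_eq (e := e) (f := f)] at B
  have := H.blk_full (H913.cov913 S 0).per B hN
  simpa only [H913.mem_Qd0, H913.mem_Qd1, zero_add] using this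

/-- the points next to the three blocks are not in `Z` -/
theorem Blk.evs {Z : Set ℝ} (B : Blk Z m x0 x0' x1 x1' x2 x2')
    (hp : ∀ t, t + 6 ∈ Z ↔ t ∈ Z) :
    ((∀ᶠ t in 𝓝[<] x0, t ∉ Z) ∧ (∀ᶠ t in 𝓝[<] x1, t ∉ Z) ∧ ∀ᶠ t in 𝓝[<] x2, t ∉ Z) ∧
      (∀ᶠ t in 𝓝[>] x0', t ∉ Z) ∧ (∀ᶠ t in 𝓝[>] x1', t ∉ Z) ∧ ∀ᶠ t in 𝓝[>] x2', t ∉ Z := by
  obtain ⟨a0, b0, c0, d0, a1, b1, c1, a2, b2, c2, mem⟩ := B
  refine ⟨⟨?_, ?_, ?_⟩, ?_, ?_, ?_⟩
  · filter_upwards [Ioo_mem_nhdsLT a0] with t ht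
    rw [mem t ht.1 (by linarith [ht.2])]
    rintro (⟨k1, k2⟩ | ⟨k1, k2⟩ | ⟨k1, k2⟩) <;> linarith [ht.1, ht.2]
  · filter_upwards [Ioo_mem_nhdsLT (show x0' < x1 by linarith)] with t ht
    rw [mem t (by linarith [ht.1]) (by linarith [ht.2])]
    rintro (⟨k1, k2⟩ | ⟨k1, k2⟩ | ⟨k1, k2⟩) <;> linarith [ht.1, ht.2]
  · filter_upwards [Ioo_mem_nhdsLT (show x1' < x2 by linarith)] with t ht
    rw [mem t (by linarith [ht.1]) (by linarith [ht.2])]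
    rintro (⟨k1, k2⟩ | ⟨k1, k2⟩ | ⟨k1, k2⟩) <;> linarith [ht.1, ht.2]
  · filter_upwards [Ioo_mem_nhdsGT (show x0' < x1 by linarith)] with t ht
    rw [mem t (by linarith [ht.1]) (by linarith [ht.2])]
    rintro (⟨k1, k2⟩ | ⟨k1, k2⟩ | ⟨k1, k2⟩) <;> linarith [ht.1, ht.2]
  · filter_upwards [Ioo_mem_nhdsGT (show x1' < x2 by linarith)] with t ht
    rw [mem t (by linarith [ht.1]) (by linarith [ht.2])]
    rintro (⟨k1, k2⟩ | ⟨k1, k2⟩ | ⟨k1, k2⟩) <;> linarith [ht.1, ht.2]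
  · filter_upwards [Ioo_mem_nhdsGT (show x2' < x0 + 6 by linarith)] with t ht
    rcases le_or_gt t (m + 5) with h5 | h5
    · rw [mem t (by linarith [ht.1]) h5]
      rintro (⟨k1, k2⟩ | ⟨k1, k2⟩ | ⟨k1, k2⟩) <;> linarith [ht.1, ht.2]
    · have h6 := hp (t - 6)
      rw [sub_add_cancel] at h6
      rw [h6, mem (t - 6) (by linarith) (by linarith [ht.2])]
      rintro (⟨k1, k2⟩ | ⟨k1, k2⟩ | ⟨k1, k2⟩) <;> linarith [ht.1, ht.2]

/-- **the same in the signs of 594**: all blocks of `Z` have different signs, in the same direction -/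
theorem old_sign_nc (S : JPair U T z y a b c d e f) (hS : Sec4 T) (hn : ¬ H594.Comp T y)
    (B : Blk (Ad T z {a, b} {c, d}) m x0 x0' x1 x1' x2 x2') :
    ((Bf (Sd T z y e f) x0 ∧ Bf (Sd T z y e f) x1 ∧ Bf (Sd T z y e f) x2) ∧
      (Af (Sd T z y f e) x0' ∧ Af (Sd T z y f e) x1' ∧ Af (Sd T z y f e) x2')) ∨
    ((Bf (Sd T z y f e) x0 ∧ Bf (Sd T z y f e) x1 ∧ Bf (Sd T z y f e) x2) ∧
      (Af (Sd T z y e f) x0' ∧ Af (Sd T z y e f) x1' ∧ Af (Sd T z y e f) x2')) := by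
  obtain ⟨⟨g0, g1, g2⟩, g0', g1', g2'⟩ := Blk.evs B (H594.Ad_per _ _)
  rcases old_of_nc S hS hn B with ⟨⟨k0, k1, k2⟩, k0', k1', k2'⟩ | ⟨⟨k0, k1, k2⟩, k0', k1', k2'⟩
  · exact Or.inl ⟨⟨S.bz' g0 k0, S.bz' g1 k1, S.bz' g2 k2⟩, S.az g0' k0', S.az g1' k1', S.az g2' k2'⟩
  · exact Or.inr ⟨⟨S.bz g0 k0, S.bz g1 k1, S.bz g2 k2⟩, S.az' g0' k0', S.az' g1' k1',
      S.az' g2' k2'⟩

end Vale.Agent.P032.H838
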