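import Vale.Agent.P032.H815.JTwo
import Vale.Agent.P032.H594.JTwoTop
import Vale.Agent.P032.H838.NC

/-!
# P032: the old word at a comp centre with two `J`-partners

`Cir` : the three blocks of a circle with the letters of their ends and a word of `W1`, `W2`.
`word_of` : the circle of `z` has the old word, if the circle of a comp partner has such a word.
`noJ2_of_pre` : no comp centre with two `J`-partners.
-/

open Set Filter Topology Metric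

noncomputable section

namespace Vale.Agent.P032.H838

open Vale.Agent.P032.Six Vale.Agent.P032.S5.H767 Vale.Agent.P032.H471
open Vale.Agent.P032.H594 (JPair Ad Sd Blk Bf Af SG Comp OldW NoJ1 NoJ2 OnlyJT)
open Vale.Agent.P032.H594.SG (BfS AfS)
open Vale.Agent.P032.H815 (Sx W1 W2 G1 G2 j2j2_815)

variable {U : Fin 6 → Set ℂ} {T : ℂ → Set (Fin 6)} {z y : ℂ} {a b c d e f : Fin 6}
  {m x0 x0' x1 x1' x2 x2' : ℝ} {s0 t0 s1 t1 s2 t2 : Bool}

/-- the letter `s` at the direction `x` (`true` = `e`) -/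
def Lx (T : ℂ → Set (Fin 6)) (z : ℂ) (e f : Fin 6) (x : ℝ) (s : Bool) : Prop :=
  cond s (f ∉ T (pt z x)) (e ∉ T (pt z x))

theorem Lx.efs {x : ℝ} {s : Bool} (h : Lx T z e f x s) : Lx T z f e x (!s) := by
  cases s <;> exact h

theorem Lx.of {x : ℝ} {s : Bool} {i j : Fin 6} (h : T (pt z x) = {i, j, cond s e f})
    (ie : i ≠ e) (if_ : i ≠ f) (je : j ≠ e) (jf : j ≠ f) (ef : e ≠ f) : Lx T z e f x s := by
  cases s
  · show e ∉ T (pt z x)
    rw [h]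
    simp only [cond_false, mem_insert_iff, mem_singleton_iff, not_or]
    exact ⟨ie.symm, je.symm, ef⟩
  · show f ∉ T (pt z x)
    rw [h]
    simp only [cond_true, mem_insert_iff, mem_singleton_iff, not_or]
    exact ⟨if_.symm, jf.symm, ef.symm⟩

/-- a circle with three blocks and a word -/
structure Cir (T : ℂ → Set (Fin 6)) (z : ℂ) (P Q : Set (Fin 6)) (e f : Fin 6)
    (m x0 x0' x1 x1' x2 x2' : ℝ) (s0 t0 s1 t1 s2 t2 : Bool) : Prop where
  blk : Blk (Ad T z P Q) m x0 x0' x1 x1' x2 x2'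
  l0 : Lx T z e f x0 s0
  k0 : Lx T z e f x0' t0
  l1 : Lx T z e f x1 s1
  k1 : Lx T z e f x1' t1
  l2 : Lx T z e f x2 s2
  k2 : Lx T z e f x2' t2
  gw : (G1 x0 x0' x1 x1' x2 x2' (s2 = t2) ∧ W1 s0 t0 s1 t1 s2 t2) ∨
    (G2 x0 x0' x1 x1' x2 x2' (s1 = t1) ∧ W2 s0 t0 s1 t1 s2 t2)

theorem w1_not : W1 (!s0) (!t0) (!s1) (!t1) (!s2) (!t2) ↔ W1 s0 t0 s1 t1 s2 t2 := by
  unfold W1
  revert s0 t0 s1 t1 s2 t2
  decide

theorem w2_not : W2 (!s0) (!t0) (!s1) (!t1) (!s2) (!t2) ↔ W2 s0 t0 s1 t1 s2 t2 := by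
  unfold W2
  revert s0 t0 s1 t1 s2 t2
  decide

theorem not_eq_not' (s t : Bool) : ((!s) = (!t)) = (s = t) := by
  cases s <;> cases t <;> simp

/-- exchange of the letters -/
theorem gw_not (h : (G1 x0 x0' x1 x1' x2 x2' (s2 = t2) ∧ W1 s0 t0 s1 t1 s2 t2) ∨
      (G2 x0 x0' x1 x1' x2 x2' (s1 = t1) ∧ W2 s0 t0 s1 t1 s2 t2)) :
    (G1 x0 x0' x1 x1' x2 x2' ((!s2) = (!t2)) ∧ W1 (!s0) (!t0) (!s1) (!t1) (!s2) (!t2)) ∨
      (G2 x0 x0' x1 x1' x2 x2' ((!s1) = (!t1)) ∧ W2 (!s0) (!t0) (!s1) (!t1) (!s2) (!t2)) := by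
  rw [not_eq_not', not_eq_not', w1_not, w2_not]
  exact h

theorem Cir.efs {P Q : Set (Fin 6)}
    (C : Cir T z P Q e f m x0 x0' x1 x1' x2 x2' s0 t0 s1 t1 s2 t2) :
    Cir T z P Q f e m x0 x0' x1 x1' x2 x2' (!s0) (!t0) (!s1) (!t1) (!s2) (!t2) :=
  ⟨C.blk, C.l0.efs, C.k0.efs, C.l1.efs, C.k1.efs, C.l2.efs, C.k2.efs, gw_not C.gw⟩

theorem Cir.pairs {P Q : Set (Fin 6)}
    (C : Cir T z P Q e f m x0 x0' x1 x1' x2 x2' s0 t0 s1 t1 s2 t2) :
    Cir T z Q P e f m x0 x0' x1 x1' x2 x2' s0 t0 s1 t1 s2 t2 := by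
  obtain ⟨B, h1, h2, h3, h4, h5, h6, h7⟩ := C
  rw [← H594.Ad_swap] at B
  exact ⟨B, h1, h2, h3, h4, h5, h6, h7⟩

/-- the blocks in shifted directions -/
theorem blk_sh {Z : Set ℝ} (B : Blk Z m x0 x0' x1 x1' x2 x2') {c m' : ℝ} (hm : m' = m - c) :
    Blk {t | t + c ∈ Z} m' (x0 - c) (x0' - c) (x1 - c) (x1' - c) (x2 - c) (x2' - c) := by
  subst hm
  exact
  { a0 := by have := B.a0; linarith
    b0 := by have := B.b0; linarith
    c0 := by have := B.c0; linarith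
    d0 := by have := B.d0; linarith
    a1 := by have := B.a1; linarith
    b1 := by have := B.b1; linarith
    c1 := by have := B.c1; linarith
    a2 := by have := B.a2; linarith
    b2 := by have := B.b2; linarith
    c2 := by have := B.c2; linarith
    mem := fun t h1 h2 => by
      show t + c ∈ Z ↔ _
      rw [B.mem (t + c) (by linarith) (by linarith)]
      simp only [sub_le_iff_le_add, le_sub_iff_add_le] }

theorem sx_sh {P N : Set ℝ} (h : Sx P N x0 x0' x1 x1' x2 x2' s0 t0 s1 t1 s2 t2) (c : ℝ) :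
    Sx {t | t + c ∈ P} {t | t + c ∈ N} (x0 - c) (x0' - c) (x1 - c) (x1' - c) (x2 - c) (x2' - c)
      s0 t0 s1 t1 s2 t2 := by
  have kb : ∀ {s : Bool} {x : ℝ}, BfS P N s x → BfS {t | t + c ∈ P} {t | t + c ∈ N} s (x - c) := by
    intro s x h
    cases s
    · exact H594.bf_sh (N := P) h
    · exact H594.bf_sh (N := N) h
  have ka : ∀ {s : Bool} {x : ℝ}, AfS P N s x → AfS {t | t + c ∈ P} {t | t + c ∈ N} s (x - c) := by
    intro s x h
    cases s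
    · exact H594.af_sh (N := P) h
    · exact H594.af_sh (N := N) h
  exact ⟨kb h.b0, ka h.a0, kb h.b1, ka h.a1, kb h.b2, ka h.a2⟩

/-- the signs of the circle of `z` -/
theorem sx_z (S : JPair U T z y a b c d e f)
    (C : Cir T z {a, b} {c, d} e f m x0 x0' x1 x1' x2 x2' s0 t0 s1 t1 s2 t2) :
    Sx (Sd T z y e f) (Sd T z y f e) x0 x0' x1 x1' x2 x2' s0 t0 s1 t1 s2 t2 := by
  obtain ⟨⟨g0, g1, g2⟩, g0', g1', g2'⟩ := Blk.evs C.blk (H594.Ad_per _ _)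
  have kb : ∀ {s : Bool} {x : ℝ}, (∀ᶠ t in 𝓝[<] x, t ∉ Ad T z {a, b} {c, d}) → Lx T z e f x s →
      BfS (Sd T z y e f) (Sd T z y f e) s x := by
    intro s x h h'
    cases s
    · exact S.bz' h h'
    · exact S.bz h h'
  have ka : ∀ {s : Bool} {x : ℝ}, (∀ᶠ t in 𝓝[>] x, t ∉ Ad T z {a, b} {c, d}) → Lx T z e f x s →
      AfS (Sd T z y e f) (Sd T z y f e) s x := by
    intro s x h h'
    cases s
    · exact S.az' h h'
    · exact S.az h h'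
  exact ⟨kb g0 C.l0, ka g0' C.k0, kb g1 C.l1, ka g1' C.k1, kb g2 C.l2, ka g2' C.k2⟩

/-- the signs of the circle of `y` -/
theorem sx_y (S : JPair U T z y a b c d e f)
    (C : Cir T y {a, c} {b, d} e f m x0 x0' x1 x1' x2 x2' s0 t0 s1 t1 s2 t2) :
    Sx (Sd T z y e f) (Sd T z y f e) x0 x0' x1 x1' x2 x2' (!s0) (!t0) (!s1) (!t1) (!s2) (!t2) := by
  obtain ⟨⟨g0, g1, g2⟩, g0', g1', g2'⟩ := Blk.evs C.blk (H594.Ad_per _ _)
  have kb : ∀ {s : Bool} {x : ℝ}, (∀ᶠ t in 𝓝[<] x, t ∉ Ad T y {a, c} {b, d}) → Lx T y e f x s →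
      BfS (Sd T z y e f) (Sd T z y f e) (!s) x := by
    intro s x h h'
    cases s
    · exact S.by' h h'
    · exact S.by_ h h'
  have ka : ∀ {s : Bool} {x : ℝ}, (∀ᶠ t in 𝓝[>] x, t ∉ Ad T y {a, c} {b, d}) → Lx T y e f x s →
      AfS (Sd T z y e f) (Sd T z y f e) (!s) x := by
    intro s x h h'
    cases s
    · exact S.ay' h h'
    · exact S.ay h h'
  exact ⟨kb g0 C.l0, ka g0' C.k0, kb g1 C.l1, ka g1' C.k1, kb g2 C.l2, ka g2' C.k2⟩

theorem gw_sh (h : (G1 x0 x0' x1 x1' x2 x2' (s2 = t2) ∧ W1 s0 t0 s1 t1 s2 t2) ∨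
      (G2 x0 x0' x1 x1' x2 x2' (s1 = t1) ∧ W2 s0 t0 s1 t1 s2 t2)) (c : ℝ) :
    (G1 (x0 - c) (x0' - c) (x1 - c) (x1' - c) (x2 - c) (x2' - c) (s2 = t2) ∧
      W1 s0 t0 s1 t1 s2 t2) ∨
      (G2 (x0 - c) (x0' - c) (x1 - c) (x1' - c) (x2 - c) (x2' - c) (s1 = t1) ∧
        W2 s0 t0 s1 t1 s2 t2) :=
  h.imp (fun h => ⟨h.1.sh c, h.2⟩) fun h => ⟨h.1.sh c, h.2⟩

/-- **the word of `z`** : the old word -/
theorem word_of (S : JPair U T z y a b c d e f) (hS : Sec4 T)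
    (C : Cir T z {a, b} {c, d} e f m x0 x0' x1 x1' x2 x2' s0 t0 s1 t1 s2 t2)
    (HY : Comp T y → ∃ y0 y0' y1 y1' y2 y2' u0 v0 u1 v1 u2 v2,
      Cir T y {a, c} {b, d} e f (m + 3) y0 y0' y1 y1' y2 y2' u0 v0 u1 v1 u2 v2) :
    s1 = s0 ∧ s2 = s0 ∧ t0 = !s0 ∧ t1 = !s0 ∧ t2 = !s0 := by
  by_cases hc : Comp T y
  · obtain ⟨y0, y0', y1, y1', y2, y2', u0, v0, u1, v1, u2, v2, D⟩ := HY hc
    exact (j2j2_815 (S.sg.shift m) (blk_sh C.blk (sub_self m).symm)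
      (blk_sh D.blk (show (3 : ℝ) = m + 3 - m by ring)) (sx_sh (sx_z S C) m)
      (sx_sh (sx_y S D) m) (gw_sh C.gw m) (gw_sh (gw_not D.gw) m)).1
  · have X := sx_z S C
    have ua : ∀ {s t : Bool} {x : ℝ}, AfS (Sd T z y e f) (Sd T z y f e) s x →
        AfS (Sd T z y e f) (Sd T z y f e) t x → s = t := by
      intro s t x h h'
      cases s <;> cases t <;> first | rfl | skip
      · exact (S.sg.not_both_af h' h).elim
      · exact (S.sg.not_both_af h h').elim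
    rcases old_sign_nc S hS hc C.blk with ⟨⟨k0, k1, k2⟩, k0', k1', k2'⟩ |
      ⟨⟨k0, k1, k2⟩, k0', k1', k2'⟩
    · have e0 := H815.uniq815 S.sg (t := false) X.b0 k0
      have e1 := H815.uniq815 S.sg (t := false) X.b1 k1
      have e2 := H815.uniq815 S.sg (t := false) X.b2 k2
      have e0' := ua (t := true) X.a0 k0'
      have e1' := ua (t := true) X.a1 k1'
      have e2' := ua (t := true) X.a2 k2'
      rw [e0, e1, e2, e0', e1', e2']
      exact ⟨rfl, rfl, rfl, rfl, rfl⟩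
    · have e0 := H815.uniq815 S.sg (t := true) X.b0 k0
      have e1 := H815.uniq815 S.sg (t := true) X.b1 k1
      have e2 := H815.uniq815 S.sg (t := true) X.b2 k2
      have e0' := ua (t := false) X.a0 k0'
      have e1' := ua (t := false) X.a1 k1'
      have e2' := ua (t := false) X.a2 k2'
      rw [e0, e1, e2, e0', e1', e2']
      exact ⟨rfl, rfl, rfl, rfl, rfl⟩

/-! ### From the circles to `Cir` -/

theorem nd12 (nd : [a, b, c, d, e, f].Nodup) :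
    (a ≠ e ∧ a ≠ f ∧ b ≠ e ∧ b ≠ f ∧ c ≠ e ∧ c ≠ f ∧ d ≠ e ∧ d ≠ f) ∧ e ≠ f := by
  simp only [List.nodup_cons, List.mem_cons, List.not_mem_nil, or_false, not_or,
    List.nodup_nil, and_true, not_false_eq_true] at nd
  obtain ⟨⟨ab, ac, ad, ae, af⟩, ⟨bc, bd, be, bf⟩, ⟨cd, ce, cf⟩, ⟨de, df⟩, ef⟩ := nd
  exact ⟨⟨ae, af, be, bf, ce, cf, de, df⟩, ef⟩

/-- the free colours of two frames -/
theorem free_eq {a' b' c' d' e' f' : Fin 6} (hT : T z = {a, b, c, d})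
    (hT' : T z = {a', b', c', d'}) (nd : [a, b, c, d, e, f].Nodup)
    (nd' : [a', b', c', d', e', f'].Nodup) : (e' = e ∧ f' = f) ∨ (e' = f ∧ f' = e) := by
  obtain ⟨⟨ae, af, be, bf, ce, cf, de, df⟩, ef⟩ := nd12 nd
  obtain ⟨⟨ae', af', be', bf', ce', cf', de', df'⟩, ef'⟩ := nd12 nd'
  have key : ∀ x : Fin 6, x ∉ T z → x = e ∨ x = f := by
    intro x hx
    rw [hT] at hx
    simp only [mem_insert_iff, mem_singleton_iff, not_or] at hx
    obtain ⟨h1, h2, h3, h4⟩ := hx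
    by_contra hcon
    push Not at hcon
    have hnd : [x, a, b, c, d, e, f].Nodup := by
      rw [List.nodup_cons]
      refine ⟨?_, nd⟩
      simp only [List.mem_cons, List.not_mem_nil, or_false, not_or]
      exact ⟨h1, h2, h3, h4, hcon.1, hcon.2⟩
    have := hnd.length_le_card
    simp at this
  have m1 : e' ∉ T z := by
    rw [hT']
    simp only [mem_insert_iff, mem_singleton_iff, not_or]
    exact ⟨ae'.symm, be'.symm, ce'.symm, de'.symm⟩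
  have m2 : f' ∉ T z := by
    rw [hT']
    simp only [mem_insert_iff, mem_singleton_iff, not_or]
    exact ⟨af'.symm, bf'.symm, cf'.symm, df'.symm⟩
  rcases key e' m1 with h1 | h1 <;> rcases key f' m2 with h2 | h2
  · exact absurd (h1.trans h2.symm) ef'
  · exact Or.inl ⟨h1, h2⟩
  · exact Or.inr ⟨h1, h2⟩
  · exact absurd (h1.trans h2.symm) ef'

/-- a circle in other names -/
theorem Cir.names (h : Irr U T) {a' b' c' d' e' f' : Fin 6} (hz : DPt T z a b c d)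
    (hz' : DPt T z a' b' c' d') (nd : [a, b, c, d, e, f].Nodup)
    (nd' : [a', b', c', d', e', f'].Nodup)
    (C : Cir T z {a', b'} {c', d'} e' f' m x0 x0' x1 x1' x2 x2' s0 t0 s1 t1 s2 t2) :
    ∃ s0 t0 s1 t1 s2 t2, Cir T z {a, b} {c, d} e f m x0 x0' x1 x1' x2 x2' s0 t0 s1 t1 s2 t2 := by
  have h1 : Cir T z {a, b} {c, d} e' f' m x0 x0' x1 x1' x2 x2' s0 t0 s1 t1 s2 t2 := by
    rcases pairs_eq h hz hz' with ⟨k1, k2⟩ | ⟨k1, k2⟩
    · rwa [k1, k2] at C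
    · rw [k1, k2] at C
      exact C.pairs
  rcases free_eq hz.pal hz'.pal nd nd' with ⟨rfl, rfl⟩ | ⟨rfl, rfl⟩
  · exact ⟨_, _, _, _, _, _, h1⟩
  · exact ⟨_, _, _, _, _, _, h1.efs⟩

/-! ### The old word -/

theorem nd_swap (nd : [a, b, c, d, e, f].Nodup) :
    [c, d, a, b, e, f].Nodup ∧ [c, d, a, b, f, e].Nodup := by
  simp only [List.nodup_cons, List.mem_cons, List.not_mem_nil, or_false, not_or,
    List.nodup_nil, and_true, not_false_eq_true] at nd ⊢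
  obtain ⟨⟨ab, ac, ad, ae, af⟩, ⟨bc, bd, be, bf⟩, ⟨cd, ce, cf⟩, ⟨de, df⟩, ef⟩ := nd
  exact ⟨⟨⟨cd, Ne.symm ac, Ne.symm bc, ce, cf⟩, ⟨Ne.symm ad, Ne.symm bd, de, df⟩, ⟨ab, ae, af⟩,
    ⟨be, bf⟩, ef⟩, ⟨cd, Ne.symm ac, Ne.symm bc, cf, ce⟩, ⟨Ne.symm ad, Ne.symm bd, df, de⟩,
    ⟨ab, af, ae⟩, ⟨bf, be⟩, Ne.symm ef⟩

theorem pt_back (z : ℂ) (φ : ℝ) : pt (pt z φ) (φ + 3) = z := by
  rw [pt_three]
  unfold pt
  ring

/-- the word, for one circle -/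
def Old6 (s0 t0 s1 t1 s2 t2 : Bool) : Prop :=
  s1 = s0 ∧ s2 = s0 ∧ t0 = !s0 ∧ t1 = !s0 ∧ t2 = !s0

/-- **no comp centre with two `J`-partners**, from `Cir` -/
theorem noJ2_of_cir (h : Irr U T) (h5 : NoPair5 T) (hT : OnlyJT T) (hS : Sec4 T) (h1 : NoJ1 T)
    (h22 : ∀ {z v v' x x'}, EE T z v → EE T z v' → EE T z x → EE T z x' → T v' = T v →
      T x = (T v)ᶜ → T x' = (T v)ᶜ → v ≠ v' → x ≠ x' → False)
    (HZ : ∀ z y y', Comp T z → H594.Jp T z y → H594.Jp T z y' → y ≠ y' →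
      ∃ φ a b c d e f x0 x0' x1 x1' x2 x2' s0 t0 s1 t1 s2 t2, DPt T z a b c d ∧
        [a, b, c, d, e, f].Nodup ∧ T (pt z φ) = T z ∧
        Cir T z {a, b} {c, d} e f φ x0 x0' x1 x1' x2 x2' s0 t0 s1 t1 s2 t2 ∧
        (Old6 s0 t0 s1 t1 s2 t2 →
          ∃ φ a b c d e f s t u u' w m w', OldW T z φ a b c d e f s t u u' w m w'))
    (HY : ∀ z φ y', Comp T z → H594.Jp T z (pt z φ) → H594.Jp T z y' → pt z φ ≠ y' →
      ∃ a b c d e f x0 x0' x1 x1' x2 x2' s0 t0 s1 t1 s2 t2, DPt T z a b c d ∧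
        [a, b, c, d, e, f].Nodup ∧
        Cir T z {a, b} {c, d} e f φ x0 x0' x1 x1' x2 x2' s0 t0 s1 t1 s2 t2) : NoJ2 T := by
  refine H594.noJ2_of_old h h5 hT hS h1 h22 ?_
  intro z y y' hz hy hy' hne
  obtain ⟨φ, a, b, c, d, e, f, x0, x0', x1, x1', x2, x2', s0, t0, s1, t1, s2, t2, hD, nd, hJ, C,
    O⟩ := HZ z y y' hz hy hy' hne
  refine O ?_
  have hd := dist_pt z φ
  have hDy := h.dpt_of_eq169 ⟨_, _, _, _, hD⟩ hd hJ
  have wz : ∀ v, dist v z = 1 → (T v).ncard ≤ 3 ∨ T v = T z :=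
    fun v hv => hT.w0 h5 ⟨_, _, _, _, hD⟩ hv
  have wy : ∀ v, dist v (pt z φ) = 1 → (T v).ncard ≤ 3 ∨ T v = T (pt z φ) :=
    fun v hv => hT.w0 h5 hDy hv
  -- the circle of the partner, if it is a comp centre
  have hY : ∀ {c d : Fin 6} (S : JPair U T z (pt z φ) a b c d e f), Comp T (pt z φ) →
      ∃ y0 y0' y1 y1' y2 y2' u0 v0 u1 v1 u2 v2,
      Cir T (pt z φ) {a, c} {b, d} e f (φ + 3) y0 y0' y1 y1' y2 y2' u0 v0 u1 v1 u2 v2 := by
    intro c d S hc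
    have e1 := pt_back z φ
    have j1 : H594.Jp T (pt z φ) (pt (pt z φ) (φ + 3)) := by
      rw [e1]
      exact ⟨by rw [dist_comm]; exact hd, hJ.symm⟩
    obtain ⟨y'', j2, k2⟩ : ∃ y'', H594.Jp T (pt z φ) y'' ∧ pt (pt z φ) (φ + 3) ≠ y'' := by
      by_contra hcon
      push Not at hcon
      exact h1 _ _ hc j1 fun w hw => (hcon w hw).symm
    obtain ⟨a', b', c', d', e', f', y0, y0', y1, y1', y2, y2', u0, v0, u1, v1, u2, v2, hD', nd',
      k⟩ := HY _ _ _ hc j1 j2 k2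
    obtain ⟨u0, v0, u1, v1, u2, v2, k⟩ := k.names h S.hy hD' S.swap.nd nd'
    exact ⟨_, _, _, _, _, _, _, _, _, _, _, _, k⟩
  rcases H594.jpair594 h hD nd hJ rfl wz wy with S | S
  · exact word_of S hS C (hY S)
  · rw [pair_comm c d] at C
    exact word_of S hS C (hY S)

end Vale.Agent.P032.H838
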