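import Vale.Agent.P032.H815.JPre0
import Vale.Agent.P032.H838.Glue

/-!
# P032: no comp centre with two `J`-partners, from the two types of circles

`cir_of1`, `cir_of2` : `Pre1`, `Pre2` of 815 as `Cir`; `oldW_of` : the old word;
`noJ2_of_pre` : no comp centre with two `J`-partners.
-/

open Set Filter Topology Metric

noncomputable section

namespace Vale.Agent.P032.H838

open Vale.Agent.P032.Six Vale.Agent.P032.S5.H767 Vale.Agent.P032.H471
open Vale.Agent.P032.H594 (JPair Ad Sd Blk Bf Af SG Comp OldW NoJ1 NoJ2 OnlyJT)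
open Vale.Agent.P032.H815 (Pre1 Pre2)

variable {U : Fin 6 → Set ℂ} {T : ℂ → Set (Fin 6)} {z y : ℂ} {a b c d e f : Fin 6}
  {s0 t0 s1 t1 s2 t2 : Bool}

theorem cir_of1 {φ x0 x0' x1 x1' x2 j x2' : ℝ} (nd : [a, b, c, d, e, f].Nodup)
    (P : Pre1 T z a b c d e f φ x0 x0' x1 x1' x2 j x2' s0 t0 s1 t1 s2 t2) :
    Cir T z {a, b} {c, d} e f φ (φ + x0) (φ + x0') (φ + x1) (φ + x1') (φ + x2) (φ + x2')
      s0 t0 s1 t1 s2 t2 := by
  obtain ⟨⟨ae, af, be, bf, ce, cf, de, df⟩, ef⟩ := nd12 nd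
  exact ⟨P.blk, Lx.of P.p0 ce cf de df ef, Lx.of P.p0' ae af be bf ef,
    Lx.of P.p1 ce cf de df ef, Lx.of P.p1' ce cf de df ef, Lx.of P.p2 ae af be bf ef,
    Lx.of P.p2' ce cf de df ef, Or.inl ⟨P.g, P.w⟩⟩

theorem cir_of2 {φ x0 x0' x1 j x1' x2 x2' : ℝ} (nd : [a, b, c, d, e, f].Nodup)
    (P : Pre2 T z a b c d e f φ x0 x0' x1 j x1' x2 x2' s0 t0 s1 t1 s2 t2) :
    Cir T z {a, b} {c, d} e f φ (φ + x0) (φ + x0') (φ + x1) (φ + x1') (φ + x2) (φ + x2')
      s0 t0 s1 t1 s2 t2 := by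
  obtain ⟨⟨ae, af, be, bf, ce, cf, de, df⟩, ef⟩ := nd12 nd
  exact ⟨P.blk, Lx.of P.p0 ce cf de df ef, Lx.of P.p0' ae af be bf ef,
    Lx.of P.p1 ae af be bf ef, Lx.of P.p1' ce cf de df ef, Lx.of P.p2 ae af be bf ef,
    Lx.of P.p2' ae af be bf ef, Or.inr ⟨P.g, P.w⟩⟩

/-- the old word from the circle, `e` before, `f` after or conversely -/
theorem oldW_of {φ x0 x0' x1 x1' x2 j x2' : ℝ} {g g' : Fin 6} (hz : DPt T z a b c d)
    (nd : [c, d, a, b, g, g'].Nodup)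
    (P : Pre1 T z a b c d e f φ x0 x0' x1 x1' x2 j x2' s0 t0 s1 t1 s2 t2)
    (hs0 : cond s0 e f = g') (hs1 : cond s1 e f = g') (hs2 : cond s2 e f = g')
    (ht0 : cond t0 e f = g) (ht1 : cond t1 e f = g) (ht2 : cond t2 e f = g) :
    OldW T z φ c d a b g g' (-x0) x0' x1 x1' x2 j x2' := by
  have B := P.blk
  have a0 := B.a0; have b0 := B.b0; have c0 := B.c0; have d0 := B.d0; have a1 := B.a1
  have b1 := B.b1; have c1 := B.c1; have a2 := B.a2; have b2 := B.b2; have c2 := B.c2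
  exact
  { hz := hz.swap
    nd := nd
    s0 := by linarith
    s1 := by linarith
    t0 := by linarith
    t1 := by linarith
    u0 := by linarith
    uu := by linarith
    u3 := by linarith
    w3 := by linarith
    wm := P.o9
    mw := P.oa
    gap := by have := P.gap; linarith
    j0 := P.j0
    j0' := P.j0'
    j1 := P.j1
    j3 := by have := P.j3; linarith
    j4 := P.j4
    J := P.J
    J' := P.J'
    A0 := fun x h1 h2 => ex_self (P.m0 x ⟨by linarith, h2⟩)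
    C0 := fun x h1 h2 => ex_self (P.m0' x ⟨h1, h2⟩)
    A1 := fun x h1 h2 => ex_self (P.m1 x ⟨h1, h2⟩)
    C2 := fun x h1 h2 => ex_self (P.m2 x ⟨h1, h2⟩)
    A2 := fun x h1 h2 => ex_self (P.m2' x ⟨h1, h2⟩)
    e0 := by rw [sub_neg_eq_add, P.p0, hs0]
    e0' := by rw [P.p0', ht0]
    e1 := by rw [P.p1, hs1]
    e1' := by rw [P.p1', ht1]
    e2 := by rw [P.p2, hs2]
    e2' := by rw [P.p2', ht2]
    cl := fun x h1 h2 h3 => by
      rw [H594.Ad_swap] at h3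
      rcases le_or_gt x 5 with h4 | h4
      · rcases (B.mem (φ + x) (by linarith) (by linarith)).1 h3 with k | k | k
        · exact Or.inl (by linarith [k.2])
        · exact Or.inr (Or.inl ⟨by linarith [k.1], by linarith [k.2]⟩)
        · exact Or.inr (Or.inr ⟨by linarith [k.1], by linarith [k.2]⟩)
      · exfalso
        have h5 := (H594.Ad_per (T := T) (z := z) {a, b} {c, d} (φ + x - 6))
        rw [sub_add_cancel] at h5
        rcases (B.mem (φ + x - 6) (by linarith) (by linarith)).1 (h5.1 h3) with k | k | k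
        · linarith [k.1]
        · linarith [k.1]
        · linarith [k.1] }

/-- **no comp centre with two `J`-partners**, from the circles of the two types -/
theorem noJ2_of_pre (h : Irr U T) (h5 : NoPair5 T) (hT : OnlyJT T) (hS : Sec4 T) (h1 : NoJ1 T)
    (h22 : ∀ {z v v' x x'}, EE T z v → EE T z v' → EE T z x → EE T z x' → T v' = T v →
      T x = (T v)ᶜ → T x' = (T v)ᶜ → v ≠ v' → x ≠ x' → False)
    (HZ : ∀ z y y', Comp T z → H594.Jp T z y → H594.Jp T z y' → y ≠ y' →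
      ∃ φ a b c d e f x0 x0' x1 x1' x2 j x2' s0 t0 s1 t1 s2 t2, DPt T z a b c d ∧
        [a, b, c, d, e, f].Nodup ∧
        Pre1 T z a b c d e f φ x0 x0' x1 x1' x2 j x2' s0 t0 s1 t1 s2 t2)
    (HY : ∀ z φ y', Comp T z → H594.Jp T z (pt z φ) → H594.Jp T z y' → pt z φ ≠ y' →
      ∃ a b c d e f, DPt T z a b c d ∧ [a, b, c, d, e, f].Nodup ∧
        ((∃ x0 x0' x1 x1' x2 j x2' s0 t0 s1 t1 s2 t2,
          Pre1 T z a b c d e f φ x0 x0' x1 x1' x2 j x2' s0 t0 s1 t1 s2 t2) ∨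
        (∃ x0 x0' x1 j x1' x2 x2' s0 t0 s1 t1 s2 t2,
          Pre2 T z a b c d e f φ x0 x0' x1 j x1' x2 x2' s0 t0 s1 t1 s2 t2))) : NoJ2 T := by
  refine noJ2_of_cir h h5 hT hS h1 h22 ?_ ?_
  · intro z y y' hz hy hy' hne
    obtain ⟨φ, a, b, c, d, e, f, x0, x0', x1, x1', x2, j, x2', s0, t0, s1, t1, s2, t2, hD, nd, P⟩ :=
      HZ z y y' hz hy hy' hne
    refine ⟨φ, a, b, c, d, e, f, _, _, _, _, _, _, s0, t0, s1, t1, s2, t2, hD, nd, P.J,
      cir_of1 nd P, ?_⟩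
    rintro ⟨w1, w2, w3, w4, w5⟩
    obtain ⟨n1, n2⟩ := nd_swap nd
    cases hs : s0
    · rw [hs] at w1 w2 w3 w4 w5
      exact ⟨_, _, _, _, _, _, _, _, _, _, _, _, _, _, oldW_of hD n1 P (by rw [hs]; rfl)
        (by rw [w1]; rfl) (by rw [w2]; rfl) (by rw [w3]; rfl) (by rw [w4]; rfl) (by rw [w5]; rfl)⟩
    · rw [hs] at w1 w2 w3 w4 w5
      exact ⟨_, _, _, _, _, _, _, _, _, _, _, _, _, _, oldW_of hD n2 P (by rw [hs]; rfl)
        (by rw [w1]; rfl) (by rw [w2]; rfl) (by rw [w3]; rfl) (by rw [w4]; rfl) (by rw [w5]; rfl)⟩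
  · intro z φ y' hz hy hy' hne
    obtain ⟨a, b, c, d, e, f, hD, nd, k⟩ := HY z φ y' hz hy hy' hne
    rcases k with ⟨y0, y0', y1, y1', y2, j', y2', u0, v0, u1, v1, u2, v2, Q⟩ |
      ⟨y0, y0', y1, j', y1', y2, y2', u0, v0, u1, v1, u2, v2, Q⟩
    · exact ⟨a, b, c, d, e, f, _, _, _, _, _, _, _, _, _, _, _, _, hD, nd, cir_of1 nd Q⟩
    · exact ⟨a, b, c, d, e, f, _, _, _, _, _, _, _, _, _, _, _, _, hD, nd, cir_of2 nd Q⟩

end Vale.Agent.P032.H838
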