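import Vale.Agent.P032.H695.Lift

/-!
# P032: global heights of the letters of a circle

`Ht Q M W` : `M : ℝ → ℤ` is a height of the closed cover `Q` of the circle `ℝ / 6` (even values = one
label, odd values = two labels), with winding number `W`.

* `exHt` : every `Cov Q` has a height;
* `Ht.shift`, `Ht.unique`, `Ht.eq_of_inc` : change of the base angle, uniqueness of `W`, equality of
  the winding numbers of two covers which are incomparable at every angle;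
* `full_win`, `Ht.full` : for the data of `H695.Cov.full_odd` the winding number is `6 N + 3`.
-/

open Set Filter Topology

noncomputable section

namespace Vale.Agent.P032.H838

open Vale.Agent.P032.H180
open Vale.Agent.P032.H695

/-! ### Integers -/

theorem res_add {m w : ℤ} {l : Fin 3} : Res (m + 6 * w - 2 * (l : ℕ)) ↔ Res (m - 2 * (l : ℕ)) := by
  unfold Res
  omega

theorem inc_mod {m n : ℤ} {A B : Set (Fin 3)} (hA : ∀ l : Fin 3, l ∈ A ↔ Res (m - 2 * (l : ℕ)))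
    (hB : ∀ l : Fin 3, l ∈ B ↔ Res (n - 2 * (l : ℕ))) (h1 : ¬ A ⊆ B) (h2 : ¬ B ⊆ A) :
    (n - m) % 6 = 2 ∨ (n - m) % 6 = 3 ∨ (n - m) % 6 = 4 := by
  rw [Set.not_subset] at h1 h2
  obtain ⟨l, hl, hl'⟩ := h1
  obtain ⟨j, hj, hj'⟩ := h2
  rw [hA] at hl hj'
  rw [hB] at hl' hj
  exact incomparable_mod ⟨l, hl, hl'⟩ ⟨j, hj, hj'⟩

variable {Q Q' : ℝ → Set (Fin 3)} {M M' : ℝ → ℤ} {W W' : ℤ}

/-- locally constant on the line -/
theorem const_R {f : ℝ → ℤ} (hf : ∀ t, ∀ᶠ s in 𝓝 t, f s = f t) (s t : ℝ) : f s = f t :=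
  const_of_loc (a := min s t) (b := max s t)
    (fun x _ => mem_nhdsWithin_of_mem_nhds (hf x)) s ⟨min_le_left _ _, le_max_left _ _⟩ t
    ⟨min_le_right _ _, le_max_right _ _⟩

/-! ### Heights -/

/-- a height with winding number `W` -/
structure Ht (Q : ℝ → Set (Fin 3)) (M : ℝ → ℤ) (W : ℤ) : Prop where
  mem : ∀ t, ∀ l : Fin 3, l ∈ Q t ↔ Res (M t - 2 * (l : ℕ))
  loc : ∀ t, ∀ᶠ s in 𝓝 t, |M s - M t| ≤ 1
  per : ∀ t, M (t + 6) = M t + 6 * W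

theorem Cov.per_int (h : Cov Q) (j : ℤ) (t : ℝ) : Q (t + 6 * j) = Q t := by
  induction j using Int.induction_on with
  | zero => simp
  | succ n ih =>
    have e : t + 6 * (((n : ℤ) + 1 : ℤ) : ℝ) = t + 6 * ((n : ℤ) : ℝ) + 6 := by push_cast; ring
    rw [e, h.per, ih]
  | pred n ih =>
    have e : t + 6 * ((-(n : ℤ) - 1 : ℤ) : ℝ) + 6 = t + 6 * ((-(n : ℤ) : ℤ) : ℝ) := by
      push_cast; ring
    rw [← h.per, e, ih]

/-- **existence of a height** -/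
theorem exHt (h : Cov Q) : ∃ M W, Ht Q M W := by
  obtain ⟨ℓ, M0, -, -, hM, hMloc, -⟩ := h.exM
  have hD6 : ∀ t ∈ Icc (0 : ℝ) 6, (M0 (t + 6) - M0 t) % 6 = 0 := by
    intro t ht
    have ht0 : t ∈ Icc (0 : ℝ) 12 := ⟨ht.1, by linarith [ht.2]⟩
    have ht1 : t + 6 ∈ Icc (0 : ℝ) 12 := ⟨by linarith [ht.1], by linarith [ht.2]⟩
    apply eq_mod_of_res
    intro l
    rw [← hM t ht0 l, ← hM _ ht1 l, h.per]
  have hDloc : ∀ t ∈ Icc (0 : ℝ) 6, ∀ᶠ s in 𝓝[Icc (0 : ℝ) 6] t,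
      M0 (s + 6) - M0 s = M0 (t + 6) - M0 t := by
    intro t ht
    have ht0 : t ∈ Icc (0 : ℝ) 12 := ⟨ht.1, by linarith [ht.2]⟩
    have ht1 : t + 6 ∈ Icc (0 : ℝ) 12 := ⟨by linarith [ht.1], by linarith [ht.2]⟩
    have h1 := (tendsto_add_Icc (t := t) (a := 0) (b := 6) (a' := 0) (b' := 12) (c := 6)
      fun s hs => ⟨by linarith [hs.1], by linarith [hs.2]⟩).eventually (hMloc _ ht1)
    have h2 := nhdsWithin_mono t (Icc_subset_Icc le_rfl (by norm_num : (6 : ℝ) ≤ 12))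
      (hMloc t ht0)
    filter_upwards [h1, h2, self_mem_nhdsWithin] with s hs1 hs2 hs
    have e1 := hD6 s hs
    have e2 := hD6 t ht
    rw [abs_le] at hs1 hs2
    omega
  have hW := const_of_loc hDloc
  have z0 : (0 : ℝ) ∈ Icc (0 : ℝ) 6 := ⟨le_rfl, by norm_num⟩
  obtain ⟨W, hW0⟩ : ∃ W : ℤ, M0 (0 + 6) - M0 0 = 6 * W := by
    have := hD6 0 z0
    exact ⟨(M0 (0 + 6) - M0 0) / 6, by omega⟩
  have hW1 : ∀ t ∈ Icc (0 : ℝ) 6, M0 (t + 6) = M0 t + 6 * W := by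
    intro t ht
    have := hW t ht 0 z0
    omega
  -- the extension
  set M : ℝ → ℤ := fun t => M0 (t - 6 * ⌊t / 6⌋) + 6 * W * ⌊t / 6⌋ with hMdef
  have key : ∀ j : ℤ, ∀ u ∈ Ico (0 : ℝ) 12, M (u + 6 * j) = M0 u + 6 * W * j := by
    intro j u hu
    rcases lt_or_ge u 6 with h6 | h6
    · have e1 : ⌊(u + 6 * j) / 6⌋ = j := by
        rw [Int.floor_eq_iff]
        constructor <;> linarith [hu.1]
      show M0 (u + 6 * j - 6 * ⌊(u + 6 * j) / 6⌋) + 6 * W * ⌊(u + 6 * j) / 6⌋ = _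
      rw [e1, add_sub_cancel_right]
    · have e1 : ⌊(u + 6 * j) / 6⌋ = j + 1 := by
        rw [Int.floor_eq_iff]
        push_cast
        constructor <;> linarith [hu.2]
      show M0 (u + 6 * j - 6 * ⌊(u + 6 * j) / 6⌋) + 6 * W * ⌊(u + 6 * j) / 6⌋ = _
      have e2 : u + 6 * (j : ℝ) - 6 * ((j + 1 : ℤ) : ℝ) = u - 6 := by push_cast; ring
      have e3 := hW1 (u - 6) ⟨by linarith, by linarith [hu.2]⟩
      rw [sub_add_cancel] at e3
      rw [e1, e2, e3]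
      ring
  have pos : ∀ t : ℝ, ∃ (j : ℤ) (u : ℝ), u ∈ Ico (3 : ℝ) 9 ∧ t = u + 6 * j := by
    intro t
    refine ⟨⌊(t - 3) / 6⌋, t - 6 * ⌊(t - 3) / 6⌋, ⟨?_, ?_⟩, by ring⟩
    · have := Int.floor_le ((t - 3) / 6)
      linarith
    · have := Int.lt_floor_add_one ((t - 3) / 6)
      linarith
  refine ⟨M, W, fun t l => ?_, fun t => ?_, fun t => ?_⟩
  · obtain ⟨j, u, hu, rfl⟩ := pos t
    have hu' : u ∈ Ico (0 : ℝ) 12 := ⟨by linarith [hu.1], by linarith [hu.2]⟩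
    rw [Cov.per_int h, hM u ⟨hu'.1, hu'.2.le⟩ l, key j u hu', mul_assoc, res_add]
  · obtain ⟨j, u, hu, rfl⟩ := pos t
    have hu' : u ∈ Ico (0 : ℝ) 12 := ⟨by linarith [hu.1], by linarith [hu.2]⟩
    have h1 := hMloc u ⟨hu'.1, hu'.2.le⟩
    rw [nhdsWithin_eq_nhds.2 (Icc_mem_nhds (by linarith [hu.1]) (by linarith [hu.2]))] at h1
    have h2 : Tendsto (fun s : ℝ => s - 6 * j) (𝓝 (u + 6 * j)) (𝓝 u) := by
      have : Continuous fun s : ℝ => s - 6 * j := by fun_prop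
      have h3 := this.tendsto (u + 6 * j)
      rwa [add_sub_cancel_right] at h3
    filter_upwards [h2.eventually h1, h2.eventually (Ioo_mem_nhds (a := 0) (b := 12)
      (by linarith [hu.1]) (by linarith [hu.2]))] with s hs1 hs2
    have e1 := key j (s - 6 * j) ⟨hs2.1.le, hs2.2⟩
    rw [sub_add_cancel] at e1
    rw [e1, key j u hu']
    rw [abs_le] at hs1 ⊢
    constructor <;> linarith [hs1.1, hs1.2]
  · obtain ⟨j, u, hu, rfl⟩ := pos t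
    have hu' : u ∈ Ico (0 : ℝ) 12 := ⟨by linarith [hu.1], by linarith [hu.2]⟩
    have e : u + 6 * (j : ℝ) + 6 = u + 6 * ((j + 1 : ℤ) : ℝ) := by push_cast; ring
    rw [e, key _ u hu', key j u hu']
    ring

theorem cov_shift (h : Cov Q) (c : ℝ) : Cov fun t => Q (c + t) where
  per t := by rw [← add_assoc]; exact h.per _
  ne t := h.ne _
  nu t := h.nu _
  usc t := by
    have h1 : Tendsto (fun s : ℝ => c + s) (𝓝 t) (𝓝 (c + t)) := by
      have : Continuous fun s : ℝ => c + s := by fun_prop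
      exact this.tendsto t
    exact h1.eventually (h.usc (c + t))

namespace Ht

/-- change of the base angle -/
theorem shift (h : Ht Q M W) (c : ℝ) : Ht (fun t => Q (c + t)) (fun t => M (c + t)) W where
  mem t l := h.mem _ l
  loc t := by
    have h1 : Tendsto (fun s : ℝ => c + s) (𝓝 t) (𝓝 (c + t)) := by
      have : Continuous fun s : ℝ => c + s := by fun_prop
      exact this.tendsto t
    exact h1.eventually (h.loc (c + t))
  per t := by rw [← add_assoc]; exact h.per _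

theorem per_nat (h : Ht Q M W) (n : ℕ) (t : ℝ) : M (t + 6 * n) = M t + 6 * W * n := by
  induction n with
  | zero => simp
  | succ n ih =>
    have e : t + 6 * ((n + 1 : ℕ) : ℝ) = t + 6 * (n : ℝ) + 6 := by push_cast; ring
    rw [e, h.per, ih]
    push_cast
    ring

/-- two heights whose difference stays in windows of length six have the same winding number -/
theorem eq_of_win (h : Ht Q M W) (h' : Ht Q' M' W') {r : ℤ}
    (hw : ∀ t, (M' t - M t - r) % 6 ≤ 2) : W = W' := by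
  have hc : ∀ t, ∀ᶠ s in 𝓝 t, (M' s - M s - r) / 6 = (M' t - M t - r) / 6 := by
    intro t
    filter_upwards [h.loc t, h'.loc t] with s h1 h2
    have e1 := hw s
    have e2 := hw t
    rw [abs_le] at h1 h2
    omega
  have e := const_R hc (0 + 6) 0
  rw [h.per, h'.per] at e
  have e2 := hw 0
  omega

/-- **uniqueness of the winding number** -/
theorem unique (h : Ht Q M W) (h' : Ht Q M' W') : W = W' := by
  refine h.eq_of_win h' (r := 0) fun t => ?_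
  have := eq_mod_of_res (m := M t) (n := M' t) fun l => by rw [← h.mem, ← h'.mem]
  omega

/-- **equality of the winding numbers** of two covers which are incomparable everywhere -/
theorem eq_of_inc (h : Ht Q M W) (h' : Ht Q' M' W')
    (hinc : ∀ t, ¬ Q t ⊆ Q' t ∧ ¬ Q' t ⊆ Q t) : W = W' := by
  refine h.eq_of_win h' (r := 2) fun t => ?_
  have := inc_mod (h.mem t) (h'.mem t) (hinc t).1 (hinc t).2
  omega

end Ht

/-! ### Full centres -/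

theorem fin_win {m0 a1 a2 a3 b1 b2 b3 N K W : ℤ} (v1 : (a1 - m0 - 2) / 6 = N)
    (v2 : (a2 - a1 - 2) / 6 = N) (v3 : (a3 - a2 - 2) / 6 = N) (v4 : (b2 - b1 - 2) / 6 = N)
    (v5 : (b3 - b2 - 2) / 6 = N) (v6 : (m0 + 6 * W - b3 - 2) / 6 = N)
    (w1 : (a1 - m0) % 6 = 2 ∨ (a1 - m0) % 6 = 3 ∨ (a1 - m0) % 6 = 4)
    (w2 : (a2 - a1) % 6 = 2 ∨ (a2 - a1) % 6 = 3 ∨ (a2 - a1) % 6 = 4)
    (w3 : (a3 - a2) % 6 = 2 ∨ (a3 - a2) % 6 = 3 ∨ (a3 - a2) % 6 = 4)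
    (w4 : (b2 - b1) % 6 = 2 ∨ (b2 - b1) % 6 = 3 ∨ (b2 - b1) % 6 = 4)
    (w5 : (b3 - b2) % 6 = 2 ∨ (b3 - b2) % 6 = 3 ∨ (b3 - b2) % 6 = 4)
    (w6 : (m0 + 6 * W - b3) % 6 = 2 ∨ (m0 + 6 * W - b3) % 6 = 3 ∨ (m0 + 6 * W - b3) % 6 = 4)
    (x1 : (b1 - m0 - 2) / 6 = K) (x2 : (a3 - m0 - 2) / 6 = K)
    (x3 : (b1 - m0) % 6 = 2 ∨ (b1 - m0) % 6 = 3 ∨ (b1 - m0) % 6 = 4)
    (x4 : (a3 - m0) % 6 = 2 ∨ (a3 - m0) % 6 = 3 ∨ (a3 - m0) % 6 = 4) : W = 6 * N + 3 := by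
  obtain ⟨p1, p1'⟩ := step_int v1 w1
  obtain ⟨p2, p2'⟩ := step_int v2 w2
  obtain ⟨p3, p3'⟩ := step_int v3 w3
  obtain ⟨p4, p4'⟩ := step_int v4 w4
  obtain ⟨p5, p5'⟩ := step_int v5 w5
  obtain ⟨p6, p6'⟩ := step_int v6 w6
  obtain ⟨p7, p7'⟩ := step_int x1 x3
  obtain ⟨p8, p8'⟩ := step_int x2 x4
  clear v1 v2 v3 v4 v5 v6 w1 w2 w3 w4 w5 w6 x1 x2 x3 x4
  omega

/-- **The winding number of a full centre is `6 N + 3`.** -/
theorem full_win (h : Cov Q) {α : ℝ} (hα0 : 0 ≤ α) (hα1 : α ≤ 1)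
    (hX : ∀ t ∈ Icc (3 : ℝ) (3 + α), Q t ⊆ {2}) (hB : ∀ t ∈ Icc (6 : ℝ) (6 + α), 2 ∉ Q t)
    (hinc : ∀ t ∈ Ioo (3 + α) (8 : ℝ), ¬ Q t ⊆ Q (t + 1) ∧ ¬ Q (t + 1) ⊆ Q t)
    {M : ℝ → ℤ} (hM : ∀ t ∈ Icc (0 : ℝ) 12, ∀ l : Fin 3, l ∈ Q t ↔ Res (M t - 2 * (l : ℕ)))
    (hMloc : ∀ t ∈ Icc (0 : ℝ) 12, ∀ᶠ s in 𝓝[Icc (0 : ℝ) 12] t, |M s - M t| ≤ 1) {W : ℤ}
    (hP : ∀ t ∈ Icc (0 : ℝ) 6, M (t + 6) = M t + 6 * W) : ∃ N, W = 6 * N + 3 := by
  have hloc : ∀ t ∈ Ioo (0 : ℝ) 12, ∀ᶠ s in 𝓝 t, s ∈ Ioo (0 : ℝ) 12 ∧ |M s - M t| ≤ 1 := by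
    intro t ht
    have h1 := hMloc t ⟨ht.1.le, ht.2.le⟩
    rw [nhdsWithin_eq_nhds.2 (Icc_mem_nhds ht.1 ht.2)] at h1
    filter_upwards [h1, Ioo_mem_nhds ht.1 ht.2] with s hs hs'
    exact ⟨hs', hs⟩
  have hM' : ∀ t ∈ Ioo (0 : ℝ) 12, ∀ l : Fin 3, l ∈ Q t ↔ Res (M t - 2 * (l : ℕ)) :=
    fun t ht => hM t ⟨ht.1.le, ht.2.le⟩
  -- heights of `{2}`
  have hr2 : ∀ t ∈ Ioo (0 : ℝ) 12, Q t ⊆ {2} → M t % 6 = 4 := by
    intro t ht hQ
    refine res_two (fun hc => ?_) fun hc => ?_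
    · have := hQ ((hM' t ht 0).2 hc)
      exact absurd this (by decide)
    · have := hQ ((hM' t ht 1).2 hc)
      exact absurd this (by decide)
  have hrn : ∀ t ∈ Ioo (0 : ℝ) 12, 2 ∉ Q t → M t % 6 = 0 ∨ M t % 6 = 1 ∨ M t % 6 = 2 := by
    intro t ht hQ
    exact res_not_two fun hc => hQ ((hM' t ht 2).2 hc)
  -- constant height near a point with `Q ⊆ {2}`
  have hstay : ∀ t ∈ Ioo (0 : ℝ) 12, Q t ⊆ {2} → ∀ᶠ s in 𝓝 t, M s = M t := by
    intro t ht hQ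
    filter_upwards [hloc t ht, h.usc t] with s hs hs'
    have e1 := hr2 s hs.1 (hs'.trans hQ)
    have e2 := hr2 t ht hQ
    have e3 := hs.2
    rw [abs_le] at e3
    omega
  have hX9 : ∀ t ∈ Icc (9 : ℝ) (9 + α), Q t ⊆ {2} := by
    intro t ht
    have h1 := h.per (t - 6)
    rw [sub_add_cancel] at h1
    rw [h1]
    exact hX _ ⟨by linarith [ht.1], by linarith [ht.2]⟩
  -- the height is constant on the closed arc
  have hM0 : M (3 + α) = M 3 := by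
    refine const_of_loc (a := 3) (b := 3 + α) (fun t ht => ?_) _ ⟨by linarith, le_rfl⟩ _
      ⟨le_rfl, by linarith⟩
    exact mem_nhdsWithin_of_mem_nhds
      (hstay t ⟨by linarith [ht.1], by linarith [ht.2]⟩ (hX t ht))
  have hM9 : M 9 = M 3 + 6 * W := by
    have := hP 3 ⟨by norm_num, by norm_num⟩
    norm_num at this
    exact this
  set m0 := M 3 with hm0
  have hm4 : m0 % 6 = 4 := hr2 3 ⟨by norm_num, by norm_num⟩ (hX 3 ⟨le_rfl, by linarith⟩)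
  -- choice of `s1`, slightly larger than `3 + α`
  have hn1 : ∀ᶠ s in 𝓝 (3 + α), M s = m0 := by
    have := hstay (3 + α) ⟨by linarith, by linarith⟩ (hX _ ⟨by linarith, le_rfl⟩)
    rwa [hM0] at this
  have hn2 : ∀ᶠ s in 𝓝 (6 + α), 2 ∉ Q s :=
    (h.usc (6 + α)).mono fun s hs h2 => hB _ ⟨by linarith, le_rfl⟩ (hs h2)
  have hn3 : ∀ᶠ s in 𝓝 (9 : ℝ), M s = m0 + 6 * W := by
    have := hstay 9 ⟨by norm_num, by norm_num⟩ (hX9 9 ⟨le_rfl, by linarith⟩)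
    rwa [hM9] at this
  have hn4 : ∀ᶠ s in 𝓝 (6 : ℝ), 2 ∉ Q s :=
    (h.usc 6).mono fun s hs h2 => hB _ ⟨le_rfl, by linarith⟩ (hs h2)
  obtain ⟨ε1, hε1, k1⟩ := Metric.eventually_nhds_iff.1 hn1
  obtain ⟨ε2, hε2, k2⟩ := Metric.eventually_nhds_iff.1 hn2
  obtain ⟨ε3, hε3, k3⟩ := Metric.eventually_nhds_iff.1 hn3
  obtain ⟨ε4, hε4, k4⟩ := Metric.eventually_nhds_iff.1 hn4
  obtain ⟨ε, hε, hε', e1, e2, e3, e4⟩ : ∃ ε : ℝ, 0 < ε ∧ ε < 1 / 2 ∧ ε < ε1 ∧ ε < ε2 ∧ ε < ε3 ∧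
      ε < ε4 := by
    refine ⟨min (min ε1 ε2) (min (min ε3 ε4) (1 / 2)) / 2, by positivity, ?_, ?_, ?_, ?_, ?_⟩
    all_goals
      have a1 := min_le_left (min ε1 ε2) (min (min ε3 ε4) (1 / 2))
      have a2 := min_le_right (min ε1 ε2) (min (min ε3 ε4) (1 / 2))
      have a3 := min_le_left ε1 ε2
      have a4 := min_le_right ε1 ε2
      have a5 := min_le_left (min ε3 ε4) (1 / 2)
      have a6 := min_le_right (min ε3 ε4) (1 / 2)
      have a7 := min_le_left ε3 ε4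
      have a8 := min_le_right ε3 ε4
      have a9 : 0 < min (min ε1 ε2) (min (min ε3 ε4) (1 / 2)) := by positivity
      linarith
  set s1 := 3 + α + ε with hs1
  have q1 : M s1 = m0 := k1 (by rw [Real.dist_eq, hs1]; rw [abs_of_pos] <;> linarith)
  have q3 : M (9 - ε) = m0 + 6 * W := k3 (by rw [Real.dist_eq, abs_of_neg] <;> linarith)
  have hB' : ∀ t ∈ Icc (6 - ε) (6 + α + ε), 2 ∉ Q t := by
    intro t ht
    rcases lt_or_ge t 6 with h6 | h6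
    · exact k4 (by rw [Real.dist_eq, abs_of_neg] <;> linarith [ht.1])
    · rcases le_or_gt t (6 + α) with h7 | h7
      · exact hB t ⟨h6, h7⟩
      · exact k2 (by rw [Real.dist_eq, abs_of_pos] <;> linarith [ht.2])
  -- the steps
  have hstep : ∀ t ∈ Ioo (3 + α) (8 : ℝ), (M (t + 1) - M t) % 6 = 2 ∨ (M (t + 1) - M t) % 6 = 3 ∨
      (M (t + 1) - M t) % 6 = 4 := by
    intro t ht
    have ht0 : t ∈ Ioo (0 : ℝ) 12 := ⟨by linarith [ht.1], by linarith [ht.2]⟩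
    have ht1 : t + 1 ∈ Ioo (0 : ℝ) 12 := ⟨by linarith [ht.1], by linarith [ht.2]⟩
    obtain ⟨i1, i2⟩ := hinc t ht
    apply incomparable_mod
    · rw [Set.not_subset] at i1
      obtain ⟨l, hl, hl'⟩ := i1
      exact ⟨l, (hM' t ht0 l).1 hl, fun hc => hl' ((hM' _ ht1 l).2 hc)⟩
    · rw [Set.not_subset] at i2
      obtain ⟨l, hl, hl'⟩ := i2
      exact ⟨l, (hM' _ ht1 l).1 hl, fun hc => hl' ((hM' _ ht0 l).2 hc)⟩
  have hN := const_Ioo (a := 3 + α) (b := 8) (f := fun t => (M (t + 1) - M t - 2) / 6) (by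
    intro t ht
    have ht0 : t ∈ Ioo (0 : ℝ) 12 := ⟨by linarith [ht.1], by linarith [ht.2]⟩
    have ht1 : t + 1 ∈ Ioo (0 : ℝ) 12 := ⟨by linarith [ht.1], by linarith [ht.2]⟩
    have h1 : ∀ᶠ s in 𝓝 t, s + 1 ∈ Ioo (0 : ℝ) 12 ∧ |M (s + 1) - M (t + 1)| ≤ 1 :=
      ((continuous_add_const 1).tendsto t).eventually (hloc _ ht1)
    filter_upwards [h1, hloc t ht0, Ioo_mem_nhds ht.1 ht.2] with s hs1 hs2 hs
    have e1 := hstep s hs
    have e2 := hstep t ht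
    have e3 := hs1.2
    have e4 := hs2.2
    rw [abs_le] at e3 e4
    omega)
  have hBc := const_of_loc (a := 6 - ε) (b := 6 + α + ε) (f := fun t => (M t - m0 - 2) / 6) (by
    intro t ht
    have ht0 : t ∈ Ioo (0 : ℝ) 12 := ⟨by linarith [ht.1], by linarith [ht.2]⟩
    filter_upwards [mem_nhdsWithin_of_mem_nhds (hloc t ht0), self_mem_nhdsWithin] with s hs1 hs2
    have e1 := hrn s hs1.1 (hB' s hs2)
    have e2 := hrn t ht0 (hB' t ht)
    have e3 := hs1.2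
    rw [abs_le] at e3
    omega)
  have u1 : s1 ∈ Ioo (3 + α) (8 : ℝ) := ⟨by linarith, by linarith⟩
  have u2 : s1 + 1 ∈ Ioo (3 + α) (8 : ℝ) := ⟨by linarith, by linarith⟩
  have u3 : s1 + 2 ∈ Ioo (3 + α) (8 : ℝ) := ⟨by linarith, by linarith⟩
  have u4 : 6 - ε ∈ Ioo (3 + α) (8 : ℝ) := ⟨by linarith, by linarith⟩
  have u5 : 7 - ε ∈ Ioo (3 + α) (8 : ℝ) := ⟨by linarith, by linarith⟩
  have u6 : 8 - ε ∈ Ioo (3 + α) (8 : ℝ) := ⟨by linarith, by linarith⟩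
  have v2 := hN _ u2 _ u1
  have v3 := hN _ u3 _ u1
  have v4 := hN _ u4 _ u1
  have v5 := hN _ u5 _ u1
  have v6 := hN _ u6 _ u1
  have w1 := hstep _ u1
  have w2 := hstep _ u2
  have w3 := hstep _ u3
  have w4 := hstep _ u4
  have w5 := hstep _ u5
  have w6 := hstep _ u6
  have x1 := hBc (6 - ε) ⟨le_rfl, by linarith⟩ (6 + α + ε) ⟨by linarith, le_rfl⟩
  have x2 := hrn (6 - ε) ⟨by linarith, by linarith⟩ (hB' _ ⟨le_rfl, by linarith⟩)
  have x3 := hrn (6 + α + ε) ⟨by linarith, by linarith⟩ (hB' _ ⟨by linarith, le_rfl⟩)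
  have y1 : s1 + 1 + 1 = s1 + 2 := by ring
  have y2 : s1 + 2 + 1 = 6 + α + ε := by rw [hs1]; ring
  have y3 : 6 - ε + 1 = 7 - ε := by ring
  have y4 : 7 - ε + 1 = 8 - ε := by ring
  have y5 : 8 - ε + 1 = 9 - ε := by ring
  simp only [y1, y2, y3, y4, y5] at v2 v3 v4 v5 v6 w1 w2 w3 w4 w5 w6 x1
  rw [q1] at v2 v3 v4 v5 v6 w1
  rw [q3] at v6 w6
  refine ⟨_, fin_win rfl v2 v3 v4 v5 v6 w1 w2 w3 w4 w5 w6 x1 rfl ?_ ?_⟩
  · clear v2 v3 v4 v5 v6 w1 w2 w3 w4 w5 w6 x1 x3; omega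
  · clear v2 v3 v4 v5 v6 w1 w2 w3 w4 w5 w6 x1 x2; omega

/-- the same for global heights, the arc starting at the angle `x` -/
theorem Ht.full (h : Ht Q M W) (hc : Cov Q) {x α : ℝ} (hα0 : 0 ≤ α) (hα1 : α ≤ 1)
    (hX : ∀ t ∈ Icc (0 : ℝ) α, Q (x + t) ⊆ {2}) (hB : ∀ t ∈ Icc (0 : ℝ) α, 2 ∉ Q (x + 3 + t))
    (hinc : ∀ t ∈ Ioo α (5 : ℝ), ¬ Q (x + t) ⊆ Q (x + t + 1) ∧ ¬ Q (x + t + 1) ⊆ Q (x + t)) :
    ∃ N, W = 6 * N + 3 := by
  have h1 := h.shift (x - 3)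
  refine full_win (cov_shift hc (x - 3)) hα0 hα1 (fun t ht => ?_) (fun t ht => ?_)
    (fun t ht => ?_) (fun t _ l => h1.mem t l)
    (fun t _ => mem_nhdsWithin_of_mem_nhds (h1.loc t)) (W := W) fun t _ => h1.per t
  · have := hX (t - 3) ⟨by linarith [ht.1], by linarith [ht.2]⟩
    rwa [show x + (t - 3) = x - 3 + t by ring] at this
  · have := hB (t - 6) ⟨by linarith [ht.1], by linarith [ht.2]⟩
    rwa [show x + 3 + (t - 6) = x - 3 + t by ring] at this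
  · have := hinc (t - 3) ⟨by linarith [ht.1], by linarith [ht.2]⟩
    rwa [show x + (t - 3) = x - 3 + t by ring, add_assoc (x - 3) t 1] at this

end Vale.Agent.P032.H838
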