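import Vale.Agent.P032.H546.FFinR
import Vale.Agent.P032.H913.NoJ1
import Vale.Agent.P032.H838.Tie

/-!
# P032: the half network next to a `J`-partner, from the word tables

`ivc_S` : from `listS` (one end `{a, b, e}`, two ends `{c, d, f}`, no `{a, b, f}`);
`ivc_T` : from `listT` (two ends `{a, b, e}`, one end `{c, d, f}`, no `{c, d, e}`).
The conclusion is `IVc` of 913.
-/

open Set Filter Topology Metric

noncomputable section

namespace Vale.Agent.P032.H838

open Vale.Agent.P032.Six Vale.Agent.P032.S5.H767 Vale.Agent.P032.S5.H349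
  Vale.Agent.P032.S5.H450
open Vale.Agent.P032.H987 hiding lb
open Vale.Agent.P032.H546 (Lst Cnt listS listT)
open Vale.Agent.P032.H471 (Sec4)
open Vale.Agent.P032.H594 (JPair Ad Comp OnlyJT)
open Vale.Agent.P032.H913 (IVc N0)

variable {U : Fin 6 → Set ℂ} {T : ℂ → Set (Fin 6)} {z : ℂ} {a b c d e f : Fin 6} {p q : ℝ}
  {g1 g2 : Bool}

/-- the palettes of the labels -/
theorem lbG_pal (y : ℂ) (n : ℕ) (h : (lbF g1 g2 T z a b c d e f y).val = n) : n = 0 ∨
    ((n = 5 ∨ n = 6) ∧ T y = T z) ∨ ((n = 1 ∨ n = 2) ∧ T y = {a, b, e}) ∨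
    ((n = 3 ∨ n = 4) ∧ T y = {c, d, f}) ∨ ((n = 7 ∨ n = 8) ∧ T y = {a, b, f}) ∨
    ((n = 9 ∨ n = 10) ∧ T y = {c, d, e}) := by
  subst h
  unfold lbF
  by_cases h1 : T y = T z
  · rw [if_pos h1]
    right; left
    refine ⟨?_, h1⟩
    split_ifs
    · exact Or.inl rfl
    · exact Or.inr rfl
  rw [if_neg h1]
  by_cases h2 : T y = {a, b, e}
  · rw [if_pos h2]
    right; right; left
    refine ⟨?_, h2⟩
    split_ifs
    · exact Or.inl rfl
    · exact Or.inr rfl
  rw [if_neg h2]
  by_cases h3 : T y = {c, d, f}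
  · rw [if_pos h3]
    right; right; right; left
    refine ⟨?_, h3⟩
    split_ifs
    · exact Or.inl rfl
    · exact Or.inr rfl
  rw [if_neg h3]
  by_cases h4 : g1 = true ∧ T y = {a, b, f} ∧ y ∈ closure (Ex T z {a, b})
  · rw [if_pos h4]
    right; right; right; right; left
    refine ⟨?_, h4.2.1⟩
    split_ifs
    · exact Or.inl rfl
    · exact Or.inr rfl
  rw [if_neg h4]
  by_cases h5 : g2 = true ∧ T y = {c, d, e} ∧ y ∈ closure (Ex T z {c, d})
  · rw [if_pos h5]
    right; right; right; right; right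
    refine ⟨?_, h5.2.1⟩
    split_ifs
    · exact Or.inl rfl
    · exact Or.inr rfl
  rw [if_neg h5]
  exact Or.inl rfl

/-- the label of an end `{a, b, e}` or `{c, d, f}` is not `0` -/
theorem lbG_ne (y : ℂ) (h : T y = {a, b, e} ∨ T y = {c, d, f}) :
    lbF g1 g2 T z a b c d e f y ≠ 0 := by
  unfold lbF
  by_cases h1 : T y = T z
  · rw [if_pos h1]; split_ifs <;> decide
  rw [if_neg h1]
  by_cases h2 : T y = {a, b, e}
  · rw [if_pos h2]; split_ifs <;> decide
  rw [if_neg h2, if_pos (h.resolve_left h2)]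
  split_ifs <;> decide

theorem four838 {l : List (ℝ × ℕ)} {k0 k1 k2 k3 : ℕ} (h : l.map Prod.snd = [k0, k1, k2, k3]) :
    ∃ r0 r1 r2 r3 : ℝ, l = [(r0, k0), (r1, k1), (r2, k2), (r3, k3)] := by
  rcases l with _ | ⟨x0, _ | ⟨x1, _ | ⟨x2, _ | ⟨x3, _ | ⟨x4, l⟩⟩⟩⟩⟩ <;>
    simp only [List.map_cons, List.map_nil, List.cons.injEq, reduceCtorEq,
      and_false, and_true] at h
  obtain ⟨h0, h1, h2, h3⟩ := h
  subst h0 h1 h2 h3
  exact ⟨_, _, _, _, rfl⟩

theorem fl_lo838 {r : ℝ} {n : ℕ} (hr : 0 ≤ r) (h : n ≤ ⌊r⌋₊) : (n : ℝ) ≤ r :=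
  (Nat.le_floor_iff hr).1 h

theorem fl_hi838 {r : ℝ} {n : ℕ} (h : ⌊r⌋₊ ≤ n) : r < (n : ℝ) + 1 := by
  have h1 := Nat.lt_floor_add_one r
  have h2 : ((⌊r⌋₊ : ℕ) : ℝ) ≤ (n : ℝ) := by exact_mod_cast h
  linarith

/-- four labelled directions -/
structure R4 (g1 g2 : Bool) (T : ℂ → Set (Fin 6)) (z : ℂ) (a b c d e f : Fin 6)
    (p r1 r2 r3 : ℝ) (k1 k2 k3 : ℕ) : Prop where
  h1 : 0 < r1
  h2 : r1 < r2
  h3 : r2 < r3
  h4 : r3 < 6
  L0 : (lbF g1 g2 T z a b c d e f (pt z p)).val = 6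
  L1 : (lbF g1 g2 T z a b c d e f (pt z (p + r1))).val = k1
  L2 : (lbF g1 g2 T z a b c d e f (pt z (p + r2))).val = k2
  L3 : (lbF g1 g2 T z a b c d e f (pt z (p + r3))).val = k3
  no : ∀ t, 0 ≤ t → t < 6 → lbF g1 g2 T z a b c d e f (pt z (p + t)) ≠ 0 →
    t = 0 ∨ t = r1 ∨ t = r2 ∨ t = r3

/-- the list as four directions -/
theorem r4_838 {l : List (ℝ × ℕ)} {k1 k2 k3 n0 n1 n2 n3 m0 m1 m2 m3 : ℕ}
    (h : Lst g1 g2 T z a b c d e f p [[6, k1, k2, k3]] [n0, n1, n2, n3] [m0, m1, m2, m3] l)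
    (hJ : lbF g1 g2 T z a b c d e f (pt z p) = 6) :
    ∃ r1 r2 r3 : ℝ, R4 g1 g2 T z a b c d e f p r1 r2 r3 k1 k2 k3 ∧
      ((n1 : ℝ) ≤ r1 ∧ r1 < m1 + 1) ∧ ((n2 : ℝ) ≤ r2 ∧ r2 < m2 + 1) ∧
      ((n3 : ℝ) ≤ r3 ∧ r3 < m3 + 1) := by
  obtain ⟨h1, h2, h3, h4, h5, h6⟩ := h
  rw [List.mem_singleton] at h4
  obtain ⟨r0, r1, r2, r3, rfl⟩ := four838 h4
  simp only [List.map_cons, List.map_nil, List.pairwise_cons, List.mem_cons, List.not_mem_nil,
    or_false, forall_eq_or_imp, forall_eq, List.Pairwise.nil, and_true, IsEmpty.forall_iff,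
    implies_true] at h1
  simp only [List.mem_cons, List.not_mem_nil, or_false, forall_eq_or_imp, forall_eq] at h2
  simp only [List.map_cons, List.map_nil, List.forall₂_cons, List.Forall₂.nil, and_true] at h5 h6
  obtain ⟨⟨a01, a02, a03⟩, ⟨a12, -⟩, a23⟩ := h1
  obtain ⟨⟨b0, -, -, -⟩, ⟨b1, -, -, c1⟩, ⟨b2, -, -, c2⟩, ⟨b3, b3', -, c3⟩⟩ := h2
  obtain ⟨-, d1, d2, d3⟩ := h5
  obtain ⟨-, e1, e2, e3⟩ := h6
  have hno : ∀ t, 0 ≤ t → t < 6 → lbF g1 g2 T z a b c d e f (pt z (p + t)) ≠ 0 →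
      t = r0 ∨ t = r1 ∨ t = r2 ∨ t = r3 := by
    intro t k1 k2 k3
    obtain ⟨x, hx, rfl⟩ := h3 t k1 k2 k3
    simp only [List.mem_cons, List.not_mem_nil, or_false] at hx
    rcases hx with rfl | rfl | rfl | rfl <;> simp
  have hr0 : r0 = 0 := by
    have := hno 0 le_rfl (by norm_num) (by rw [add_zero, hJ]; decide)
    rcases this with h | h | h | h
    · exact h.symm
    all_goals linarith
  subst hr0
  exact ⟨r1, r2, r3, ⟨a01, a12, a23, b3', by rw [hJ]; rfl, c1, c2, c3, hno⟩,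
    ⟨fl_lo838 b1 d1, fl_hi838 e1⟩, ⟨fl_lo838 b2 d2, fl_hi838 e2⟩, ⟨fl_lo838 b3 d3, fl_hi838 e3⟩⟩

/-- the exact `ab`-points between two directions: all or none -/
theorem noA_Ioo (S : Cz U T z a b c d e f) {α β : ℝ}
    (hA : ∀ t ∈ Ioo α β, T (pt z t) ≠ T z ∧ T (pt z t) ≠ {a, b, e} ∧ T (pt z t) ≠ {a, b, f}) :
    (∀ t ∈ Ioo α β, pt z t ∈ Ex T z {a, b}) ∨
      ∀ t ∈ Ioo α β, pt z t ∉ closure (Ex T z {a, b}) := by
  have hd : Disjoint {t : ℝ | pt z t ∈ Ex T z {a, b}} {t : ℝ | pt z t ∉ closure (Ex T z {a, b})} := by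
    rw [Set.disjoint_left]
    intro t h1 h2
    exact h2 (subset_closure h1)
  rcases (isPreconnected_Ioo (a := α) (b := β)).subset_or_subset (isOpen_ex (T := T) z {a, b})
    (isOpen_ncl z {a, b}) hd (fun t ht => by
      by_cases h1 : pt z t ∈ closure (Ex T z {a, b})
      · obtain ⟨k1, k2, k3⟩ := hA t ht
        rcases S.cl_cases h1 with h2 | h2 | h2 | h2
        · exact Or.inl h2
        · exact absurd h2 k1
        · exact absurd h2 k2
        · exact absurd h2 k3
      · exact Or.inr h1) with h1 | h1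
  · exact Or.inl fun t ht => h1 ht
  · exact Or.inr fun t ht => h1 ht

/-! ### The common points with the `J`-partner -/

/-- facts at the common points with a `J`-partner in the direction `p` -/
structure JF (T : ℂ → Set (Fin 6)) (z : ℂ) (a b c d e f : Fin 6) (p : ℝ) : Prop where
  fr : T (pt z (p + 1)) ≠ T z → e ∈ T (pt z (p + 1)) ∨ f ∈ T (pt z (p + 1))
  n1 : ∀ t, ((T (pt z (p + 1)) = {a, b, e} ∨ T (pt z (p + 1)) = {c, d, e}) ∨
    T (pt z (p + 1)) = {a, b, f} ∨ T (pt z (p + 1)) = {c, d, f}) → EE T z (pt z (p + 1)) →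
    EE T z (pt z t) → T (pt z t) = (T (pt z (p + 1)))ᶜ → pt z t = pt z (p + 2)
  n5 : ∀ t, ((T (pt z (p + 5)) = {a, b, e} ∨ T (pt z (p + 5)) = {c, d, e}) ∨
    T (pt z (p + 5)) = {a, b, f} ∨ T (pt z (p + 5)) = {c, d, f}) → EE T z (pt z (p + 5)) →
    EE T z (pt z t) → T (pt z t) = (T (pt z (p + 5)))ᶜ → pt z t = pt z (p + 4)

theorem jf_of (S : JPair U T z (pt z p) a b c d e f) (hS : Sec4 T) : JF T z a b c d e f p where
  fr := fun h => H913.free913 S (dist_pt z (p + 1))
    (by rw [← H913.pt_common (z := z) (φ := p) rfl]; exact dist_pt _ _) h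
  n1 := fun t h1 h2 h3 h4 => by
    by_contra hne
    exact H913.no_end_pt913 S hS rfl h1 h2 h3 h4 hne
  n5 := fun t h1 h2 h3 h4 => by
    by_contra hne
    exact H913.no_end_pt913' S hS rfl h1 h2 h3 h4 hne

theorem jf838 (h : Irr U T) (h5 : NoPair5 T) (hT : OnlyJT T) (hS : Sec4 T)
    (hz : DPt T z a b c d) (nd : [a, b, c, d, e, f].Nodup) (hJ : T (pt z p) = T z) :
    JF T z a b c d e f p := by
  have hd := dist_pt z p
  have w1 : ∀ v, dist v z = 1 → (T v).ncard ≤ 3 ∨ T v = T z :=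
    fun v hv => hT.w0 h5 ⟨_, _, _, _, hz⟩ hv
  have w2 : ∀ v, dist v (pt z p) = 1 → (T v).ncard ≤ 3 ∨ T v = T (pt z p) :=
    fun v hv => hT.w0 h5 (h.dpt_of_eq169 ⟨_, _, _, _, hz⟩ hd hJ) hv
  rcases H913.jpair913 h hz nd hd hJ w1 w2 with S | S
  · exact jf_of S hS
  · have F := jf_of S hS
    have k1 : ({d, c, e} : Set (Fin 6)) = {c, d, e} := Set.insert_comm _ _ _
    have k2 : ({d, c, f} : Set (Fin 6)) = {c, d, f} := Set.insert_comm _ _ _
    refine ⟨F.fr, fun t h1 => F.n1 t ?_, fun t h1 => F.n5 t ?_⟩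
    · rw [k1, k2]; exact h1
    · rw [k1, k2]; exact h1

theorem compl838 (nd : [a, b, c, d, e, f].Nodup) :
    ({c, d, f} : Set (Fin 6)) = ({a, b, e} : Set (Fin 6))ᶜ := by
  have h1 := H695.nd_all nd
  obtain ⟨⟨ab, ac, ad, ae, af⟩, ⟨bc, bd, be, bf⟩, ⟨cd, ce, cf⟩, ⟨de, df⟩, ef⟩ := S5.H349.nd_ne nd
  ext i
  simp only [mem_insert_iff, mem_singleton_iff, mem_compl_iff, not_or]
  constructor
  · rintro (rfl | rfl | rfl)
    · exact ⟨ac.symm, bc.symm, ce⟩
    · exact ⟨ad.symm, bd.symm, de⟩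
    · exact ⟨af.symm, bf.symm, ef.symm⟩
  · rintro ⟨k1, k2, k3⟩
    rcases h1 i with k | k | k | k | k | k
    · exact absurd k k1
    · exact absurd k k2
    · exact Or.inl k
    · exact Or.inr (Or.inl k)
    · exact absurd k k3
    · exact Or.inr (Or.inr k)

/-! ### The first orientation -/

/-- **one end `{a, b, e}`, two ends `{c, d, f}`, no `{a, b, f}`** -/
theorem ivc_S (h : Irr U T) (h5 : NoPair5 T) (hT : OnlyJT T) (hS : Sec4 T)
    (S : CzF true false U T z a b c d e f) (Z : Zn T z a b c d p q)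
    (hfin : {y | dist y z = 1 ∧ lbF true false T z a b c d e f y ≠ 0}.Finite)
    (nV : {y | dist y z = 1 ∧ T y = {a, b, e}}.ncard = 1)
    (nQ : {y | dist y z = 1 ∧ T y = {c, d, f}}.ncard = 2)
    (nJ : {y | dist y z = 1 ∧ T y = T z}.ncard = 1)
    (hno : ∀ y, dist y z = 1 → T y ≠ {a, b, f})
    (hJ : lbF true false T z a b c d e f (pt z p) = 6)
    {v w : ℂ} (hv : EE T z v) (hTv : T v = {a, b, e}) (hw : EE T z w) (hTw : T w = {c, d, f}) :
    IVc T z (pt z p) := by
  obtain ⟨l, hl⟩ := listS S Z hfin nV nQ nJ hno hJ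
  obtain ⟨r1, r2, r3, R, ⟨-, i1⟩, ⟨i2, i2'⟩, ⟨i3, i3'⟩⟩ := r4_838 hl hJ
  push_cast at i1 i2 i2' i3 i3'
  have C := S.toCz
  have nd := S.nd
  have hcp := compl838 nd
  have h1 := R.h1; have h2 := R.h2; have h3 := R.h3; have h4 := R.h4
  obtain ⟨⟨ab, ac, ad, ae, af⟩, ⟨bc, bd, be, bf⟩, ⟨cd, ce, cf⟩, ⟨de, df⟩, ef⟩ := S5.H349.nd_ne nd
  -- the palettes
  have P0 : T (pt z p) = T z := by simpa using lbG_pal (pt z p) 6 R.L0
  have P1 : T (pt z (p + r1)) = {a, b, e} := by simpa using lbG_pal (pt z (p + r1)) 1 R.L1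
  have P2 : T (pt z (p + r2)) = {c, d, f} := by simpa using lbG_pal (pt z (p + r2)) 3 R.L2
  have P3 : T (pt z (p + r3)) = {c, d, f} := by simpa using lbG_pal (pt z (p + r3)) 3 R.L3
  have hez : e ∉ T z := by
    rw [S.dpt.pal]; simp only [mem_insert_iff, mem_singleton_iff, not_or]
    exact ⟨ae.symm, be.symm, ce.symm, de.symm⟩
  have hfz : f ∉ T z := by
    rw [S.dpt.pal]; simp only [mem_insert_iff, mem_singleton_iff, not_or]
    exact ⟨af.symm, bf.symm, cf.symm, df.symm⟩
  have F := jf838 h h5 hT hS S.dpt nd P0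
  have EV : ∀ {x : ℂ}, dist x z = 1 → T x = {a, b, e} → EE T z x := fun hx hT =>
    H471.auto471 h hS hv hw (by rw [hTw, hTv, hcp]) hx (by rw [hT, hTv])
  have EQ : ∀ {x : ℂ}, dist x z = 1 → T x = {c, d, f} → EE T z x := fun hx hT =>
    H471.auto471 h hS hw hv (by rw [hTw, hTv, hcp, compl_compl]) hx (by rw [hT, hTw])
  have six : ∀ t, pt z (t + 6) = pt z t := fun t => pt_six z t
  -- the types by direction
  have tV : ∀ t, 0 < t → t < 6 → T (pt z (p + t)) = {a, b, e} → t = r1 := by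
    intro t k1 k2 k3
    rcases R.no t k1.le k2 (lbG_ne _ (Or.inl k3)) with k | k | k | k
    · exact absurd k k1.ne'
    · exact k
    · exfalso; rw [k, P2] at k3
      have : c ∈ ({a, b, e} : Set (Fin 6)) := by rw [← k3]; simp
      simp only [mem_insert_iff, mem_singleton_iff] at this
      rcases this with k' | k' | k'
      exacts [ac k'.symm, bc k'.symm, ce k']
    · exfalso; rw [k, P3] at k3
      have : c ∈ ({a, b, e} : Set (Fin 6)) := by rw [← k3]; simp
      simp only [mem_insert_iff, mem_singleton_iff] at this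
      rcases this with k' | k' | k'
      exacts [ac k'.symm, bc k'.symm, ce k']
  have tJ : ∀ t, 0 < t → t < 6 → T (pt z (p + t)) ≠ T z := by
    intro t k1 k2 k3
    have hne : lbF true false T z a b c d e f (pt z (p + t)) ≠ 0 := by
      unfold lbF; rw [if_pos k3]; split_ifs <;> decide
    rcases R.no t k1.le k2 hne with k | k | k | k
    · exact k1.ne' k
    · rw [k, P1] at k3; exact hez (by rw [← k3]; simp)
    · rw [k, P2] at k3; exact hfz (by rw [← k3]; simp)
    · rw [k, P3] at k3; exact hfz (by rw [← k3]; simp)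
  -- the arc of `ab`
  have A1 : ∀ t ∈ Ioo p (p + r1), pt z t ∈ Ex T z {a, b} := by
    rcases noA_Ioo C (α := p) (β := p + r1) (fun t ht => by
      have e1 : pt z t = pt z (p + (t - p)) := by congr 1; ring
      rw [e1]
      refine ⟨tJ _ (by linarith [ht.1]) (by linarith [ht.2]), fun k => ?_,
        hno _ (dist_pt _ _)⟩
      have := tV _ (by linarith [ht.1]) (by linarith [ht.2]) k
      linarith [ht.2]) with k | k
    · exact k
    · exfalso
      obtain ⟨β, hβ, k1⟩ := (S.sides p).1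
      rw [hJ] at k1
      obtain ⟨x, hx1, hx2⟩ := exists_between (lt_min hβ (show p < p + r1 by linarith))
      exact k x ⟨hx1, lt_of_lt_of_le hx2 (min_le_right _ _)⟩
        (subset_closure (k1 x ⟨hx1, lt_of_lt_of_le hx2 (min_le_left _ _)⟩))
  have A2 : ∀ t ∈ Ioo (p + r1) (p + 6), pt z t ∉ closure (Ex T z {a, b}) := by
    rcases noA_Ioo C (α := p + r1) (β := p + 6) (fun t ht => by
      have e1 : pt z t = pt z (p + (t - p)) := by congr 1; ring
      rw [e1]
      refine ⟨tJ _ (by linarith [ht.1]) (by linarith [ht.2]), fun k => ?_,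
        hno _ (dist_pt _ _)⟩
      have := tV _ (by linarith [ht.1]) (by linarith [ht.2]) k
      linarith [ht.1]) with k | k
    · exfalso
      obtain ⟨β, hβ, k1⟩ := (S.sides (p + r1)).1
      have k2 : lbF true false T z a b c d e f (pt z (p + r1)) = 1 := Fin.ext R.L1
      rw [k2] at k1
      obtain ⟨x, hx1, hx2⟩ := exists_between (lt_min hβ (show p + r1 < p + 6 by linarith))
      exact (k1 x ⟨hx1, lt_of_lt_of_le hx2 (min_le_left _ _)⟩).1.1
        (subset_closure (k x ⟨hx1, lt_of_lt_of_le hx2 (min_le_right _ _)⟩))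
    · exact k
  -- `r1 < 1`
  have B1 : r1 < 1 := by
    by_contra hcon
    push Not at hcon
    rcases hcon.lt_or_eq with k | k
    · have k1 := ex_self (A1 (p + 1) ⟨by linarith, by linarith⟩)
      have k2 := tJ 1 (by norm_num) (by norm_num)
      rcases F.fr k2 with k3 | k3 <;> rw [k1] at k3
      · rcases k3 with k3 | k3
        exacts [ae k3.symm, be k3.symm]
      · rcases k3 with k3 | k3
        exacts [af k3.symm, bf k3.symm]
    · rw [← k] at P1
      have k1 := F.n1 (p + r3) (Or.inl (Or.inl P1)) (EV (dist_pt _ _) P1)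
        (EQ (dist_pt _ _) P3) (by rw [P3, P1, hcp])
      exact pt_ne838 (z := z) (s := p + r3) (t := p + 2) (by linarith)
        (by rw [abs_lt]; constructor <;> linarith) k1
  -- `1 < r2`
  have B2 : 1 < r2 := by
    refine lt_of_le_of_ne i2 fun k => ?_
    rw [← k] at P2
    have k1 := F.n1 (p + r1) (Or.inr (Or.inr P2)) (EQ (dist_pt _ _) P2)
      (EV (dist_pt _ _) P1) (by rw [P1, P2, hcp, compl_compl])
    exact pt_ne838 (z := z) (s := p + r1) (t := p + 2) (by linarith)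
      (by rw [abs_lt]; constructor <;> linarith) k1
  refine ⟨a, b, c, d, e, f, p, nd, S.dpt, rfl, fun t ht => A2 t ⟨by linarith [ht.1],
    by linarith [ht.2]⟩, Or.inr fun t ht hf hAd => ?_⟩
  -- an arc point with `f` in `[p - 1, p + 1]`
  have key : T (pt z t) = {c, d, f} := by
    rcases hAd with k | k
    · exfalso
      rcases C.cl_cases k with k' | k' | k' | k'
      · rw [ex_self k'] at hf
        rcases hf with k3 | k3
        exacts [af k3.symm, bf k3.symm]
      · rw [k'] at hf; exact hfz hf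
      · rw [k'] at hf
        simp only [mem_insert_iff, mem_singleton_iff] at hf
        rcases hf with k3 | k3 | k3
        exacts [af k3.symm, bf k3.symm, ef k3.symm]
      · exact hno _ (dist_pt _ _) k'
    · rcases C.swapP.cl_cases k with k' | k' | k' | k'
      · exfalso
        rw [ex_self k'] at hf
        rcases hf with k3 | k3
        exacts [cf k3.symm, df k3.symm]
      · exfalso; rw [k'] at hf; exact hfz hf
      · exfalso
        rw [k'] at hf
        simp only [mem_insert_iff, mem_singleton_iff] at hf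
        rcases hf with k3 | k3 | k3
        exacts [cf k3.symm, df k3.symm, ef k3.symm]
      · exact k'
  have fin : ∀ x, 0 ≤ x → x < 6 → (x ≤ 1 ∨ 5 ≤ x) → T (pt z (p + x)) = {c, d, f} → False := by
    intro x k1 k2 k3 k4
    rcases R.no x k1 k2 (lbG_ne _ (Or.inr k4)) with k | k | k | k
    · rw [k, add_zero, P0] at k4; exact hfz (by rw [k4]; simp)
    · rw [k, P1, hcp] at k4
      have : a ∈ ({a, b, e} : Set (Fin 6))ᶜ := by rw [← k4]; simp
      exact this (by simp)
    · rcases k3 with k3 | k3 <;> linarith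
    · rcases k3 with k3 | k3 <;> linarith
  rcases le_or_gt p t with k | k
  · exact fin (t - p) (by linarith) (by linarith [ht.2]) (Or.inl (by linarith [ht.2]))
      (by rw [show p + (t - p) = t by ring]; exact key)
  · exact fin (t - p + 6) (by linarith [ht.1]) (by linarith) (Or.inr (by linarith [ht.1]))
      (by rw [show p + (t - p + 6) = t + 6 by ring, six]; exact key)

/-! ### The second orientation -/

/-- **two ends `{a, b, e}`, one end `{c, d, f}`, no `{c, d, e}`** -/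
theorem ivc_T (h : Irr U T) (h5 : NoPair5 T) (hT : OnlyJT T) (hS : Sec4 T)
    (S : CzF false true U T z a b c d e f) (Z : Zn T z a b c d p q)
    (hfin : {y | dist y z = 1 ∧ lbF false true T z a b c d e f y ≠ 0}.Finite)
    (nV : {y | dist y z = 1 ∧ T y = {a, b, e}}.ncard = 2)
    (nQ : {y | dist y z = 1 ∧ T y = {c, d, f}}.ncard = 1)
    (nJ : {y | dist y z = 1 ∧ T y = T z}.ncard = 1)
    (hno : ∀ y, dist y z = 1 → T y ≠ {c, d, e})
    (hJ : lbF false true T z a b c d e f (pt z p) = 6)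
    {v w : ℂ} (hv : EE T z v) (hTv : T v = {a, b, e}) (hw : EE T z w) (hTw : T w = {c, d, f}) :
    IVc T z (pt z p) := by
  obtain ⟨l, hl⟩ := listT S Z hfin nV nQ nJ hno hJ
  obtain ⟨r1, r2, r3, R, ⟨i1, i1'⟩, ⟨i2, i2'⟩, ⟨i3, i3'⟩⟩ := r4_838 hl hJ
  push_cast at i1 i1' i2 i2' i3 i3'
  have C := S.toCz
  have nd := S.nd
  have hcp := compl838 nd
  have h1 := R.h1; have h2 := R.h2; have h3 := R.h3; have h4 := R.h4
  obtain ⟨⟨ab, ac, ad, ae, af⟩, ⟨bc, bd, be, bf⟩, ⟨cd, ce, cf⟩, ⟨de, df⟩, ef⟩ := S5.H349.nd_ne nd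
  -- the palettes
  have P0 : T (pt z p) = T z := by simpa using lbG_pal (pt z p) 6 R.L0
  have P1 : T (pt z (p + r1)) = {a, b, e} := by simpa using lbG_pal (pt z (p + r1)) 2 R.L1
  have P2 : T (pt z (p + r2)) = {a, b, e} := by simpa using lbG_pal (pt z (p + r2)) 2 R.L2
  have P3 : T (pt z (p + r3)) = {c, d, f} := by simpa using lbG_pal (pt z (p + r3)) 4 R.L3
  have hez : e ∉ T z := by
    rw [S.dpt.pal]; simp only [mem_insert_iff, mem_singleton_iff, not_or]
    exact ⟨ae.symm, be.symm, ce.symm, de.symm⟩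
  have hfz : f ∉ T z := by
    rw [S.dpt.pal]; simp only [mem_insert_iff, mem_singleton_iff, not_or]
    exact ⟨af.symm, bf.symm, cf.symm, df.symm⟩
  have F := jf838 h h5 hT hS S.dpt nd P0
  have EV : ∀ {x : ℂ}, dist x z = 1 → T x = {a, b, e} → EE T z x := fun hx hT =>
    H471.auto471 h hS hv hw (by rw [hTw, hTv, hcp]) hx (by rw [hT, hTv])
  have EQ : ∀ {x : ℂ}, dist x z = 1 → T x = {c, d, f} → EE T z x := fun hx hT =>
    H471.auto471 h hS hw hv (by rw [hTw, hTv, hcp, compl_compl]) hx (by rw [hT, hTw])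
  have six : ∀ t, pt z (t + 6) = pt z t := fun t => pt_six z t
  have nQV : ∀ {x : ℂ}, T x = {a, b, e} → T x = {c, d, f} → False := by
    intro x k1 k2
    rw [k1] at k2
    have : c ∈ ({a, b, e} : Set (Fin 6)) := by rw [k2]; simp
    simp only [mem_insert_iff, mem_singleton_iff] at this
    rcases this with k' | k' | k'
    exacts [ac k'.symm, bc k'.symm, ce k']
  have tJ : ∀ t, 0 < t → t < 6 → T (pt z (p + t)) ≠ T z := by
    intro t k1 k2 k3
    have hne : lbF false true T z a b c d e f (pt z (p + t)) ≠ 0 := by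
      unfold lbF; rw [if_pos k3]; split_ifs <;> decide
    rcases R.no t k1.le k2 hne with k | k | k | k
    · exact k1.ne' k
    · rw [k, P1] at k3; exact hez (by rw [← k3]; simp)
    · rw [k, P2] at k3; exact hez (by rw [← k3]; simp)
    · rw [k, P3] at k3; exact hfz (by rw [← k3]; simp)
  -- no `cd`-points before `r3`
  have A2 : ∀ t ∈ Ioo p (p + r3), pt z t ∉ closure (Ex T z {c, d}) := by
    rcases noA_Ioo C.swapP (α := p) (β := p + r3) (fun t ht => by
      have e1 : pt z t = pt z (p + (t - p)) := by congr 1; ring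
      rw [e1]
      refine ⟨tJ _ (by linarith [ht.1]) (by linarith [ht.2]), hno _ (dist_pt _ _), fun k => ?_⟩
      rcases R.no (t - p) (by linarith [ht.1]) (by linarith [ht.2]) (lbG_ne _ (Or.inr k)) with
        k' | k' | k' | k'
      · linarith [ht.1]
      · rw [k'] at k; exact nQV P1 k
      · rw [k'] at k; exact nQV P2 k
      · linarith [ht.2]) with k | k
    · exfalso
      obtain ⟨β, hβ, k1⟩ := (S.sides p).1
      rw [hJ] at k1
      obtain ⟨x, hx1, hx2⟩ := exists_between (lt_min hβ (show p < p + r3 by linarith))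
      have k2 : pt z x ∈ Ex T z {a, b} := k1 x ⟨hx1, lt_of_lt_of_le hx2 (min_le_left _ _)⟩
      have k3 := k x ⟨hx1, lt_of_lt_of_le hx2 (min_le_right _ _)⟩
      have k4 : a ∈ ({c, d} : Set (Fin 6)) := by rw [← ex_self k3, ex_self k2]; simp
      rcases k4 with k4 | k4
      exacts [ac k4, ad k4]
    · exact k
  -- `5 < r3`
  have B1 : 5 < r3 := by
    refine lt_of_le_of_ne i3 fun k => ?_
    rw [← k] at P3
    have k1 := F.n5 (p + r1) (Or.inr (Or.inr P3)) (EQ (dist_pt _ _) P3)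
      (EV (dist_pt _ _) P1) (by rw [P1, P3, hcp, compl_compl])
    exact pt_ne838 (z := z) (s := p + r1) (t := p + 4) (by linarith)
      (by rw [abs_lt]; constructor <;> linarith) k1
  -- `1 < r1`
  have B2 : 1 < r1 := by
    refine lt_of_le_of_ne i1 fun k => ?_
    rw [← k] at P1
    have k1 := F.n1 (p + r3) (Or.inl (Or.inl P1)) (EV (dist_pt _ _) P1)
      (EQ (dist_pt _ _) P3) (by rw [P3, P1, hcp])
    exact pt_ne838 (z := z) (s := p + r3) (t := p + 2) (by linarith)
      (by rw [abs_lt]; constructor <;> linarith) k1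
  have nd' : [c, d, a, b, f, e].Nodup := by
    simp only [List.nodup_cons, List.mem_cons, List.not_mem_nil, or_false, not_or,
      List.nodup_nil, and_true, not_false_eq_true]
    exact ⟨⟨cd, ac.symm, bc.symm, cf, ce⟩, ⟨ad.symm, bd.symm, df, de⟩, ⟨ab, af, ae⟩, ⟨bf, be⟩,
      ef.symm⟩
  refine ⟨c, d, a, b, f, e, p, nd', S.dpt.swap, rfl, fun t ht => A2 t ⟨by linarith [ht.1],
    by linarith [ht.2]⟩, Or.inr fun t ht he hAd => ?_⟩
  -- an arc point with `e` in `[p - 1, p + 1]`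
  have key : T (pt z t) = {a, b, e} := by
    rcases hAd with k | k
    · exfalso
      rcases C.swapP.cl_cases k with k' | k' | k' | k'
      · rw [ex_self k'] at he
        rcases he with k3 | k3
        exacts [ce k3.symm, de k3.symm]
      · rw [k'] at he; exact hez he
      · exact hno _ (dist_pt _ _) k'
      · rw [k'] at he
        simp only [mem_insert_iff, mem_singleton_iff] at he
        rcases he with k3 | k3 | k3
        exacts [ce k3.symm, de k3.symm, ef k3]
    · rcases C.cl_cases k with k' | k' | k' | k'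
      · exfalso
        rw [ex_self k'] at he
        rcases he with k3 | k3
        exacts [ae k3.symm, be k3.symm]
      · exfalso; rw [k'] at he; exact hez he
      · exact k'
      · exfalso
        rw [k'] at he
        simp only [mem_insert_iff, mem_singleton_iff] at he
        rcases he with k3 | k3 | k3
        exacts [ae k3.symm, be k3.symm, ef k3]
  have fin : ∀ x, 0 ≤ x → x < 6 → (x ≤ 1 ∨ 5 ≤ x) → T (pt z (p + x)) = {a, b, e} → False := by
    intro x k1 k2 k3 k4
    rcases R.no x k1 k2 (lbG_ne _ (Or.inl k4)) with k | k | k | k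
    · rw [k, add_zero, P0] at k4; exact hez (by rw [k4]; simp)
    · rcases k3 with k3 | k3 <;> linarith
    · rcases k3 with k3 | k3 <;> linarith
    · rw [k] at k4; exact nQV k4 P3
  rcases le_or_gt p t with k | k
  · exact fin (t - p) (by linarith) (by linarith [ht.2]) (Or.inl (by linarith [ht.2]))
      (by rw [show p + (t - p) = t by ring]; exact key)
  · exact fin (t - p + 6) (by linarith [ht.1]) (by linarith) (Or.inr (by linarith [ht.1]))
      (by rw [show p + (t - p + 6) = t + 6 by ring, six]; exact key)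

end Vale.Agent.P032.H838
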