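import Vale.Agent.P032.Net.H672.DNet

/-!
# P032: centres with complementary ends, abstract form, and the `K₄` cluster

`CNet` collects the facts on the two-pair centres with complementary ends (comp centres) which
hold without any information on the words of the circles: rhombus, three centres, separation, the
line lemmas, coverage, common points of two circles, and the points of order four of the circle are
`J`-partners (`four`).  No fact on the number of ends (`L2`, `L3`) is used.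

`CNet.no_alt`: there is no comp centre with ends `q₀, v₀, q₁, v₁` in this cyclic order, with gaps
less than `π`, and with equal orientations at `v₀, v₁` and at `q₀, q₁`.
-/

open Complex

set_option linter.dupNamespace false

namespace Vale.Agent.P032.H838

open Vale.Agent.P032.Net.H672

/-- the facts on palettes and arcs at the centres with complementary ends -/
structure CNet (T : ℂ → Set (Fin 6)) (E : ℂ → ℂ → Prop) (o : ℂ → ℂ → ℝ)
    (inn : ℂ → ℂ → Fin 6) : Prop where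
  dst : ∀ {z v}, E z v → dist v z = 1
  rh : ∀ {z v q}, E z v → E z q → T q = (T v)ᶜ → E (v + q - z) v
  three : ∀ {v z₁ z₂ z₃ z₄}, Full T E z₁ v → Full T E z₂ v → Full T E z₃ v → Full T E z₄ v →
    z₁ = z₂ ∨ z₁ = z₃ ∨ z₁ = z₄ ∨ z₂ = z₃ ∨ z₂ = z₄ ∨ z₃ = z₄
  sep : ∀ {z v₁ v₂ q₁ q₂}, E z v₁ → E z v₂ → E z q₁ → E z q₂ → T v₂ = T v₁ → T q₁ = (T v₁)ᶜ →
    T q₂ = (T v₁)ᶜ →
    0 < dt (v₁ - z) (q₁ - z) * dt (v₁ - z) (q₂ - z) * (dt (v₂ - z) (q₁ - z) * dt (v₂ - z) (q₂ - z))
  card_z : ∀ {z v}, E z v → (T z).ncard = 4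
  card_v : ∀ {z v}, E z v → (T v).ncard = 3
  card_i : ∀ {z v}, E z v → (T v ∩ T z).ncard = 2
  cov : ∀ {z v q}, E z v → E z q → T q = (T v)ᶜ → ∀ i, i ∈ T z ∨ i ∈ T (v + q - z)
  ori : ∀ {z v}, E z v → o z v = 1 ∨ o z v = -1
  inn_mem : ∀ {z v}, E z v → inn z v ∈ T v ∩ T z
  /-- the arc of `z` at `v` is inside the disc about `w = v + q - z` iff the inner colour of the
  arc of `w` at `v` is the colour common to `z` and `w` -/
  LP1 : ∀ {z v q}, E z v → E z q → T q = (T v)ᶜ →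
    (0 < o z v * dt (z - v) (q - z) ↔ inn (v + q - z) v ∈ T z)
  /-- ends of one pair on both sides of a line through an end of the other pair -/
  LP2 : ∀ {z q v v'}, E z q → E z v → E z v' → T v ∩ T z = T z \ T q → T v' ∩ T z = T z \ T q →
    (inn z v = inn z v' ↔ 0 < dt (q - z) (v - z) * dt (q - z) (v' - z))
  /-- the third edge at a vertex -/
  LP3 : ∀ {z v q c p}, E z v → E z q → T q = (T v)ᶜ → E c v → E c p → T p = (T v)ᶜ →
    c ≠ z → c ≠ v + q - z → ∃ a b : ℝ, 0 ≤ a ∧ 0 ≤ b ∧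
      ((o c v : ℝ) : ℂ) * (c - v) + (a : ℂ) * (((o z v : ℝ) : ℂ) * (z - v))
        + (b : ℂ) * (((o (v + q - z) v : ℝ) : ℂ) * (q - z)) = 0
  /-- points with the palette of an end are ends -/
  auto : ∀ {z v q m}, E z v → E z q → T q = (T v)ᶜ → dist m z = 1 → T m = T v → E z m
  /-- two externally tangent circles at a common end -/
  tan : ∀ {w w' v}, E w v → E w' v → w + w' = 2 * v → inn w' v ∉ T w
  /-- the points of order four of the circle of a comp centre are `J`-partners -/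
  four : ∀ {z v q y}, E z v → E z q → T q = (T v)ᶜ → dist y z = 1 → (T y).ncard ≤ 3 ∨ T y = T z
  /-- the common points of two circles whose centres have all six colours -/
  common : ∀ {w v q w' v' q' m}, E w v → E w q → T q = (T v)ᶜ → E w' v' → E w' q' →
    T q' = (T v')ᶜ → w ≠ w' → (∀ i, i ∈ T w ∨ i ∈ T w') → dist m w = 1 → dist m w' = 1 →
    w + w' ≠ 2 * m → (T v ∩ T w ∩ T w').ncard = 1 → (T v' ∩ T w' ∩ T w).ncard = 1 →
    (T m).ncard ≤ 3 → (T m).ncard = 3 ∧
      (T m ∩ T w = T v ∩ T w ∨ T m ∩ T w = T q ∩ T w) ∧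
      (T m ∩ T w' = T v' ∩ T w' ∨ T m ∩ T w' = T q' ∩ T w')

variable {T : ℂ → Set (Fin 6)} {E : ℂ → ℂ → Prop} {o : ℂ → ℂ → ℝ} {inn : ℂ → ℂ → Fin 6}
  {z v q v' q' w : ℂ}

namespace CNet

variable (C : CNet T E o inn)
include C

theorem rh' (hv : E z v) (hq : E z q) (h : T q = (T v)ᶜ) : E (v + q - z) q := by
  have := C.rh hq hv (by rw [h, compl_compl])
  rwa [add_comm q v] at this

theorem dt_ne (hv : E z v) (hq : E z q) (h : T q = (T v)ᶜ) : dt (v - z) (q - z) ≠ 0 := by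
  intro h0
  have := C.sep hv hv hq hq rfl h h
  rw [h0] at this
  simp at this

theorem anti (hv : E z v) (hq : E z q) (h : T q = (T v)ᶜ) : v + q - z ≠ z := by
  intro h0
  apply C.dt_ne hv hq h
  have : q - z = -(v - z) := by linear_combination h0
  rw [this, dt_neg_right, dt_self, neg_zero]

theorem ne_vq (hv : E z v) (h : T q = (T v)ᶜ) : v ≠ q := by
  rintro rfl
  have h1 := C.card_v hv
  have h2 : (T v) = ∅ := by
    ext i
    constructor
    · intro hi
      have hi' := hi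
      rw [h] at hi'
      exact absurd hi hi'
    · intro hi; exact absurd hi (Set.notMem_empty i)
  rw [h2, Set.ncard_empty] at h1
  omega

/-- the palette of the opposite centre -/
theorem pal_w (hv : E z v) (hq : E z q) (h : T q = (T v)ᶜ) : (T z)ᶜ ⊆ T (v + q - z) := by
  intro i hi
  rcases C.cov hv hq h i with h1 | h1
  · exact absurd h1 hi
  · exact h1

end CNet

/-- unit vectors with determinant zero -/
theorem dt_zero {a b : ℂ} (ha : ‖a‖ = 1) (hb : ‖b‖ = 1) (h : dt a b = 0) : b = a ∨ b = -a := by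
  have h1 : a.re ^ 2 + a.im ^ 2 = 1 := by
    have := Complex.sq_norm a
    rw [ha, Complex.normSq_apply] at this
    nlinarith
  have h2 : b.re ^ 2 + b.im ^ 2 = 1 := by
    have := Complex.sq_norm b
    rw [hb, Complex.normSq_apply] at this
    nlinarith
  unfold dt at h
  have h3 : (a.re * b.re + a.im * b.im) ^ 2 = 1 := by
    have : (a.re * b.re + a.im * b.im) ^ 2 + (a.re * b.im - a.im * b.re) ^ 2 =
      (a.re ^ 2 + a.im ^ 2) * (b.re ^ 2 + b.im ^ 2) := by ring
    rw [h, h1, h2] at this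
    linarith
  have h4 : (a.re * b.re + a.im * b.im - 1) * (a.re * b.re + a.im * b.im + 1) = 0 := by
    linear_combination h3
  rcases mul_eq_zero.1 h4 with h5 | h5
  · left
    have h6 : (b.re - a.re) ^ 2 + (b.im - a.im) ^ 2 = 0 := by linear_combination h1 + h2 - 2 * h5
    have h7 : b.re - a.re = 0 := by
      have := sq_nonneg (b.im - a.im)
      exact pow_eq_zero_iff (two_ne_zero) |>.1 (le_antisymm (by linarith) (sq_nonneg _))
    have h8 : b.im - a.im = 0 := by
      have := sq_nonneg (b.re - a.re)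
      exact pow_eq_zero_iff (two_ne_zero) |>.1 (le_antisymm (by linarith) (sq_nonneg _))
    exact Complex.ext (by linarith) (by linarith)
  · right
    have h6 : (b.re + a.re) ^ 2 + (b.im + a.im) ^ 2 = 0 := by linear_combination h1 + h2 + 2 * h5
    have h7 : b.re + a.re = 0 := by
      have := sq_nonneg (b.im + a.im)
      exact pow_eq_zero_iff (two_ne_zero) |>.1 (le_antisymm (by linarith) (sq_nonneg _))
    have h8 : b.im + a.im = 0 := by
      have := sq_nonneg (b.re + a.re)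
      exact pow_eq_zero_iff (two_ne_zero) |>.1 (le_antisymm (by linarith) (sq_nonneg _))
    exact Complex.ext (by rw [Complex.neg_re]; linarith) (by rw [Complex.neg_im]; linarith)

theorem prop_aux {A B C D A' B' C' D' : Prop} (x00 : A ↔ ¬A') (x01 : B ↔ ¬B') (x10 : C ↔ ¬C')
    (x11 : D ↔ ¬D') (h : (¬A ∧ B ∧ ¬C' ∧ D') ∨ (A ∧ ¬B ∧ C' ∧ ¬D')) :
    ((A ↔ ¬B) ∧ (A ↔ ¬C) ∧ (B ↔ ¬D)) ∧ ((A' ↔ ¬B') ∧ (A' ↔ ¬C') ∧ (B' ↔ ¬D')) := by
  tauto

/-- the third colour of a three-element set -/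
theorem exists_sdiff {A B : Set (Fin 6)} (h3 : A.ncard = 3) (h2 : (A ∩ B).ncard = 2) :
    ∃ e, A \ B = {e} := by
  have h := Set.ncard_inter_add_ncard_sdiff_eq_ncard A B (Set.toFinite _)
  exact Set.ncard_eq_one.1 (by omega)

namespace CNet

variable (C : CNet T E o inn)
include C

/-- exactly one of the two colours of `T v ∩ T z` is a colour of `w` -/
theorem one_of (hv : E z v) (hq : E z q) (h : T q = (T v)ᶜ) {x x' : Fin 6} (hx : x ∈ T v)
    (hxz : x ∈ T z) (hx' : x' ∈ T v) (hxz' : x' ∈ T z) (hne : x ≠ x') :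
    x ∈ T (v + q - z) ↔ x' ∉ T (v + q - z) := by
  have h2 := C.card_i hv
  have h2' := C.card_i (C.rh hv hq h)
  obtain ⟨e, he⟩ := exists_sdiff (C.card_v hv) h2
  have hev : e ∈ T v \ T z := by rw [he]; rfl
  have hew : e ∈ T (v + q - z) := C.pal_w hv hq h hev.2
  have hxe : x ≠ e := by rintro rfl; exact hev.2 hxz
  have hxe' : x' ≠ e := by rintro rfl; exact hev.2 hxz'
  constructor
  · intro h5 h6
    have h7 : ({x, x', e} : Set (Fin 6)) ⊆ T v ∩ T (v + q - z) := by
      rintro i (rfl | rfl | hi)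
      · exact ⟨hx, h5⟩
      · exact ⟨hx', h6⟩
      · rw [Set.mem_singleton_iff] at hi; subst hi; exact ⟨hev.1, hew⟩
    have h8 := Set.ncard_le_ncard h7 (Set.toFinite _)
    rw [Set.ncard_eq_three.2 ⟨x, x', e, hne, hxe, hxe', rfl⟩] at h8
    omega
  · intro h6
    by_contra h5
    have e1 : T v ∩ T z = {x, x'} := by
      symm
      refine Set.eq_of_subset_of_ncard_le ?_ (by rw [h2, Set.ncard_pair hne]) (Set.toFinite _)
      rintro i (rfl | hi)
      · exact ⟨hx, hxz⟩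
      · rw [Set.mem_singleton_iff] at hi; subst hi; exact ⟨hx', hxz'⟩
    have h7 : T v ∩ T (v + q - z) ⊆ {e} := by
      rintro i ⟨hi, hiw⟩
      by_cases hiz : i ∈ T z
      · have : i ∈ T v ∩ T z := ⟨hi, hiz⟩
        rw [e1] at this
        rcases this with h8 | h8
        · subst h8; exact absurd hiw h5
        · rw [Set.mem_singleton_iff] at h8; subst h8; exact absurd hiw h6
      · have : i ∈ T v \ T z := ⟨hi, hiz⟩
        rw [he] at this
        exact this
    have h8 := Set.ncard_le_ncard h7 (Set.toFinite _)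
    rw [Set.ncard_singleton] at h8
    omega

/-- two ends of one type are not antipodal -/
theorem dt_ne_same (hv : E z v) (hq : E z q) (hq' : E z q') (h : T q = (T v)ᶜ)
    (h' : T q' = (T v)ᶜ) (hne : q ≠ q') : dt (q - z) (q' - z) ≠ 0 := by
  intro h0
  have n1 : ‖q - z‖ = 1 := by rw [← dist_eq_norm]; exact C.dst hq
  have n2 : ‖q' - z‖ = 1 := by rw [← dist_eq_norm]; exact C.dst hq'
  have h1 : q' - z = -(q - z) := by
    rcases dt_zero n1 n2 h0 with h1 | h1
    · exact absurd (by linear_combination -h1) hne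
    · exact h1
  have hw := C.rh hv hq h
  have hw' := C.rh hv hq' h'
  have l1 := C.LP1 hv hq h
  have l2 := C.LP1 hv hq' h'
  have hd := C.dt_ne hv hq h
  have key : ∀ {q₁ q₂ : ℂ}, E z q₁ → E z q₂ → T q₁ = (T v)ᶜ → T q₂ = (T v)ᶜ →
      q₂ - z = -(q₁ - z) → inn (v + q₂ - z) v ∉ T z → False := by
    intro q₁ q₂ a1 a2 b1 b2 hq hn
    refine C.tan (C.rh hv a1 b1) (C.rh hv a2 b2) (v := v) (by linear_combination hq) ?_
    exact C.pal_w hv a1 b1 hn
  have hdz : dt (z - v) (q - z) ≠ 0 := by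
    rw [show z - v = -(v - z) by ring, dt_neg_left]
    exact neg_ne_zero.2 hd
  have ho : o z v ≠ 0 := by
    rcases C.ori hv with h5 | h5 <;> rw [h5] <;> norm_num
  rcases lt_or_gt_of_ne (mul_ne_zero ho hdz) with h5 | h5
  · refine key hq' hq h' h (by rw [h1]; ring) fun h6 => ?_
    have := l1.2 h6
    linarith
  · refine key hq hq' h h' h1 fun h6 => ?_
    have := l2.2 h6
    rw [h1, dt_neg_right] at this
    linarith

/-- the side of the opposite centre and the inner colour -/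
theorem inner_iff (hv : E z v) (hq : E z q) (h : T q = (T v)ᶜ) :
    0 < o (v + q - z) v * dt (v - z) (q - z) ↔ inn z v ∈ T (v + q - z) := by
  have := C.LP1 (C.rh hv hq h) (C.rh' hv hq h) h
  rw [show v + q - (v + q - z) = z by ring] at this
  rw [← this, show v + q - z - v = q - z by ring, show q - (v + q - z) = -(v - z) by ring,
    dt_neg_right, dt_comm (q - z) (v - z)]

/-- **the vertex rule** -/
theorem vertex (hv : E z v) (hq : E z q) (hq' : E z q') (h : T q = (T v)ᶜ)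
    (h' : T q' = (T v)ᶜ) (h1 : 0 < dt (q - z) (v - z)) (h2 : 0 < dt (v - z) (q' - z)) :
    o (v + q - z) v = o (v + q' - z) v ∧
      0 < o (v + q - z) v * o z v * dt (q - z) (q' - z) := by
  have hne : q ≠ q' := by
    rintro rfl
    rw [dt_comm] at h2
    linarith
  have hd := C.dt_ne_same hv hq hq' h h' hne
  obtain ⟨a, b, ha, hb, hab⟩ := C.LP3 hv hq h (C.rh hv hq' h') (C.rh' hv hq' h') h'
    (C.anti hv hq' h') (fun h5 => hne (by linear_combination -h5))
  rw [show v + q' - z - v = q' - z by ring, show z - v = -(v - z) by ring] at hab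
  have e0 : ((o (v + q' - z) v : ℝ) : ℂ) * (q' - z) + ((-(a * o z v) : ℝ) : ℂ) * (v - z) +
      ((b * o (v + q - z) v : ℝ) : ℂ) * (q - z) = 0 := by
    push_cast
    linear_combination hab
  have e1 := dt_lin (q - z) e0
  have e2 := dt_lin (v - z) e0
  rw [dt_self] at e1 e2
  rw [dt_comm (q - z) (v - z)] at e2
  set X := dt (q - z) (v - z) with hX
  set Y := dt (v - z) (q' - z) with hY
  set D := dt (q - z) (q' - z) with hD
  have o1 := C.ori (C.rh hv hq h)
  have o2 := C.ori (C.rh hv hq' h')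
  have o3 := C.ori hv
  have ha' : 0 < a := by
    rcases ha.lt_or_eq with h5 | h5
    · exact h5
    · exfalso
      rw [← h5] at e1
      have h6 : o (v + q' - z) v * D = 0 := by linarith
      rcases mul_eq_zero.1 h6 with h7 | h7
      · rcases o2 with h8 | h8 <;> rw [h8] at h7 <;> norm_num at h7
      · exact hd h7
  have hb' : 0 < b := by
    rcases hb.lt_or_eq with h5 | h5
    · exact h5
    · exfalso
      rw [← h5] at e2
      have h6 : o (v + q' - z) v * Y = 0 := by linarith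
      rcases mul_eq_zero.1 h6 with h7 | h7
      · rcases o2 with h8 | h8 <;> rw [h8] at h7 <;> norm_num at h7
      · exact h2.ne' h7
  have hbX := mul_pos hb' h1
  have haX := mul_pos ha' h1
  have heq : o (v + q - z) v = o (v + q' - z) v := by
    rcases o1 with h5 | h5 <;> rcases o2 with h6 | h6
    · rw [h5, h6]
    · exfalso; rw [h5, h6] at e2; nlinarith
    · exfalso; rw [h5, h6] at e2; nlinarith
    · rw [h5, h6]
  refine ⟨heq, ?_⟩
  rw [heq]
  rcases o2 with h5 | h5 <;> rcases o3 with h6 | h6 <;> rw [h5, h6] at e1 ⊢ <;> nlinarith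

/-- the fourth corner of two neighbouring rhombi: an end of both opposite centres, of the type of
`q` -/
theorem corner (hv : E z v) (hv' : E z v') (hq : E z q) (hq' : E z q') (hvv : T v' = T v)
    (nv : v' ≠ v) (nq : q ≠ q') (h : T q = (T v)ᶜ) (h' : T q' = (T v)ᶜ)
    (hx : ∀ x, x ∈ T v → x ∈ T z → (x ∈ T (v + q - z) ↔ x ∉ T (v + q' - z)))
    (hy : ∀ y, y ∈ T q → y ∈ T z → (y ∈ T (v + q - z) ↔ y ∉ T (v + q' - z))) :
    E (v + q - z) (v + q + q' - 2 * z) ∧ E (v + q' - z) (v + q + q' - 2 * z) ∧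
      T (v + q + q' - 2 * z) = (T v)ᶜ := by
  set p := v + q + q' - 2 * z with hp
  set w := v + q - z with hw
  set w' := v + q' - z with hw'
  have hd := C.dt_ne_same hv hq hq' h h' nq
  have hcov : ∀ i, i ∈ T w ∨ i ∈ T w' := by
    intro i
    by_cases hiz : i ∈ T z
    · by_cases hiv : i ∈ T v
      · by_cases h5 : i ∈ T w
        · exact Or.inl h5
        · right
          by_contra h6
          exact h5 ((hx i hiv hiz).2 h6)
      · have hiq : i ∈ T q := by rw [h]; exact hiv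
        by_cases h5 : i ∈ T w
        · exact Or.inl h5
        · right
          by_contra h6
          exact h5 ((hy i hiq hiz).2 h6)
    · exact Or.inl (C.pal_w hv hq h hiz)
  have one : ∀ {u : ℂ}, (∀ i, i ∈ T u → i ∈ T z → (i ∈ T w ↔ i ∉ T w')) → (T u).ncard = 3 →
      (T u ∩ T z).ncard = 2 → (T u ∩ T w ∩ T w').ncard = 1 := by
    intro u hu h3 h2
    have h5 : T u ∩ T w ∩ T w' = T u \ T z := by
      ext i
      constructor
      · rintro ⟨⟨h6, h7⟩, h8⟩
        refine ⟨h6, fun h9 => ?_⟩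
        exact (hu i h6 h9).1 h7 h8
      · rintro ⟨h6, h7⟩
        exact ⟨⟨h6, C.pal_w hv hq h h7⟩, C.pal_w hv hq' h' h7⟩
    rw [h5]
    obtain ⟨e, he⟩ := exists_sdiff h3 h2
    rw [he, Set.ncard_singleton]
  have Ewv : E w v := C.rh hv hq h
  have Ewq : E w q := C.rh' hv hq h
  have Ewv' : E w' v := C.rh hv hq' h'
  have Ewq' : E w' q' := C.rh' hv hq' h'
  have hww : w ≠ w' := fun h5 => nq (by rw [hw, hw'] at h5; linear_combination h5)
  have dpw : dist p w = 1 := by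
    rw [dist_eq_norm, show p - w = q' - z by rw [hp, hw]; ring, ← dist_eq_norm]; exact C.dst hq'
  have dpw' : dist p w' = 1 := by
    rw [dist_eq_norm, show p - w' = q - z by rw [hp, hw']; ring, ← dist_eq_norm]; exact C.dst hq
  have n2 : w + w' ≠ 2 * p := by
    intro h5
    apply hd
    have h6 : q' - z = -(q - z) := by rw [hw, hw', hp] at h5; linear_combination -h5
    rw [h6, dt_neg_right, dt_self, neg_zero]
  have h3p : (T p).ncard ≤ 3 := by
    rcases C.four Ewv Ewq h dpw with h5 | h5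
    · exact h5
    rcases C.four Ewv' Ewq' h' dpw' with h6 | h6
    · exact h6
    exfalso
    have h7 : T w = Set.univ := by
      refine Set.eq_univ_of_forall fun i => ?_
      rcases hcov i with h8 | h8
      · exact h8
      · rw [← h5, h6]; exact h8
    have h8 := C.card_z Ewv
    rw [h7, Set.ncard_univ, Nat.card_eq_fintype_card, Fintype.card_fin] at h8
    omega
  have s1 := one hx (C.card_v hv) (C.card_i hv)
  have hcomm : T v ∩ T w' ∩ T w = T v ∩ T w ∩ T w' := by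
    ext i; simp only [Set.mem_inter_iff]; tauto
  obtain ⟨k3, k1, k2⟩ := C.common Ewv Ewq h Ewv' Ewq' h' hww hcov dpw dpw' n2 s1
    (by rw [hcomm]; exact s1) h3p
  have sub : ∀ {u : ℂ}, (T u).ncard = 3 → T p ∩ T w = T u ∩ T w → T p ∩ T w' = T u ∩ T w' →
      T p = T u := by
    intro u hu a1 a2
    symm
    refine Set.eq_of_subset_of_ncard_le ?_ (by rw [k3, hu]) (Set.toFinite _)
    intro i hi
    rcases hcov i with h5 | h5
    · have : i ∈ T u ∩ T w := ⟨hi, h5⟩
      rw [← a1] at this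
      exact this.1
    · have : i ∈ T u ∩ T w' := ⟨hi, h5⟩
      rw [← a2] at this
      exact this.1
  have c3q : (T q).ncard = 3 := C.card_v hq
  have hqq : T q' = T q := by rw [h, h']
  have big : ∀ {A B : Set (Fin 6)}, A ⊆ T p → B ⊆ T p → Disjoint A B → A.ncard = 2 →
      B.ncard = 2 → False := by
    intro A B a1 a2 a3 a4 a5
    have h5 := Set.ncard_le_ncard (Set.union_subset a1 a2) (Set.toFinite _)
    rw [Set.ncard_union_eq a3 (Set.toFinite _) (Set.toFinite _)] at h5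
    omega
  rcases k1 with k1 | k1 <;> rcases k2 with k2 | k2
  · -- `p` of the type of `v`: a fourth centre of `q`
    exfalso
    have hTp := sub (C.card_v hv) k1 k2
    have Ewp : E w p := C.auto Ewv Ewq h dpw hTp
    have hqp : T q = (T p)ᶜ := by rw [hTp]; exact h
    have c1 : v + q - z ≠ z := C.anti hv hq h
    have hv'q : T q = (T v')ᶜ := by rw [hvv]; exact h
    have c2 : v' + q - z ≠ z := C.anti hv' hq hv'q
    have e3 : p + q - w = q + q' - z := by rw [hp, hw]; ring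
    have F : ∀ {z' u : ℂ}, E z' u → E z' q → T q = (T u)ᶜ → Full T E z' q := by
      intro z' u a1 a2 a3
      exact ⟨a2, u, a1, by rw [a3, compl_compl]⟩
    have f4 : Full T E (q + q' - z) q := by
      have := F (C.rh Ewp Ewq hqp) (C.rh' Ewp Ewq hqp) hqp
      rwa [e3] at this
    rcases C.three (F hv hq h) (F Ewv Ewq h) (F (C.rh hv' hq hv'q) (C.rh' hv' hq hv'q) hv'q) f4 with
      h5 | h5 | h5 | h5 | h5 | h5
    · exact c1 h5.symm
    · exact c2 h5.symm
    · apply hd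
      have h6 : q' - z = -(q - z) := by linear_combination -h5
      rw [h6, dt_neg_right, dt_self, neg_zero]
    · exact nv (by rw [hw] at h5; linear_combination -h5)
    · exact C.ne_vq (q := q') hv h' (by rw [hw] at h5; linear_combination h5)
    · exact C.ne_vq (q := q') hv' (by rw [hvv]; exact h') (by linear_combination h5)
  · exfalso
    refine big (A := T v ∩ T w) (B := T q' ∩ T w') ?_ ?_ ?_ (C.card_i Ewv) (C.card_i Ewq')
    · rw [← k1]; exact Set.inter_subset_left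
    · rw [← k2]; exact Set.inter_subset_left
    · rw [Set.disjoint_left]
      rintro i ⟨h5, -⟩ ⟨h6, -⟩
      rw [h'] at h6
      exact h6 h5
  · exfalso
    refine big (A := T q ∩ T w) (B := T v ∩ T w') ?_ ?_ ?_ (C.card_i Ewq) (C.card_i Ewv')
    · rw [← k1]; exact Set.inter_subset_left
    · rw [← k2]; exact Set.inter_subset_left
    · rw [Set.disjoint_left]
      rintro i ⟨h5, -⟩ ⟨h6, -⟩
      rw [h] at h5
      exact h5 h6
  · have hTp := sub c3q k1 (by rw [k2, hqq])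
    have hvq : T v = (T q)ᶜ := by rw [h, compl_compl]
    exact ⟨C.auto Ewq Ewv hvq dpw hTp, C.auto Ewq' Ewv' (by rw [hqq]; exact hvq) dpw'
      (by rw [hqq]; exact hTp), by rw [hTp]; exact h⟩

/-- the common colours with the opposite centres, of the type of `v₀` -/
theorem alt_x {v₀ v₁ q₀ q₁ : ℂ} (a0 : E z v₀) (a1 : E z v₁) (b0 : E z q₀) (b1 : E z q₁)
    (hvv : T v₁ = T v₀) (h0 : T q₀ = (T v₀)ᶜ) (h1 : T q₁ = (T v₀)ᶜ)
    (d1 : 0 < dt (q₀ - z) (v₀ - z)) (d2 : 0 < dt (v₀ - z) (q₁ - z))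
    (d3 : 0 < dt (q₁ - z) (v₁ - z)) (d4 : 0 < dt (v₁ - z) (q₀ - z)) (ho : o z v₀ = o z v₁) :
    ∀ x, x ∈ T v₀ → x ∈ T z → (x ∈ T (v₀ + q₀ - z) ↔ x ∉ T (v₀ + q₁ - z)) ∧
      (x ∈ T (v₀ + q₀ - z) ↔ x ∉ T (v₁ + q₀ - z)) ∧
      (x ∈ T (v₀ + q₁ - z) ↔ x ∉ T (v₁ + q₁ - z)) := by
  have h0' : T q₀ = (T v₁)ᶜ := by rw [hvv]; exact h0
  have h1' : T q₁ = (T v₁)ᶜ := by rw [hvv]; exact h1
  obtain ⟨e1, s1⟩ := C.vertex a0 b0 b1 h0 h1 d1 d2
  obtain ⟨e2, s2⟩ := C.vertex a1 b1 b0 h1' h0' d3 d4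
  have i00 := C.inner_iff a0 b0 h0
  have i01 := C.inner_iff a0 b1 h1
  have i10 := C.inner_iff a1 b0 h0'
  have i11 := C.inner_iff a1 b1 h1'
  have m0 := C.inn_mem a0
  have m1 := C.inn_mem a1
  have hne : inn z v₀ ≠ inn z v₁ := by
    have h5 := C.LP2 b0 a0 a1 (by rw [h0]; ext i; simp; tauto)
      (by rw [h0, ← hvv]; ext i; simp; tauto)
    intro h6
    have h7 := h5.1 h6
    rw [dt_comm (v₁ - z) (q₀ - z)] at h7
    nlinarith
  set τ := o (v₀ + q₀ - z) v₀ with hτ
  set τ' := o (v₁ + q₁ - z) v₁ with hτ'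
  rw [← e1] at i01
  rw [← e2] at i10
  have t1 : τ = 1 ∨ τ = -1 := C.ori (C.rh a0 b0 h0)
  have t2 : τ' = 1 ∨ τ' = -1 := C.ori (C.rh a1 b1 h1')
  have hopp : τ' = -τ := by
    rw [ho] at s1
    rw [dt_comm (q₀ - z) (q₁ - z)] at s2
    have hD : dt (q₀ - z) (q₁ - z) ≠ 0 := by
      intro h5; rw [h5] at s1; simp at s1
    have oo := C.ori a1
    rcases t1 with h5 | h5 <;> rcases t2 with h6 | h6 <;> rcases oo with h7 | h7 <;>
      rw [h5, h7] at s1 <;> rw [h6, h7] at s2 <;> rw [h5, h6] <;> first | (norm_num; done) | (exfalso; linarith)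
  rw [hopp] at i10 i11
  rw [dt_comm (v₀ - z) (q₀ - z)] at d1
  rw [dt_comm (v₁ - z) (q₁ - z)] at d3
  -- the four statements on `inn z v₀`
  have x00 := C.one_of a0 b0 h0 m0.1 m0.2 (x' := inn z v₁) (by rw [← hvv]; exact m1.1) m1.2 hne
  have x01 := C.one_of a0 b1 h1 m0.1 m0.2 (x' := inn z v₁) (by rw [← hvv]; exact m1.1) m1.2 hne
  have x10 := C.one_of a1 b0 h0' (by rw [hvv]; exact m0.1) m0.2 (x' := inn z v₁) m1.1 m1.2 hne
  have x11 := C.one_of a1 b1 h1' (by rw [hvv]; exact m0.1) m0.2 (x' := inn z v₁) m1.1 m1.2 hne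
  have two : ∀ x, x ∈ T v₀ → x ∈ T z → x = inn z v₀ ∨ x = inn z v₁ := by
    intro x hx hxz
    have e5 : T v₀ ∩ T z = {inn z v₀, inn z v₁} := by
      symm
      refine Set.eq_of_subset_of_ncard_le ?_ (by rw [C.card_i a0, Set.ncard_pair hne])
        (Set.toFinite _)
      rintro i (rfl | hi)
      · exact m0
      · rw [Set.mem_singleton_iff] at hi; subst hi
        exact ⟨by rw [← hvv]; exact m1.1, m1.2⟩
    have : x ∈ T v₀ ∩ T z := ⟨hx, hxz⟩
    rw [e5] at this
    exact this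
  have P : τ = 1 → inn z v₀ ∉ T (v₀ + q₀ - z) ∧ inn z v₀ ∈ T (v₀ + q₁ - z) ∧
      inn z v₁ ∉ T (v₁ + q₀ - z) ∧ inn z v₁ ∈ T (v₁ + q₁ - z) := by
    intro h5
    rw [h5] at i00 i01 i10 i11
    refine ⟨fun h6 => ?_, i01.1 (by linarith), fun h6 => ?_, i11.1 (by linarith)⟩
    · have := i00.2 h6; linarith
    · have := i10.2 h6; linarith
  have M : τ = -1 → inn z v₀ ∈ T (v₀ + q₀ - z) ∧ inn z v₀ ∉ T (v₀ + q₁ - z) ∧
      inn z v₁ ∈ T (v₁ + q₀ - z) ∧ inn z v₁ ∉ T (v₁ + q₁ - z) := by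
    intro h5
    rw [h5] at i00 i01 i10 i11
    refine ⟨i00.1 (by linarith), fun h6 => ?_, i10.1 (by linarith), fun h6 => ?_⟩
    · have := i01.2 h6; linarith
    · have := i11.2 h6; linarith
  have main := prop_aux x00 x01 x10 x11 (t1.imp P M)
  intro x hx hxz
  rcases two x hx hxz with h5 | h5
  · rw [h5]; exact main.1
  · rw [h5]; exact main.2

/-- **no alternating centre with equal orientations** -/
theorem no_alt {v₀ v₁ q₀ q₁ : ℂ} (a0 : E z v₀) (a1 : E z v₁) (b0 : E z q₀) (b1 : E z q₁)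
    (hvv : T v₁ = T v₀) (h0 : T q₀ = (T v₀)ᶜ) (h1 : T q₁ = (T v₀)ᶜ)
    (d1 : 0 < dt (q₀ - z) (v₀ - z)) (d2 : 0 < dt (v₀ - z) (q₁ - z))
    (d3 : 0 < dt (q₁ - z) (v₁ - z)) (d4 : 0 < dt (v₁ - z) (q₀ - z)) (ho : o z v₀ = o z v₁)
    (ho' : o z q₀ = o z q₁) : False := by
  have hx := C.alt_x a0 a1 b0 b1 hvv h0 h1 d1 d2 d3 d4 ho
  have hqq : T q₀ = T q₁ := by rw [h0, h1]
  have hy := C.alt_x (v₀ := q₁) (v₁ := q₀) (q₀ := v₀) (q₁ := v₁) b1 b0 a0 a1 hqq
    (by rw [h1, compl_compl]) (by rw [h1, compl_compl]; exact hvv) d2 d3 d4 d1 ho'.symm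
  rw [show q₁ + v₀ - z = v₀ + q₁ - z by ring, show q₁ + v₁ - z = v₁ + q₁ - z by ring,
    show q₀ + v₀ - z = v₀ + q₀ - z by ring, show q₀ + v₁ - z = v₁ + q₀ - z by ring] at hy
  have nv : v₁ ≠ v₀ := by
    rintro rfl
    rw [dt_comm] at d2
    linarith
  have nq : q₀ ≠ q₁ := by
    rintro rfl
    rw [dt_comm] at d1
    linarith
  have hqv : T v₀ = (T q₀)ᶜ := by rw [h0, compl_compl]
  have hqv' : T v₁ = (T q₀)ᶜ := by rw [hvv]; exact hqv
  have hqv1 : T v₀ = (T q₁)ᶜ := by rw [h1, compl_compl]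
  have hqv1' : T v₁ = (T q₁)ᶜ := by rw [hvv]; exact hqv1
  obtain ⟨k1, k2, k3⟩ := C.corner a0 a1 b0 b1 hvv nv nq h0 h1 (fun x hx1 hx2 => (hx x hx1 hx2).1)
    (fun y hy1 hy2 => by
      have := hy y (by rw [← hqq]; exact hy1) hy2
      tauto)
  obtain ⟨l1, l2, l3⟩ := C.corner b0 b1 a0 a1 hqq.symm nq.symm nv.symm hqv hqv'
    (fun y hy1 hy2 => by
      have := hy y (by rw [← hqq]; exact hy1) hy2
      rw [add_comm q₀ v₀, add_comm q₀ v₁]
      tauto)
    (fun x hx1 hx2 => by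
      have := hx x hx1 hx2
      rw [add_comm q₀ v₀, add_comm q₀ v₁]
      tauto)
  obtain ⟨m1, m2, m3⟩ := C.corner b1 b0 a0 a1 hqq nq nv.symm hqv1 hqv1'
    (fun y hy1 hy2 => by
      have := hy y hy1 hy2
      rw [add_comm q₁ v₀, add_comm q₁ v₁]
      tauto)
    (fun x hx1 hx2 => by
      have := hx x hx1 hx2
      rw [add_comm q₁ v₀, add_comm q₁ v₁]
      tauto)
  rw [show q₀ + v₀ - z = v₀ + q₀ - z by ring,
    show q₀ + v₀ + v₁ - 2 * z = v₀ + q₀ + v₁ - 2 * z by ring] at l1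
  rw [show q₀ + v₀ + v₁ - 2 * z = v₀ + q₀ + v₁ - 2 * z by ring] at l3
  rw [show q₁ + v₀ - z = v₀ + q₁ - z by ring,
    show q₁ + v₀ + v₁ - 2 * z = v₀ + q₁ + v₁ - 2 * z by ring] at m1
  rw [show q₁ + v₀ + v₁ - 2 * z = v₀ + q₁ + v₁ - 2 * z by ring] at m3
  have hd := C.dt_ne_same a0 b0 b1 h0 h1 nq
  have f1 := C.sep (C.rh a0 b0 h0) l1 (C.rh' a0 b0 h0) k1 (by rw [l3, ← hqv]) h0 k3
  have f2 := C.sep (C.rh a0 b1 h1) m1 (C.rh' a0 b1 h1) k2 (by rw [m3, ← hqv1]) h1 k3
  rw [show v₀ - (v₀ + q₀ - z) = -(q₀ - z) by ring, show q₀ - (v₀ + q₀ - z) = -(v₀ - z) by ring,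
    show v₀ + q₀ + q₁ - 2 * z - (v₀ + q₀ - z) = q₁ - z by ring,
    show v₀ + q₀ + v₁ - 2 * z - (v₀ + q₀ - z) = v₁ - z by ring] at f1
  rw [show v₀ - (v₀ + q₁ - z) = -(q₁ - z) by ring, show q₁ - (v₀ + q₁ - z) = -(v₀ - z) by ring,
    show v₀ + q₀ + q₁ - 2 * z - (v₀ + q₁ - z) = q₀ - z by ring,
    show v₀ + q₁ + v₁ - 2 * z - (v₀ + q₁ - z) = v₁ - z by ring] at f2
  simp only [dt_neg_left, dt_neg_right] at f1 f2
  rw [dt_comm (v₁ - z) (q₁ - z)] at d3
  rw [dt_comm (q₀ - z) (q₁ - z), dt_comm (v₀ - z) (q₁ - z)] at f2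
  set A := dt (q₀ - z) (v₀ - z)
  set B := dt (v₀ - z) (q₁ - z)
  set G := dt (v₁ - z) (q₁ - z)
  set H := dt (v₁ - z) (q₀ - z)
  set D := dt (q₀ - z) (q₁ - z)
  set W := dt (v₁ - z) (v₀ - z)
  have g1 : 0 < A * (-G) * (-(D * W)) := by linarith
  have g2 : 0 < B * H * (D * W) := by linarith
  have a5 : 0 < A * (-G) := mul_pos d1 (by linarith)
  have a6 : 0 < B * H := mul_pos d2 d4
  have g3 : 0 < -(D * W) := (mul_pos_iff_of_pos_left a5).1 g1
  have g4 : 0 < D * W := (mul_pos_iff_of_pos_left a6).1 g2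
  linarith

end CNet

end Vale.Agent.P032.H838
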